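import Vale.Agent.P130.Gen

namespace Vale.Agent.P130

open Finset MeasureTheory Filter Topology
open scoped Real ComplexConjugate

lemma cont_mul_int {E : Type*} [NormedRing E] {f g : TT → E} (hf : Continuous f)
    (hg : Integrable g mT) : Integrable (fun x => f x * g x) mT :=
  hg.bdd_mul (c := ‖(⟨f, hf⟩ : C(TT, E))‖) hf.aestronglyMeasurable
    (ae_of_all _ fun x => (⟨f, hf⟩ : C(TT, E)).norm_coe_le_norm x)

lemma fast_cauchy (G : ℕ → TT → ℝ) (hG : ∀ k, Integrable (G k) mT) (C : ℝ)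
    (h : ∀ k, ∫ t, |G (k + 1) t - G k t| ∂mT ≤ C * (1 / 2) ^ k) :
    ∃ ρ : TT → ℝ, Integrable ρ mT ∧ ∀ k, ∫ t, |ρ t - G k t| ∂mT ≤ 2 * C * (1 / 2) ^ k := by
  have h1 : ∀ k, dist ((hG k).toL1 _) ((hG (k + 1)).toL1 _) ≤ C * (1 / 2) ^ k := by
    intro k
    rw [L1.dist_eq_integral_dist]
    refine le_trans (le_of_eq (integral_congr_ae ?_)) (h k)
    filter_upwards [(hG k).coeFn_toL1, (hG (k + 1)).coeFn_toL1] with t a b
    rw [a, b, dist_comm, Real.dist_eq]
  obtain ⟨ρ, hρ⟩ := cauchySeq_tendsto_of_complete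
    (cauchySeq_of_le_geometric (1 / 2) C (by norm_num) h1)
  refine ⟨ρ, L1.integrable_coeFn ρ, fun k => ?_⟩
  have h2 := dist_le_of_le_geometric_of_tendsto (1 / 2) C (by norm_num) h1 hρ k
  rw [L1.dist_eq_integral_dist] at h2
  refine le_trans (le_of_eq (integral_congr_ae ?_)) (h2.trans (le_of_eq (by ring)))
  filter_upwards [(hG k).coeFn_toL1] with t a
  rw [a, dist_comm, Real.dist_eq]

lemma ae_zero_of_le {f : TT → ℝ} (hf : Integrable f mT) (h0 : ∀ t, 0 ≤ f t) (C : ℝ)
    (h : ∀ k : ℕ, ∫ t, f t ∂mT ≤ C * (1 / 2) ^ k) : ∀ᵐ t ∂mT, f t = 0 := by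
  refine (integral_eq_zero_iff_of_nonneg h0 hf).1 (le_antisymm ?_ (integral_nonneg h0))
  have := (tendsto_pow_atTop_nhds_zero_of_lt_one (r := (1 / 2 : ℝ)) (by norm_num)
    (by norm_num)).const_mul C
  rw [mul_zero] at this
  exact ge_of_tendsto' this h

lemma decouple {Φ : TT → ℝ} (hΦ : Integrable Φ mT) {T : ℕ} (hT : 0 < T) (s : Finset ℕ)
    (hs : ∀ d ∈ s, d < T) :
    Integrable (fun t => Φ ((T:ℤ) • t)) mT ∧
    ∫ t, ‖∑ d ∈ s, fourier (-(d:ℤ)) t‖ ^ 2 * Φ ((T:ℤ) • t) ∂mT = s.card * ∫ t, Φ t ∂mT := by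
  have hT' : (T:ℤ) ≠ 0 := by omega
  have hTR : (0:ℝ) < T := by exact_mod_cast hT
  have hm : MeasurePreserving (fun t : TT => (T:ℤ) • t) mT mT := Measure.measurePreserving_zsmul mT hT'
  have hi : Integrable (fun t => Φ ((T:ℤ) • t)) mT := (hm.integrable_comp hΦ.1).2 hΦ
  refine ⟨hi, ?_⟩
  have h0 : ∫ t, Φ ((T:ℤ) • t) ∂mT = ∫ t, Φ t ∂mT := by
    rw [← integral_map hm.measurable.aemeasurable (by rw [hm.map_eq]; exact hΦ.1), hm.map_eq]
  have h1 : ∀ l : ℤ, l ≠ 0 → |l| < T → ∫ t, fourier l t * (Φ ((T:ℤ) • t) : ℂ) ∂mT = 0 := by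
    intro l hl hl2
    have a1 := integral_add_right_eq_self (μ := mT) (fun t => fourier l t * (Φ ((T:ℤ) • t) : ℂ))
      ((1 / T : ℝ) : TT)
    have a2 : (T:ℤ) • ((1 / T : ℝ) : TT) = 0 := by
      rw [← AddCircle.coe_zsmul, zsmul_eq_mul, Int.cast_natCast, mul_one_div_cancel hTR.ne',
        AddCircle.coe_period]
    simp only [smul_add, a2, add_zero, fourier_add_arg, fourier_coe, mul_right_comm _ (ee _),
      integral_mul_const] at a1
    by_contra hne
    have a3 := mul_left_cancel₀ hne (a1.trans (mul_one _).symm)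
    rw [ee, Complex.exp_eq_one_iff] at a3
    obtain ⟨n, hn⟩ := a3
    have a4 : (l:ℂ) = T * n := by
      have b1 : (T:ℂ) ≠ 0 := by exact_mod_cast hT.ne'
      have b2 : (2 * π * Complex.I : ℂ) ≠ 0 := Complex.two_pi_I_ne_zero
      apply mul_left_cancel₀ b2
      push_cast at hn
      field_simp at hn
      rw [hn]
    exact hl (Int.eq_zero_of_abs_lt_dvd ⟨n, by exact_mod_cast a4⟩ hl2)
  apply Complex.ofReal_injective
  rw [← integral_complex_ofReal]
  have e : ∀ t : TT, ((‖∑ d ∈ s, fourier (-(d:ℤ)) t‖ ^ 2 * Φ ((T:ℤ) • t) : ℝ) : ℂ) =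
      ∑ a ∈ s, ∑ b ∈ s, fourier (-(a:ℤ) - -(b:ℤ)) t * (Φ ((T:ℤ) • t) : ℂ) := by
    intro t
    have := sq_trig s (fun d => -(d:ℤ)) (fun _ => 1) t
    simp only [one_mul, map_one] at this
    rw [Complex.ofReal_mul, this]; simp only [sum_mul]
  have i1 : ∀ l : ℤ, Integrable (fun t => fourier l t * (Φ ((T:ℤ) • t) : ℂ)) mT := fun l =>
    cont_mul_int (fourier l).continuous hi.ofReal
  simp only [e]
  rw [integral_finsetSum _ fun a _ => integrable_finsetSum _ fun b _ => i1 _, sum_congr rfl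
    (g := fun _ => ((∫ t, Φ t ∂mT : ℝ) : ℂ))]
  · simp
  · intro a ha
    rw [integral_finsetSum _ fun b _ => i1 _, sum_eq_single_of_mem a ha]
    · simp only [sub_self, fourier_zero, one_mul, integral_complex_ofReal, h0]
    · intro b hb hne
      have := hs a ha
      have := hs b hb
      exact h1 _ (by omega) (by rw [abs_lt]; omega)

lemma fourier_unique {ψ : TT → ℂ} (hψ : Integrable ψ mT)
    (h : ∀ k : ℤ, ∫ t, fourier k t * ψ t ∂mT = 0) : ψ =ᵐ[mT] 0 := by
  have h1 : ∀ f : C(TT, ℂ), ∫ t, f t * ψ t ∂mT = 0 := by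
    let L : C(TT, ℂ) →ₗ[ℂ] ℂ :=
      { toFun := fun f => ∫ t, f t * ψ t ∂mT
        map_add' := fun f g => by
          simp only [ContinuousMap.add_apply, add_mul]
          exact integral_add (cont_mul_int f.continuous hψ) (cont_mul_int g.continuous hψ)
        map_smul' := fun c f => by
          simp only [ContinuousMap.smul_apply, smul_eq_mul, mul_assoc, integral_const_mul,
            RingHom.id_apply] }
    let L' := L.mkContinuous (∫ t, ‖ψ t‖ ∂mT) fun f => by
      rw [← integral_mul_const]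
      refine norm_integral_le_of_norm_le (hψ.norm.mul_const _) (ae_of_all _ fun t => ?_)
      rw [norm_mul, mul_comm]
      exact mul_le_mul_of_nonneg_left (f.norm_coe_le_norm t) (norm_nonneg _)
    have h2 : (Submodule.span ℂ (Set.range (@fourier 1))).topologicalClosure ≤ L'.ker :=
      Submodule.topologicalClosure_minimal _ (Submodule.span_le.2 (by
        rintro _ ⟨k, rfl⟩; exact h k)) L'.isClosed_ker
    rw [span_fourier_closure_eq_top] at h2
    exact fun f => h2 (Submodule.mem_top (x := f))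
  refine ae_eq_zero_of_forall_setIntegral_isClosed_eq_zero hψ fun s hs => ?_
  rw [← integral_indicator hs.measurableSet]
  have h3 := tendsto_integral_of_dominated_convergence (μ := mT)
    (F := fun n t => (((hs.apprSeq n t : NNReal) : ℝ) : ℂ) * ψ t) (f := s.indicator ψ)
    (fun t => ‖ψ t‖) (fun n => (cont_mul_int (by fun_prop) hψ).1) hψ.norm
    (fun n => ae_of_all _ fun t => by
      rw [norm_mul]
      refine mul_le_of_le_one_left (norm_nonneg _) ?_
      simpa using HasOuterApproxClosed.apprSeq_apply_le_one hs n t)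
    (ae_of_all _ fun t => by
      have := tendsto_pi_nhds.1 (HasOuterApproxClosed.tendsto_apprSeq hs) t
      have h4 := ((Complex.continuous_ofReal.tendsto _).comp
        ((NNReal.continuous_coe.tendsto _).comp this)).mul_const (ψ t)
      by_cases ht : t ∈ s <;> simpa [ht, Function.comp_def] using h4)
  refine tendsto_nhds_unique h3 (tendsto_const_nhds.congr fun n => ?_)
  exact (h1 ⟨fun t => (((hs.apprSeq n t : NNReal) : ℝ) : ℂ), by fun_prop⟩).symm

/-- the weight vanishing at the origin -/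
noncomputable def ww (t : TT) : ℝ := ‖1 - fourier (-1) t‖ ^ 2

lemma continuous_ww : Continuous ww := by unfold ww; fun_prop

lemma ww_eq (l : ℤ) (t : TT) :
    fourier l t * (ww t : ℂ) = 2 * fourier l t - fourier (l + 1) t - fourier (l - 1) t := by
  have h : fourier (-1) t * fourier 1 t = 1 := by rw [← fourier_add]; simp
  rw [ww, sq_norm_eq, map_sub, map_one, ← fourier_neg, neg_neg, sub_eq_add_neg l, fourier_add,
    fourier_add]
  linear_combination fourier l t * h

lemma ww_ae : ∀ᵐ t ∂mT, ww t ≠ 0 := by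
  have h0 : mT {0} = 0 := by
    have := AddCircle.volume_closedBall (T := 1) (x := 0) 0
    rw [AddCircle.volume_eq_smul_haarAddCircle] at this
    simpa using this
  refine measure_mono_null (fun t ht => ?_) h0
  simp only [ww, Set.mem_compl_iff, Set.mem_setOf_eq, not_not, sq_eq_zero_iff, norm_eq_zero,
    sub_eq_zero] at ht
  rw [fourier_neg, fourier_one] at ht
  have h1 : (AddCircle.toCircle t : ℂ) = 1 := by
    have := congrArg conj ht; simpa using this.symm
  refine AddCircle.injective_toCircle one_ne_zero (Circle.ext ?_)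
  rw [h1]; simp

end Vale.Agent.P130
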