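import Vale.Agent.P130.Circle

namespace Vale.Agent.P130

open Finset MeasureTheory Filter Topology
open scoped Real ComplexConjugate

/-- a linear chirp of length `B` sweeping `ρ` cells of length `1/M` -/
noncomputable def chirp (ρ : ℤ) (M B : ℕ) (x : TT) : ℂ :=
  ∑ n ∈ range B, ee (ρ * (n:ℝ) ^ 2 / (2 * M * B)) * fourier (-(n:ℤ)) x

lemma continuous_chirp (ρ : ℤ) (M B : ℕ) : Continuous (chirp ρ M B) := by
  unfold chirp; fun_prop

lemma int_chirp (ρ : ℤ) (M B : ℕ) : ∫ x, ‖chirp ρ M B x‖ ^ 2 ∂mT = B := by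
  unfold chirp
  rw [parseval_trig _ (fun n : ℕ => -(n:ℤ)) (fun a _ b _ h => by simpa using h)]
  simp [norm_ee]

/-- autocorrelation of the chirp -/
noncomputable def cA (ρ : ℤ) (M B : ℕ) (h : ℤ) : ℂ :=
  ∑ n ∈ range B, ((ind (0 ≤ (n:ℤ) + h ∧ (n:ℤ) + h < B) : ℝ) : ℂ) *
    ee (-(ρ * h / (M * B)) * n + -(ρ * h ^ 2 / (2 * M * B)))

lemma coeff_chirp (ρ : ℤ) (M B : ℕ) (h : ℤ) :
    fourierCoeff (fun x => ((‖chirp ρ M B x‖ ^ 2 : ℝ) : ℂ)) h = cA ρ M B h := by
  unfold chirp fourierCoeff cA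
  simp only [sq_trig, smul_eq_mul, mul_sum]
  rw [integral_finset_sum _ (fun a _ => cont_int (by fun_prop))]
  refine sum_congr rfl fun a _ => ?_
  rw [integral_finset_sum _ (fun a _ => cont_int (by fun_prop))]
  have e : ∀ (b : ℕ) (c : ℂ), ∫ x, fourier (-h) x * (c * fourier (-(a:ℤ) - -(b:ℤ)) x) ∂mT =
      if (b:ℤ) = a + h then c else 0 := by
    intro b c
    have : ∀ x : TT, fourier (-h) x * (c * fourier (-(a:ℤ) - -(b:ℤ)) x) =
        c * fourier (-h + (-(a:ℤ) - -(b:ℤ))) x := fun x => by rw [fourier_add]; ring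
    simp only [this, integral_const_mul, int_fourier]
    by_cases hb : (b:ℤ) = a + h
    · rw [if_pos hb, if_pos (by omega), mul_one]
    · rw [if_neg hb, if_neg (by omega), mul_zero]
  simp only [e]
  by_cases hc : 0 ≤ (a:ℤ) + h ∧ (a:ℤ) + h < B
  · rw [ind_pos hc, sum_eq_single ((a:ℤ) + h).toNat]
    · rw [if_pos (by omega), conj_ee, ← ee_add]
      have : ((((a:ℤ) + h).toNat : ℕ) : ℝ) = a + h := by
        have : ((((a:ℤ) + h).toNat : ℕ) : ℤ) = a + h := by omega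
        exact_mod_cast this
      rw [this]; push_cast; rw [one_mul]; congr 1; ring
    · intro b _ hb; rw [if_neg (by omega)]
    · intro hb; exact absurd (mem_range.2 (by omega)) hb
  · rw [ind_neg hc, sum_eq_zero]
    · simp
    · intro b hb; rw [mem_range] at hb; rw [if_neg (by omega)]

lemma riemann (z : ℝ) (B : ℕ) (hB : 0 < B) :
    ‖(∑ n ∈ range B, ee (z / B * n)) / B - ∫ s in (0:ℝ)..1, ee (z * s)‖ ≤ 2 * π * |z| / B := by
  have hBR : (0:ℝ) < B := by exact_mod_cast hB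
  have hc : Continuous fun s : ℝ => ee (z * s) := continuous_ee.comp (by fun_prop)
  have h1 := intervalIntegral.sum_integral_adjacent_intervals (f := fun s : ℝ => ee (z * s))
    (μ := volume) (a := fun k : ℕ => (k:ℝ) / B) (n := B) (fun k _ => hc.intervalIntegrable _ _)
  simp only [Nat.cast_zero, zero_div, div_self hBR.ne'] at h1
  rw [← h1, sum_div, ← sum_sub_distrib]
  refine (norm_sum_le _ _).trans ?_
  have h2 : ∀ n ∈ range B, ‖ee (z / B * n) / B - ∫ s in ((n:ℝ) / B)..(((n + 1 : ℕ):ℝ) / B),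
      ee (z * s)‖ ≤ 2 * π * |z| / B / B := by
    intro n _
    have e1 : (((n + 1 : ℕ):ℝ) / B) - (n:ℝ) / B = 1 / B := by push_cast; ring
    have e2 : ee (z / B * n) / B = ∫ s in ((n:ℝ) / B)..(((n + 1 : ℕ):ℝ) / B), ee (z / B * n) := by
      rw [intervalIntegral.integral_const, e1]; simp [div_eq_inv_mul]
    rw [e2, ← intervalIntegral.integral_sub (by simp) (hc.intervalIntegrable _ _)]
    refine (intervalIntegral.norm_integral_le_of_norm_le_const (C := 2 * π * |z| / B) ?_).trans ?_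
    · intro s hs
      rw [Set.uIoc_of_le (by rw [← sub_nonneg, e1]; positivity)] at hs
      refine (norm_ee_sub _ _).trans ?_
      have : z / B * n - z * s = z * (n / B - s) := by ring
      rw [this, abs_mul]
      have h3 : |(n:ℝ) / B - s| ≤ 1 / B := by
        rw [abs_le]; constructor <;> linarith [hs.1, hs.2, one_div_pos.2 hBR]
      calc _ ≤ 2 * π * (|z| * (1 / B)) := by gcongr
        _ = _ := by ring
    · rw [e1, abs_of_pos (one_div_pos.2 hBR)]; exact le_of_eq (by ring)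
  refine (sum_le_sum h2).trans (le_of_eq ?_)
  rw [sum_const, card_range, nsmul_eq_mul]; field_simp

lemma card_out (B : ℕ) (h : ℤ) :
    ∑ n ∈ range B, ind (¬ (0 ≤ (n:ℤ) + h ∧ (n:ℤ) + h < B)) ≤ |(h:ℝ)| := by
  classical
  have e : ∑ n ∈ range B, ind (¬ (0 ≤ (n:ℤ) + h ∧ (n:ℤ) + h < B)) =
      ((range B).filter (fun n : ℕ => ¬ (0 ≤ (n:ℤ) + h ∧ (n:ℤ) + h < B))).card := by
    rw [card_eq_sum_ones, Nat.cast_sum, sum_filter]
    exact sum_congr rfl fun n _ => by rw [ind_eq_ite]; simp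
  rw [e]
  have : ((range B).filter (fun n : ℕ => ¬ (0 ≤ (n:ℤ) + h ∧ (n:ℤ) + h < B))).card ≤
      (range h.natAbs).card := by
    refine card_le_card_of_injOn (fun n => if 0 ≤ h then B - 1 - n else n) (fun n hn => ?_)
      (fun n hn m hm hnm => ?_)
    · simp only [coe_filter, mem_range, Set.mem_setOf_eq, coe_range, Set.mem_Iio] at hn ⊢
      split_ifs <;> omega
    · simp only [coe_filter, mem_range, Set.mem_setOf_eq] at hn hm hnm
      split_ifs at hnm <;> omega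
  rw [card_range] at this
  have h2 : ((h.natAbs : ℕ) : ℝ) = |(h:ℝ)| := by rw [Nat.cast_natAbs]; push_cast; rfl
  rw [← h2]; exact_mod_cast this

lemma cA_close (ρ : ℤ) (M B : ℕ) (hM : 0 < M) (hB : 0 < B) (h : ℤ) :
    ‖cA ρ M B h / B - ∫ s in (0:ℝ)..1, ee (-(ρ * h / M) * s)‖ ≤
      (|(h:ℝ)| + 2 * π * |ρ * (h:ℝ) ^ 2 / (2 * M)| + 2 * π * |-(ρ * h / M : ℝ)|) / B := by
  have hBR : (0:ℝ) < B := by exact_mod_cast hB
  have h1 := riemann (-(ρ * h / M)) B hB
  have h2 : ‖cA ρ M B h - ∑ n ∈ range B, ee (-(ρ * h / M) / B * n)‖ ≤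
      |(h:ℝ)| + 2 * π * |ρ * (h:ℝ) ^ 2 / (2 * M)| := by
    rw [cA, ← sum_sub_distrib]
    refine (norm_sum_le _ _).trans ?_
    have h3 : ∀ n ∈ range B, ‖((ind (0 ≤ (n:ℤ) + h ∧ (n:ℤ) + h < B) : ℝ) : ℂ) *
        ee (-(ρ * h / (M * B)) * n + -(ρ * h ^ 2 / (2 * M * B))) - ee (-(ρ * h / M) / B * n)‖ ≤
        ind (¬ (0 ≤ (n:ℤ) + h ∧ (n:ℤ) + h < B)) + 2 * π * |ρ * (h:ℝ) ^ 2 / (2 * M)| / B := by
      intro n _
      by_cases hc : 0 ≤ (n:ℤ) + h ∧ (n:ℤ) + h < B
      · rw [ind_pos hc, ind_neg (not_not.2 hc), zero_add]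
        push_cast; rw [one_mul]
        refine (norm_ee_sub _ _).trans (le_of_eq ?_)
        have : -(ρ * h / (M * B)) * n + -(ρ * h ^ 2 / (2 * M * B)) - -(ρ * h / M) / B * n =
            -(ρ * (h:ℝ) ^ 2 / (2 * M)) / B := by ring
        rw [this, abs_div, abs_neg, abs_of_pos hBR]; ring
      · rw [ind_neg hc, ind_pos hc]; simp [norm_ee]; positivity
    refine (sum_le_sum h3).trans ?_
    rw [sum_add_distrib, sum_const, card_range, nsmul_eq_mul, mul_div_cancel₀ _ hBR.ne']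
    linarith [card_out B h]
  have h4 : ‖cA ρ M B h / B - (∑ n ∈ range B, ee (-(ρ * h / M) / B * n)) / B‖ ≤
      (|(h:ℝ)| + 2 * π * |ρ * (h:ℝ) ^ 2 / (2 * M)|) / B := by
    rw [← sub_div, norm_div, Complex.norm_natCast]; gcongr
  rw [add_div _ (2 * π * |-(ρ * h / M : ℝ)|)]
  exact (norm_sub_le_norm_sub_add_norm_sub _ _ _).trans (add_le_add h4 h1)

lemma cA_bound (ρ : ℤ) (hρ : ρ ≠ 0) (M B : ℕ) (hM : 2 * |ρ| ≤ M) (hB : 0 < B) (h : ℤ) (hh : h ≠ 0) :
    ‖cA ρ M B h / B‖ ≤ M / |(h:ℝ)| := by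
  classical
  have hBR : (0:ℝ) < B := by exact_mod_cast hB
  have hρ1 : (1:ℝ) ≤ |(ρ:ℝ)| := by exact_mod_cast Int.one_le_abs hρ
  have hMR : 2 * |(ρ:ℝ)| ≤ M := by exact_mod_cast hM
  have hM0 : (0:ℝ) < M := by linarith
  have hh1 : (0:ℝ) < |(h:ℝ)| := by exact_mod_cast abs_pos.2 hh
  set θ : ℝ := -(ρ * h / (M * B)) with hθ
  have e : cA ρ M B h = (∑ n ∈ Ico (-h).toNat (min (B:ℤ) (B - h)).toNat, ee θ ^ n) *
      ee (-(ρ * h ^ 2 / (2 * M * B))) := by
    rw [cA, sum_mul]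
    have : Ico (-h).toNat (min (B:ℤ) (B - h)).toNat =
        (range B).filter (fun n : ℕ => 0 ≤ (n:ℤ) + h ∧ (n:ℤ) + h < B) := by
      ext n; simp only [mem_Ico, mem_filter, mem_range]; omega
    rw [this, sum_filter]
    refine sum_congr rfl fun n _ => ?_
    rw [ind_eq_ite, ee_add, mul_comm θ, ee_nat_mul]
    split_ifs <;> simp
  rw [e, norm_div, norm_mul, norm_ee, mul_one, Complex.norm_natCast]
  by_cases hle : (-h).toNat < (min (B:ℤ) (B - h)).toNat
  swap
  · rw [Ico_eq_empty hle]; simp; positivity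
  have hhB : |(h:ℝ)| ≤ B := by
    have : |h| ≤ B := by rw [abs_le]; omega
    exact_mod_cast this
  have habs : |θ| = |(ρ:ℝ)| * |(h:ℝ)| / (M * B) := by
    rw [hθ, abs_neg, abs_div, abs_mul, abs_of_pos (by positivity : (0:ℝ) < M * B)]
  have hθ0 : 0 < |θ| := by rw [habs]; positivity
  have hθ1 : |θ| ≤ 1 / 2 := by
    rw [habs, div_le_iff₀ (by positivity)]
    nlinarith [mul_le_mul hMR hhB hh1.le hM0.le]
  have h1 := norm_ee_sub_one_ge hθ1
  have hne : ee θ ≠ 1 := fun h => by rw [h, sub_self, norm_zero] at h1; linarith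
  rw [geom_sum_Ico hne hle.le, norm_div]
  have h2 : ‖ee θ ^ (min (B:ℤ) (B - h)).toNat - ee θ ^ (-h).toNat‖ ≤ 2 := by
    refine (norm_sub_le _ _).trans ?_
    simp [norm_pow, norm_ee]; norm_num
  calc _ ≤ 2 / (4 * |θ|) / B := by gcongr
    _ = M / (2 * |(ρ:ℝ)|) / |(h:ℝ)| := by rw [habs]; field_simp; ring
    _ ≤ _ := by gcongr; exact div_le_self hM0.le (by linarith)

lemma target_coeff (ρ : ℤ) (hρ : ρ ≠ 0) (M : ℕ) (hM : 2 * |ρ| ≤ M) (h : ℤ) :
    fourierCoeff (fun x : TT => ((M / |(ρ:ℝ)| * ind (arc M ρ 0 x) : ℝ) : ℂ)) h =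
      ∫ s in (0:ℝ)..1, ee (-(ρ * h / M) * s) := by
  have hρ1 : 1 ≤ |ρ| := Int.one_le_abs hρ
  have hM0 : 0 < M := by omega
  have hMR : (M:ℝ) ≠ 0 := by exact_mod_cast hM0.ne'
  have hρR : (ρ:ℝ) ≠ 0 := by exact_mod_cast hρ
  simp only [Complex.ofReal_mul]
  rw [fourierCoeff.const_mul, coeff_arc ρ (by omega) hM0]
  have h1 := intervalIntegral.integral_comp_mul_left (fun x : ℝ => ee (-h * x)) (a := 0) (b := 1)
    (c := ρ / M) (div_ne_zero hρR hMR)
  have h2 : ∀ s : ℝ, -(ρ * h / M) * s = -h * (ρ / M * s) := fun s => by ring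
  simp only [h2]
  rw [h1, mul_zero, mul_one, Complex.real_smul]
  rcases lt_or_gt_of_ne hρ with hn | hn
  · have hn' : (ρ:ℝ) < 0 := by exact_mod_cast hn
    rw [min_eq_left hn.le, max_eq_right hn.le, abs_of_neg hn', intervalIntegral.integral_symm]
    simp only [Int.cast_zero, zero_div]
    push_cast; field_simp
  · have hn' : (0:ℝ) < ρ := by exact_mod_cast hn
    rw [min_eq_right hn.le, max_eq_left hn.le, abs_of_pos hn']
    simp only [Int.cast_zero, zero_div]
    push_cast; field_simp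

theorem chirp_tendsto (ρ : ℤ) (hρ : ρ ≠ 0) (M : ℕ) (hM : 2 * |ρ| ≤ M) :
    Tendsto (fun B : ℕ => ∫ x, |‖chirp ρ M B x‖ ^ 2 / B - M / |(ρ:ℝ)| * ind (arc M ρ 0 x)| ∂mT)
      atTop (𝓝 0) := by
  have hρ1 : 1 ≤ |ρ| := Int.one_le_abs hρ
  have hM0 : 0 < M := by omega
  let τ : TT → ℝ := fun x => M / |(ρ:ℝ)| * ind (arc M ρ 0 x)
  have hτm : Measurable τ := (measurable_arc M ρ 0).const_mul _
  have hτ : MemLp τ 2 mT := MemLp.of_bound hτm.aestronglyMeasurable (M / |(ρ:ℝ)|)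
    (ae_of_all _ fun x => by
      rw [Real.norm_eq_abs, abs_of_nonneg (mul_nonneg (by positivity) (ind_nonneg _))]
      exact mul_le_of_le_one_right (by positivity) (ind_le_one _))
  let g : ℕ → TT → ℝ := fun B x => ‖chirp ρ M B x‖ ^ 2 / B
  have hgc : ∀ B, Continuous (g B) := fun B => ((continuous_chirp ρ M B).norm.pow 2).div_const _
  have hg : ∀ B, MemLp (g B) 2 mT := fun B =>
    (hgc B).memLp_of_hasCompactSupport (HasCompactSupport.of_compactSpace _)
  let D : ℕ → TT → ℝ := fun B x => g B x - τ x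
  have hD : ∀ B, MemLp (D B) 2 mT := fun B => (hg B).sub hτ
  let b : ℤ → ℂ := fun h => ∫ s in (0:ℝ)..1, ee (-(ρ * h / M) * s)
  have hco : ∀ B h, fourierCoeff (fun x => ((D B x : ℝ) : ℂ)) h = cA ρ M B h / B - b h := by
    intro B h
    have e : (fun x => ((D B x : ℝ) : ℂ)) = (fun x => ((B:ℂ)⁻¹ * ((‖chirp ρ M B x‖ ^ 2 : ℝ) : ℂ))) +
        fun x => (-1 : ℂ) * ((τ x : ℝ) : ℂ) := by
      ext x; simp only [D, g, Pi.add_apply]; push_cast; ring
    rw [e, fourierCoeff.add (cont_int (by have := continuous_chirp ρ M B; fun_prop))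
      ((hτ.integrable one_le_two).ofReal.const_mul _), Pi.add_apply, fourierCoeff.const_mul,
      fourierCoeff.const_mul, coeff_chirp, target_coeff ρ hρ M hM]
    simp only [b]; ring
  have hpar : ∀ B, ∫ x, D B x ^ 2 ∂mT = ∑' h, ‖cA ρ M B h / B - b h‖ ^ 2 := by
    intro B
    have hm : MemLp (fun x => ((D B x : ℝ) : ℂ)) 2 mT := (hD B).ofReal
    have := tsum_sq_fourierCoeff hm.toLp
    rw [fourierCoeff_congr_ae hm.coeFn_toLp] at this
    simp only [hco] at this
    rw [this]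
    refine integral_congr_ae ?_
    filter_upwards [hm.coeFn_toLp] with x hx
    rw [hx]; simp
  have hpt : ∀ h, Tendsto (fun B : ℕ => cA ρ M B h / B) atTop (𝓝 (b h)) := by
    intro h
    rw [tendsto_iff_norm_sub_tendsto_zero]
    refine squeeze_zero' (Eventually.of_forall fun _ => norm_nonneg _)
      ((eventually_gt_atTop 0).mono fun B hB => cA_close ρ M B hM0 hB h)
      (tendsto_const_div_atTop_nhds_zero_nat _)
  have hlim : Tendsto (fun B : ℕ => ∑' h, ‖cA ρ M B h / B - b h‖ ^ 2) atTop (𝓝 0) := by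
    have := tendsto_tsum_of_dominated_convergence (𝓕 := atTop)
      (f := fun (B : ℕ) (h : ℤ) => ‖cA ρ M B h / B - b h‖ ^ 2) (g := fun _ => 0)
      (bound := fun h => 4 * (M:ℝ) ^ 2 * (1 / (h:ℝ) ^ 2) + if h = 0 then 1 else 0)
      (((Real.summable_one_div_int_pow.2 one_lt_two).mul_left _).add
        (summable_of_ne_finset_zero (s := {0}) (fun h hh => if_neg (by simpa using hh))))
      (fun h => by
        have := (tendsto_iff_norm_sub_tendsto_zero.1 (hpt h)).pow 2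
        simpa using this)
      (by
        have h0 := (tendsto_iff_norm_sub_tendsto_zero.1 (hpt 0)).eventually
          (gt_mem_nhds (zero_lt_one))
        filter_upwards [eventually_gt_atTop 0, h0] with B hB hB0 h
        rw [Real.norm_eq_abs, abs_of_nonneg (sq_nonneg _)]
        by_cases hh : h = 0
        · subst hh
          have : ‖cA ρ M B 0 / B - b 0‖ ^ 2 ≤ 1 := pow_le_one₀ (norm_nonneg _) hB0.le
          simpa using this
        · have h1 := cA_bound ρ hρ M B hM hB h hh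
          have h2 : ‖b h‖ ≤ M / |(h:ℝ)| := le_of_tendsto (hpt h).norm
            ((eventually_gt_atTop 0).mono fun B hB => cA_bound ρ hρ M B hM hB h hh)
          have h3 := (norm_sub_le _ _).trans (add_le_add h1 h2)
          rw [if_neg hh, add_zero]
          calc _ ≤ (M / |(h:ℝ)| + M / |(h:ℝ)|) ^ 2 := by gcongr
            _ = _ := by rw [← sq_abs (h:ℝ)]; ring)
    simpa using this
  rw [Metric.tendsto_atTop] at hlim ⊢
  intro ε hε
  obtain ⟨N, hN⟩ := hlim (ε ^ 2) (by positivity)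
  refine ⟨N, fun B hB => ?_⟩
  have h1 := hN B hB
  rw [← hpar, Real.dist_eq, sub_zero, abs_of_nonneg (integral_nonneg fun x => sq_nonneg _)] at h1
  rw [Real.dist_eq, sub_zero, abs_of_nonneg (integral_nonneg fun x => abs_nonneg _)]
  have h2 : ∫ x, |D B x| ∂mT ≤ ∫ x, (ε / 2 + D B x ^ 2 / (2 * ε)) ∂mT := by
    refine integral_mono ((hD B).integrable one_le_two).abs
      ((integrable_const _).add ((hD B).integrable_sq.div_const _)) fun x => ?_
    have : 0 ≤ (|D B x| - ε) ^ 2 / (2 * ε) := by positivity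
    have e : (|D B x| - ε) ^ 2 / (2 * ε) = ε / 2 + D B x ^ 2 / (2 * ε) - |D B x| := by
      rw [← sq_abs (D B x)]; field_simp; ring
    simp only; linarith
  rw [integral_add (integrable_const _) ((hD B).integrable_sq.div_const _)] at h2
  simp only [integral_const, probReal_univ, one_smul, integral_div] at h2
  have h3 : (∫ x, D B x ^ 2 ∂mT) / (2 * ε) < ε / 2 := by
    rw [div_lt_iff₀ (by positivity)]; linarith
  change ∫ x, |D B x| ∂mT < ε
  linarith

end Vale.Agent.P130
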