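import Vale.Agent.P130.Thin

namespace Vale.Agent.P130

open Finset MeasureTheory Filter Topology
open scoped Real ComplexConjugate

/-- the circle -/
abbrev TT := AddCircle (1:ℝ)

/-- normalized Haar measure -/
noncomputable abbrev mT : Measure TT := AddCircle.haarAddCircle

/-- the exponential -/
noncomputable def ee (r : ℝ) : ℂ := Complex.exp (Complex.I * ((2 * π * r : ℝ) : ℂ))

lemma ee_add (a b : ℝ) : ee (a + b) = ee a * ee b := by
  simp only [ee]; rw [← Complex.exp_add]; congr 1; push_cast; ring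
lemma ee_zero : ee 0 = 1 := by simp [ee]
lemma norm_ee (a : ℝ) : ‖ee a‖ = 1 := by simp only [ee]; exact Complex.norm_exp_I_mul_ofReal _
lemma ee_int (n : ℤ) : ee n = 1 := by
  simp only [ee]
  rw [← Complex.exp_int_mul_two_pi_mul_I n]; congr 1; push_cast; ring
lemma conj_ee (a : ℝ) : conj (ee a) = ee (-a) := by
  simp only [ee]; rw [← Complex.exp_conj]; congr 1
  simp only [map_mul, Complex.conj_I, Complex.conj_ofReal]; push_cast; ring
lemma ee_ne_zero (a : ℝ) : ee a ≠ 0 := Complex.exp_ne_zero _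
lemma fourier_coe (n : ℤ) (x : ℝ) : fourier n (x : TT) = ee (n * x) := by
  rw [fourier_coe_apply, ee]; congr 1; push_cast; ring
lemma ee_nat_mul (n : ℕ) (a : ℝ) : ee (n * a) = ee a ^ n := by
  induction n with
  | zero => simp [ee_zero]
  | succ n ih => rw [Nat.cast_succ, add_mul, ee_add, ih, one_mul, pow_succ]
lemma continuous_ee : Continuous ee := by unfold ee; fun_prop

lemma norm_ee_sub (a b : ℝ) : ‖ee a - ee b‖ ≤ 2 * π * |a - b| := by
  have : ee a - ee b = ee b * (ee (a - b) - 1) := by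
    rw [mul_sub, ← ee_add, mul_one]; congr 2; ring
  rw [this, norm_mul, norm_ee, one_mul, ee]
  refine Real.norm_exp_I_mul_ofReal_sub_one_le.trans (le_of_eq ?_)
  rw [Real.norm_eq_abs, abs_mul, abs_of_pos (by positivity)]

lemma norm_ee_sub_one_ge {a : ℝ} (ha : |a| ≤ 1 / 2) : 4 * |a| ≤ ‖ee a - 1‖ := by
  rw [ee, Complex.norm_exp_I_mul_ofReal_sub_one, Real.norm_eq_abs, abs_mul,
    abs_of_pos (by norm_num : (0:ℝ) < 2)]
  have h1 : 2 * π * a / 2 = π * a := by ring
  rw [h1]
  have h2 := Real.mul_le_sin (x := π * |a|) (by positivity) (by nlinarith [Real.pi_pos])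
  have h3 : 2 / π * (π * |a|) = 2 * |a| := by field_simp
  have h4 : Real.sin (π * |a|) ≤ |Real.sin (π * a)| := by
    rcases abs_choice a with h | h
    · rw [h]; exact le_abs_self _
    · rw [h, mul_neg, Real.sin_neg]; exact neg_le_abs _
  linarith

lemma fourier_add_arg (n : ℤ) (x y : TT) : fourier n (x + y) = fourier n x * fourier n y := by
  simp only [fourier_apply, zsmul_add, AddCircle.toCircle_add, Circle.coe_mul]

lemma norm_fourier (n : ℤ) (x : TT) : ‖fourier n x‖ = 1 := Circle.norm_coe _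

lemma fourier_smul (n k : ℤ) (x : TT) : fourier n (k • x) = fourier (n * k) x := by
  simp only [fourier_apply, mul_smul]

lemma int_fourier (n : ℤ) : ∫ x, fourier n x ∂mT = if n = 0 then 1 else 0 := by
  have := congrFun (fourierCoeff_fourier (T := 1) n) 0
  simp only [fourierCoeff, neg_zero, fourier_zero, one_smul] at this
  rw [this]
  by_cases h : n = 0
  · simp [h]
  · simp [h, Pi.single_eq_of_ne (Ne.symm h)]

lemma cont_int {E : Type*} [NormedAddCommGroup E] {f : TT → E} (hf : Continuous f) :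
    Integrable f mT := hf.integrable_of_hasCompactSupport (HasCompactSupport.of_compactSpace _)

lemma sq_norm_eq (z : ℂ) : ((‖z‖ ^ 2 : ℝ) : ℂ) = z * conj z := by
  rw [Complex.mul_conj, Complex.normSq_eq_norm_sq]

lemma sq_trig {α : Type*} (s : Finset α) (k : α → ℤ) (c : α → ℂ) (x : TT) :
    ((‖∑ a ∈ s, c a * fourier (k a) x‖ ^ 2 : ℝ) : ℂ) =
      ∑ a ∈ s, ∑ b ∈ s, (c a * conj (c b)) * fourier (k a - k b) x := by
  rw [sq_norm_eq, map_sum, sum_mul_sum]
  refine sum_congr rfl fun a _ => sum_congr rfl fun b _ => ?_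
  rw [map_mul, ← fourier_neg, sub_eq_add_neg, fourier_add]; ring

lemma parseval_trig {α : Type*} (s : Finset α) (k : α → ℤ) (hk : Set.InjOn k s) (c : α → ℂ) :
    ∫ x, ‖∑ a ∈ s, c a * fourier (k a) x‖ ^ 2 ∂mT = ∑ a ∈ s, ‖c a‖ ^ 2 := by
  classical
  apply Complex.ofReal_injective
  rw [← integral_complex_ofReal]
  simp only [sq_trig]
  rw [integral_finset_sum _ (fun a _ => cont_int (by fun_prop))]
  push_cast
  refine sum_congr rfl fun a ha => ?_
  rw [integral_finset_sum _ (fun a _ => cont_int (by fun_prop))]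
  simp only [integral_const_mul, int_fourier]
  rw [sum_eq_single a]
  · have := sq_norm_eq (c a); push_cast at this; simp [this]
  · intro b hb hne
    rw [if_neg (fun h => hne (hk hb ha (sub_eq_zero.1 h).symm)), mul_zero]
  · intro h; exact absurd ha h

/-- index of the cell of length `1/M` containing a point -/
noncomputable def cellZ (M : ℕ) (x : TT) : ℤ := ⌊(M:ℝ) * (AddCircle.equivIco 1 0 x : ℝ)⌋

lemma measurable_cellZ (M : ℕ) : Measurable (cellZ M) := by
  have h : Measurable fun x : TT => (AddCircle.equivIco 1 0 x : ℝ) :=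
    measurable_subtype_coe.comp (AddCircle.measurableEquivIco (1:ℝ) 0).measurable
  exact Int.measurable_floor.comp (h.const_mul _)

lemma cellZ_coe (M : ℕ) (r : ℝ) : (M:ℤ) ∣ cellZ M (r : TT) - ⌊(M:ℝ) * r⌋ := by
  rw [cellZ, AddCircle.coe_equivIco_mk_apply, div_one, mul_one]
  have : (M:ℝ) * r = M * Int.fract r + ((M * ⌊r⌋ : ℤ) : ℝ) := by
    rw [Int.fract]; push_cast; ring
  rw [this, Int.floor_add_intCast]
  exact ⟨-⌊r⌋, by ring⟩

/-- the run of cells swept by a chirp of rate `ρ` -/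
noncomputable def run (ρ : ℤ) : Finset ℤ := Ico (min ρ 0) (max ρ 0)

/-- the arc made of the cells `Y + run ρ` -/
def arc (M : ℕ) (ρ Y : ℤ) (x : TT) : Prop := ∃ i ∈ run ρ, (M:ℤ) ∣ cellZ M x - (Y + i)

lemma measurable_arc (M : ℕ) (ρ Y : ℤ) : Measurable fun x => ind (arc M ρ Y x) :=
  (measurable_from_top (f := fun z : ℤ => ind (∃ i ∈ run ρ, (M:ℤ) ∣ z - (Y + i)))).comp
    (measurable_cellZ M)

lemma arc_shift {M : ℕ} (hM : 0 < M) (ρ Y : ℤ) (x : TT) :
    arc M ρ 0 (x - ((Y / M : ℝ) : TT)) ↔ arc M ρ Y x := by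
  induction x using QuotientAddGroup.induction_on with
  | H r =>
    have h1 := cellZ_coe M r
    have h2 := cellZ_coe M (r - Y / M)
    have h3 : (M:ℝ) * (r - Y / M) = M * r - Y := by
      have : (M:ℝ) ≠ 0 := by exact_mod_cast hM.ne'
      field_simp
    rw [h3, Int.floor_sub_intCast] at h2
    rw [← AddCircle.coe_sub]
    unfold arc
    refine exists_congr fun i => and_congr_right fun _ => ?_
    obtain ⟨k1, e1⟩ := h1
    obtain ⟨k2, e2⟩ := h2
    constructor
    · rintro ⟨k, hk⟩; exact ⟨k + k1 - k2, by linear_combination hk + e1 - e2⟩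
    · rintro ⟨k, hk⟩; exact ⟨k - k1 + k2, by linear_combination hk - e1 + e2⟩

lemma arc_coe {M : ℕ} (ρ : ℤ) (hρ : |ρ| ≤ M) (hM : 0 < M) (r : ℝ)
    (h1 : ((min ρ 0 : ℤ) : ℝ) / M ≤ r) (h2 : r < ((min ρ 0 : ℤ) : ℝ) / M + 1) :
    arc M ρ 0 (r : TT) ↔ r < ((max ρ 0 : ℤ) : ℝ) / M := by
  have hMR : (0:ℝ) < M := by exact_mod_cast hM
  have a1 : min ρ 0 ≤ ⌊(M:ℝ) * r⌋ := by
    rw [Int.le_floor]; rw [div_le_iff₀ hMR] at h1; linarith
  have a2 : ⌊(M:ℝ) * r⌋ < min ρ 0 + M := by
    rw [Int.floor_lt]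
    rw [div_add_one hMR.ne', lt_div_iff₀ hMR] at h2
    rw [Int.cast_add, Int.cast_natCast]; linarith
  rw [lt_div_iff₀ hMR, mul_comm, ← Int.floor_lt]
  obtain ⟨k1, e1⟩ := cellZ_coe M r
  unfold arc run
  have habs : max ρ 0 - min ρ 0 ≤ M := by
    rcases abs_le.1 hρ with ⟨b1, b2⟩
    rcases le_total ρ 0 with h | h <;> simp [h] <;> omega
  constructor
  · rintro ⟨i, hi, k, hk⟩
    rw [mem_Ico] at hi
    have e : ⌊(M:ℝ) * r⌋ - i = M * (k - k1) := by linear_combination hk - e1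
    have hM' : (0:ℤ) < M := by exact_mod_cast hM
    have : k - k1 = 0 := by
      have b1 : (M:ℤ) * (k - k1) < M * 1 := by omega
      have b2 : (M:ℤ) * (-1) < M * (k - k1) := by omega
      have := lt_of_mul_lt_mul_left b1 hM'.le
      have := lt_of_mul_lt_mul_left b2 hM'.le
      omega
    rw [this] at e
    omega
  · intro h
    exact ⟨_, mem_Ico.2 ⟨a1, h⟩, k1, by linear_combination e1⟩

lemma coeff_arc {M : ℕ} (ρ : ℤ) (hρ : |ρ| ≤ M) (hM : 0 < M) (h : ℤ) :
    fourierCoeff (fun x : TT => ((ind (arc M ρ 0 x) : ℝ) : ℂ)) h =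
      ∫ x in (((min ρ 0 : ℤ) : ℝ) / M)..(((max ρ 0 : ℤ) : ℝ) / M), ee (-h * x) := by
  have hMR : (0:ℝ) < M := by exact_mod_cast hM
  set a : ℝ := ((min ρ 0 : ℤ) : ℝ) / M
  set b : ℝ := ((max ρ 0 : ℤ) : ℝ) / M
  have hab : a ≤ b := by
    simp only [a, b]; gcongr; exact min_le_max
  have hb : b ≤ a + 1 := by
    simp only [a, b]
    rw [div_add_one hMR.ne']
    gcongr
    have : max ρ 0 ≤ min ρ 0 + M := by
      rcases abs_le.1 hρ with ⟨b1, b2⟩
      rcases le_total ρ 0 with h | h <;> simp [h] <;> omega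
    exact_mod_cast this
  rw [fourierCoeff_eq_intervalIntegral _ _ a, div_one, one_smul,
    intervalIntegral.integral_of_le (by linarith), intervalIntegral.integral_of_le hab,
    integral_Ioc_eq_integral_Ioo, integral_Ioc_eq_integral_Ioo]
  rw [← Set.inter_eq_self_of_subset_right (Set.Ioo_subset_Ioo_right hb),
    ← setIntegral_indicator measurableSet_Ioo]
  refine setIntegral_congr_fun measurableSet_Ioo fun x hx => ?_
  simp only [smul_eq_mul, fourier_coe]
  rw [ind_congr (arc_coe ρ hρ hM x hx.1.le hx.2)]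
  by_cases hxb : x < b
  · rw [ind_pos hxb, Set.indicator_of_mem (show x ∈ Set.Ioo a b from ⟨hx.1, hxb⟩)]; simp
  · rw [ind_neg hxb, Set.indicator_of_notMem (fun h => hxb h.2)]; simp

end Vale.Agent.P130
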