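import Vale.Agent.P130.Nibble

namespace Vale.Agent.P130

open Finset

lemma cnt1 (μ : ℤ) (hμ : μ ≠ 0) (n m k : ℕ) (hn : n = m * k) (hm : 0 < m) (s : ℤ) :
    ∑ x : Fin n, ind ((m:ℤ) ∣ μ * ((x:ℕ):ℤ) - s) ≤ |(μ:ℝ)| * k := by
  classical
  set a : ℤ := if 0 < μ then 0 else μ * n + 1 with ha
  have hc := Int.Ico_filter_modEq_card a (a + m * (k * |μ|)) (r := m) (by exact_mod_cast hm) s
  have e1 : (((a + m * (k * |μ|) : ℤ) : ℚ) - s) / ((m:ℤ):ℚ) =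
      ((a:ℚ) - s) / ((m:ℤ):ℚ) + ((k * |μ| : ℤ) : ℚ) := by
    have : ((m:ℤ):ℚ) ≠ 0 := by exact_mod_cast hm.ne'
    push_cast at this ⊢
    field_simp; ring
  rw [e1, Int.ceil_add_intCast, add_sub_cancel_left, max_eq_left (by positivity)] at hc
  have h1 : (univ.filter (fun x : Fin n => (m:ℤ) ∣ μ * ((x:ℕ):ℤ) - s)).card ≤
      ((Ico a (a + m * (k * |μ|))).filter (fun x => x ≡ s [ZMOD m])).card := by
    refine card_le_card_of_injOn (fun x => μ * ((x:ℕ):ℤ)) (fun x hx => ?_) (fun x _ y _ h => ?_)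
    · have hx' := (mem_filter.1 hx).2
      have h0 : (0:ℤ) ≤ ((x:ℕ):ℤ) := by positivity
      have h1 : ((x:ℕ):ℤ) < n := by exact_mod_cast x.2
      have hn' : (n:ℤ) = m * k := by exact_mod_cast hn
      simp only [coe_filter, mem_Ico, Set.mem_setOf_eq]
      refine ⟨?_, (Int.modEq_iff_dvd.2 (by simpa using hx'.neg_right))⟩
      have e2 : (m:ℤ) * (k * |μ|) = n * |μ| := by rw [hn']; ring
      rw [e2, ha]
      split_ifs with h
      · rw [abs_of_pos h]; constructor <;> nlinarith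
      · have h' : μ < 0 := lt_of_le_of_ne (not_lt.1 h) hμ
        rw [abs_of_neg h']; constructor <;> nlinarith
    · have := mul_left_cancel₀ hμ h
      exact Fin.ext (by exact_mod_cast this)
  have h2 : ∑ x : Fin n, ind ((m:ℤ) ∣ μ * ((x:ℕ):ℤ) - s) =
      (univ.filter (fun x : Fin n => (m:ℤ) ∣ μ * ((x:ℕ):ℤ) - s)).card := by
    rw [card_eq_sum_ones, Nat.cast_sum, sum_filter_ind]; simp
  rw [h2]
  have h3 : ((univ.filter (fun x : Fin n => (m:ℤ) ∣ μ * ((x:ℕ):ℤ) - s)).card : ℤ) ≤ k * |μ| := by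
    rw [← hc]; exact_mod_cast h1
  have h4 : (((univ.filter (fun x : Fin n => (m:ℤ) ∣ μ * ((x:ℕ):ℤ) - s)).card : ℤ) : ℝ) ≤
      ((k * |μ| : ℤ) : ℝ) := by exact_mod_cast h3
  push_cast at h4
  linarith

variable {C : Type} [Fintype C] [DecidableEq C]

lemma sum_update {X : Type} [Fintype X] (c : C) (F : (C → X) → ℝ) :
    (Fintype.card X : ℝ) * ∑ A, F A = ∑ A : C → X, ∑ x, F (Function.update A c x) := by
  have e : ∑ p : (C → X) × X, F p.1 = ∑ p : (C → X) × X, F (Function.update p.1 c p.2) := by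
    refine (Fintype.sum_equiv (Function.Involutive.toPerm
      (fun p : (C → X) × X => (Function.update p.1 c p.2, p.1 c)) (fun p => by simp)) _ _
      (fun p => rfl)).symm
  rw [Fintype.sum_prod_type, Fintype.sum_prod_type] at e
  rw [← e, mul_sum]
  exact sum_congr rfl fun A _ => by simp

/-- integer vector of a grid point -/
def cv {n : ℕ} (A : C → Fin n) : C → ℤ := fun c => ((A c : ℕ) : ℤ)

lemma dot_update {n : ℕ} (μ : C → ℤ) (A : C → Fin n) (c : C) (x : Fin n) :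
    μ ⬝ᵥ cv (Function.update A c x) = μ c * ((x:ℕ):ℤ) + (μ ⬝ᵥ cv A - μ c * cv A c) := by
  simp only [dotProduct]
  rw [← Finset.add_sum_erase univ _ (mem_univ c), ← Finset.add_sum_erase univ
    (fun i => μ i * cv A i) (mem_univ c)]
  have : ∑ i ∈ univ.erase c, μ i * cv (Function.update A c x) i = ∑ i ∈ univ.erase c, μ i * cv A i :=
    sum_congr rfl fun i hi => by simp [cv, Function.update_of_ne (ne_of_mem_erase hi)]
  rw [this]
  simp [cv]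

lemma form_fiber (μ : C → ℤ) (c : C) (hμ : μ c ≠ 0) (n m k : ℕ) (hn : n = m * k) (hm : 0 < m)
    (s : ℤ) (G : (C → Fin n) → ℝ) (hG0 : ∀ A, 0 ≤ G A)
    (hG : ∀ A x, G (Function.update A c x) = G A) :
    (m:ℝ) * ∑ A : C → Fin n, ind ((m:ℤ) ∣ μ ⬝ᵥ cv A - s) * G A ≤ |(μ c : ℝ)| * ∑ A, G A := by
  rcases Nat.eq_zero_or_pos k with hk | hk
  · subst hk
    have : IsEmpty (C → Fin n) := ⟨fun A => by have := (A c).2; omega⟩
    simp
  have h := sum_update c (fun A : C → Fin n => ind ((m:ℤ) ∣ μ ⬝ᵥ cv A - s) * G A)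
  have h2 : ∑ A : C → Fin n, ∑ x, ind ((m:ℤ) ∣ μ ⬝ᵥ cv (Function.update A c x) - s) *
      G (Function.update A c x) ≤ ∑ A : C → Fin n, |(μ c : ℝ)| * k * G A := by
    refine sum_le_sum fun A _ => ?_
    simp only [hG, dot_update, ← sum_mul]
    refine mul_le_mul_of_nonneg_right ?_ (hG0 A)
    have := cnt1 (μ c) hμ n m k hn hm (s - (μ ⬝ᵥ cv A - μ c * cv A c))
    refine le_trans (le_of_eq (sum_congr rfl fun x _ => ?_)) this
    congr 2; ring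
  rw [← h, ← mul_sum, Fintype.card_fin] at h2
  have hk' : (0:ℝ) < k := by exact_mod_cast hk
  have hn' : (n:ℝ) = m * k := by exact_mod_cast hn
  rw [hn'] at h2
  refine le_of_mul_le_mul_right ?_ hk'
  linarith

lemma form1 (μ : C → ℤ) (c : C) (hμ : μ c ≠ 0) (n m k : ℕ) (hn : n = m * k) (hm : 0 < m) (s : ℤ) :
    (m:ℝ) * ∑ A : C → Fin n, ind ((m:ℤ) ∣ μ ⬝ᵥ cv A - s) ≤ |(μ c : ℝ)| * (n:ℝ) ^ Fintype.card C := by
  have := form_fiber μ c hμ n m k hn hm s (fun _ => 1) (fun _ => zero_le_one) (fun _ _ => rfl)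
  simpa using this

lemma form1' (μ : C → ℤ) (hμ : μ ≠ 0) : ∃ D : ℝ, 0 ≤ D ∧ ∀ (n m k : ℕ), n = m * k → 0 < m →
    ∀ s : ℤ, (m:ℝ) * ∑ A : C → Fin n, ind ((m:ℤ) ∣ μ ⬝ᵥ cv A - s) ≤ D * (n:ℝ) ^ Fintype.card C := by
  obtain ⟨c, hc⟩ := Function.ne_iff.1 hμ
  exact ⟨_, abs_nonneg _, fun n m k hn hm s => form1 μ c hc n m k hn hm s⟩

/-- vectors with a coordinate equal to one or minus one -/
def Prim (l : C → ℤ) : Prop := ∃ c, l c = 1 ∨ l c = -1

lemma prim_reduce {l l' : C → ℤ} (c : C) (hc : l c = 1 ∨ l c = -1) (h' : Prim l') (h1 : l' ≠ l)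
    (h2 : l' ≠ -l) : l' - (l' c * l c) • l ≠ 0 := by
  intro h
  have h3 : l' = (l' c * l c) • l := sub_eq_zero.1 h
  obtain ⟨c', hc'⟩ := h'
  have h4 : l' c' = (l' c * l c) * l c' := by conv_lhs => rw [h3]; simp
  have hu : IsUnit (l' c * l c) := by
    rcases hc' with h5 | h5
    · exact IsUnit.of_mul_eq_one (l c') (by rw [← h4, h5])
    · exact IsUnit.of_mul_eq_one (-l c') (by rw [mul_neg, ← h4, h5]; simp)
  rcases Int.isUnit_iff.1 hu with h5 | h5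
  · rw [h5, one_smul] at h3; exact h1 h3
  · rw [h5, neg_smul, one_smul] at h3; exact h2 h3

lemma form2 {l l' : C → ℤ} (h : Prim l) (h' : Prim l') (h1 : l' ≠ l) (h2 : l' ≠ -l) :
    ∃ D : ℝ, 0 ≤ D ∧ ∀ (n m k : ℕ), n = m * k → 0 < m → ∀ s s' : ℤ,
      (m:ℝ) ^ 2 * ∑ A : C → Fin n, ind ((m:ℤ) ∣ l ⬝ᵥ cv A - s ∧ (m:ℤ) ∣ l' ⬝ᵥ cv A - s') ≤
        D * (n:ℝ) ^ Fintype.card C := by
  obtain ⟨c, hc⟩ := h
  obtain ⟨D, hD, H⟩ := form1' _ (prim_reduce c hc h' h1 h2)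
  refine ⟨D, hD, fun n m k hn hm s s' => ?_⟩
  set μ := l' - (l' c * l c) • l with hμ
  have hμc : μ c = 0 := by
    rcases hc with h | h <;> simp [hμ, h]
  set t := s' - (l' c * l c) * s
  have hc0 : l c ≠ 0 := by rcases hc with h | h <;> simp [h]
  have habs : |(l c : ℝ)| = 1 := by rcases hc with h | h <;> simp [h]
  have h3 := form_fiber l c hc0 n m k hn hm s (fun A => ind ((m:ℤ) ∣ μ ⬝ᵥ cv A - t))
    (fun A => ind_nonneg _) (fun A x => by rw [dot_update, hμc]; simp)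
  rw [habs, one_mul] at h3
  have h4 : ∑ A : C → Fin n, ind ((m:ℤ) ∣ l ⬝ᵥ cv A - s ∧ (m:ℤ) ∣ l' ⬝ᵥ cv A - s') ≤
      ∑ A : C → Fin n, ind ((m:ℤ) ∣ l ⬝ᵥ cv A - s) * ind ((m:ℤ) ∣ μ ⬝ᵥ cv A - t) := by
    refine sum_le_sum fun A _ => ?_
    rw [← ind_and]
    refine ind_mono fun ⟨a1, a2⟩ => ⟨a1, ?_⟩
    have : μ ⬝ᵥ cv A - t = (l' ⬝ᵥ cv A - s') - (l' c * l c) * (l ⬝ᵥ cv A - s) := by
      simp only [hμ, t, sub_dotProduct, smul_dotProduct, smul_eq_mul]; ring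
    rw [this]
    exact a2.sub (a1.mul_left _)
  have h5 := H n m k hn hm t
  have hm' : (0:ℝ) < m := by exact_mod_cast hm
  nlinarith [mul_le_mul_of_nonneg_left h4 (by positivity : (0:ℝ) ≤ (m:ℝ) ^ 2),
    mul_le_mul_of_nonneg_left h3 hm'.le]

end Vale.Agent.P130
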