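import Vale.Agent.P130.Anal

namespace Vale.Agent.P130

open Finset MeasureTheory Filter Topology
open scoped Real ComplexConjugate

namespace RK
variable (r : RK)

/-- the polynomial of one step -/
noncomputable def pp (n : ℕ) (t : TT) : ℂ := ∑ j ∈ range (r.J n), fourier (-(r.pos n j : ℤ)) t

/-- the polynomial of several steps -/
noncomputable def PP (n k : ℕ) (t : TT) : ℂ := ∑ d ∈ r.D n k, fourier (-(d : ℤ)) t

lemma continuous_pp (n : ℕ) : Continuous (r.pp n) := by unfold pp; fun_prop
lemma continuous_PP (n k : ℕ) : Continuous (r.PP n k) := by unfold PP; fun_prop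

lemma PP_succ (n k : ℕ) (t : TT) : r.PP n (k + 1) t = r.PP n k t * r.pp (n + k) t := by
  rw [PP, sum_D, mul_comm, pp, PP, sum_mul_sum]
  refine sum_congr rfl fun j _ => sum_congr rfl fun d _ => ?_
  rw [← fourier_add]; congr 2; push_cast; ring

lemma PP_prod (n k : ℕ) (t : TT) : r.PP n k t = ∏ i ∈ range k, r.pp (n + i) t := by
  induction k with
  | zero => simp [PP, D]
  | succ k ih => rw [PP_succ, ih, prod_range_succ]

lemma PP_succ' (n k : ℕ) (t : TT) : r.PP n (k + 1) t = r.pp n t * r.PP (n + 1) k t := by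
  rw [PP_prod, PP_prod, prod_range_succ', mul_comm]
  simp only [add_assoc, add_comm 1, add_zero]

lemma norm_pp (n : ℕ) (t : TT) : ‖r.pp n t‖ ≤ r.J n := by
  refine (norm_sum_le _ _).trans ?_
  simp only [norm_fourier, sum_const, card_range, nsmul_eq_mul, mul_one, le_refl]

/-- correlations of the base of the tower `n` -/
noncomputable def cc (μ : Measure XX) (n : ℕ) (l : ℤ) : ℝ := ∫ x, vv n 0 x * vv n l x ∂μ

variable {r} {μ : Measure XX} [IsProbabilityMeasure μ]

omit [IsProbabilityMeasure μ] in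
lemma Good.int_vv2 (g : r.Good μ) (n : ℕ) (k k' : ℤ) :
    ∫ x, vv n k x * vv n k' x ∂μ = cc μ n (k' - k) := by
  rw [cc, ← int_sh g.inv k (f := fun x => vv n 0 x * vv n (k' - k) x)
    ((continuous_vv n 0).mul (continuous_vv _ _))]
  simp [vv_sh]

lemma Good.cc_le (g : r.Good μ) (n : ℕ) (l : ℤ) :
    |cc μ n l - if l = 0 then mm μ n else 0| ≤ if (r.h n : ℤ) ≤ |l| then mm μ n else 0 := by
  have h0 := r.hpos n
  by_cases h : l = 0
  · subst h
    rw [if_pos rfl, if_neg (by simp; omega), cc, mm, integral_congr_ae (g := vv n 0) (ae_of_all _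
      fun x => by rcases vv_01 n 0 x with h | h <;> simp [h])]
    simp
  · rw [if_neg h, sub_zero]
    split_ifs with h1
    · rw [cc, abs_of_nonneg (integral_nonneg fun x => mul_nonneg (vv_nonneg _ _ _) (vv_nonneg _ _ _))]
      exact integral_mono (cont_intX ((continuous_vv n 0).mul (continuous_vv _ _)))
        (cont_intX (continuous_vv n 0)) fun x => mul_le_of_le_one_right (vv_nonneg _ _ _)
          (vv_le_one _ _ _)
    · rw [cc, integral_congr_ae (g := fun _ => 0) (g.ae.mono fun x hx => (hx n).2 0 l (Ne.symm h)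
        (by rw [zero_sub, abs_neg]; omega))]
      simp

lemma Good.cc_approx (g : r.Good μ) (n k : ℕ) (l : ℤ) :
    ‖∫ t, fourier l t * ((mm μ (n + k) * ‖r.PP n k t‖ ^ 2 : ℝ) : ℂ) ∂mT - cc μ n l‖ ≤
      2 * l.natAbs ^ 2 * mm μ (n + k) := by
  have h1 : cc μ n l = ∑ a ∈ r.D n k, ∑ b ∈ r.D n k, cc μ (n + k) (l - a + b) := by
    have i1 : ∀ a b, Integrable (fun x => vv (n + k) a x * vv (n + k) b x) μ := fun a b =>
      cont_intX ((continuous_vv _ _).mul (continuous_vv _ _))
    rw [cc, integral_congr_ae (g.ae.mono fun x hx => show _ = ∑ a ∈ r.D n k, ∑ b ∈ r.D n k,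
      vv (n + k) (0 - b) x * vv (n + k) (l - a) x by
        rw [r.vv_D hx n k 0, r.vv_D hx n k l, sum_mul_sum, sum_comm]),
      integral_finsetSum _ fun a _ => integrable_finsetSum _ fun b _ => i1 _ _]
    refine sum_congr rfl fun a _ => ?_
    rw [integral_finsetSum _ fun b _ => i1 _ _]
    refine sum_congr rfl fun b _ => ?_
    rw [g.int_vv2]; congr 1; ring
  have h2 : ∫ t, fourier l t * ((mm μ (n + k) * ‖r.PP n k t‖ ^ 2 : ℝ) : ℂ) ∂mT =
      ((∑ a ∈ r.D n k, ∑ b ∈ r.D n k, (if l - a + b = 0 then mm μ (n + k) else 0) : ℝ) : ℂ) := by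
    have e : ∀ t : TT, fourier l t * ((mm μ (n + k) * ‖r.PP n k t‖ ^ 2 : ℝ) : ℂ) =
        ∑ a ∈ r.D n k, ∑ b ∈ r.D n k, (mm μ (n + k) : ℂ) * fourier (l - a + b) t := by
      intro t
      have := sq_trig (r.D n k) (fun d => -(d:ℤ)) (fun _ => 1) t
      simp only [one_mul, map_one] at this
      rw [Complex.ofReal_mul, PP, this]; simp only [mul_sum]
      refine sum_congr rfl fun a _ => sum_congr rfl fun b _ => ?_
      rw [mul_left_comm, ← fourier_add]; congr 3; ring
    simp only [e]
    rw [integral_finsetSum _ fun a _ => cont_int (by fun_prop)]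
    push_cast
    refine sum_congr rfl fun a _ => ?_
    rw [integral_finsetSum _ fun a _ => cont_int (by fun_prop)]
    refine sum_congr rfl fun b _ => ?_
    rw [integral_const_mul, int_fourier]
    split_ifs <;> simp
  rw [h2, h1, ← Complex.ofReal_sub, Complex.norm_real, Real.norm_eq_abs, ← sum_sub_distrib]
  refine (abs_sum_le_sum_abs _ _).trans ?_
  have h3 : ∀ a ∈ r.D n k, |∑ b ∈ r.D n k, (if l - a + b = 0 then mm μ (n + k) else 0) -
      ∑ b ∈ r.D n k, cc μ (n + k) (l - a + b)| ≤ ∑ b ∈ r.D n k,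
        if (r.h (n + k) : ℤ) ≤ |l - a + b| then mm μ (n + k) else 0 := by
    intro a _
    rw [← sum_sub_distrib]
    refine (abs_sum_le_sum_abs _ _).trans (sum_le_sum fun b _ => ?_)
    rw [abs_sub_comm]; exact g.cc_le _ _
  refine (sum_le_sum h3).trans ?_
  rw [← sum_product', ← sum_filter, sum_const, nsmul_eq_mul]
  refine mul_le_mul_of_nonneg_right ?_ (mm_nonneg _)
  set H := r.h (n + k)
  set L := l.natAbs
  have h4 : (r.D n k ×ˢ r.D n k).filter (fun p => (H:ℤ) ≤ |l - p.1 + p.2|) ⊆
      (range L ×ˢ Ico (H - L) H) ∪ (Ico (H - L) H ×ˢ range L) := by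
    intro p hp
    simp only [mem_filter, mem_product] at hp
    have a1 := r.D_lt hp.1.1
    have a2 := r.D_lt hp.1.2
    have a3 := hp.2
    simp only [mem_union, mem_product, mem_range, mem_Ico]
    rw [le_abs] at a3
    omega
  have h5 := (card_le_card h4).trans (card_union_le _ _)
  simp only [card_product, card_range, Nat.card_Ico] at h5
  have h6 : H - (H - L) ≤ L := by omega
  have h7 : L * (H - (H - L)) + (H - (H - L)) * L ≤ 2 * L ^ 2 := by nlinarith
  exact_mod_cast h5.trans h7

theorem Good.density (g : r.Good μ) (Φ : ℕ → TT → ℝ) (hΦi : ∀ n, Integrable (Φ n) mT)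
    (hΦ : ∀ n, ∫ t, Φ n t ∂mT ≤ (1 / 2) ^ n)
    (hk : ∀ n (z : ℂ), ‖z‖ = 1 → ∀ x, ‖1 - z‖ ^ 2 *
      |‖∑ j ∈ range (r.J n), z ^ r.u n j * fourier (-(j:ℤ)) x‖ ^ 2 / r.J n - 1| ≤ Φ n x) :
    ∃ ρ : ℕ → TT → ℝ, (∀ n, Integrable (ρ n) mT) ∧ (∀ n, ∀ᵐ t ∂mT, 0 ≤ ρ n t) ∧
      (∀ n, ∀ᵐ t ∂mT, ρ n t = ‖r.pp n t‖ ^ 2 * ρ (n + 1) t) ∧ (∀ᵐ t ∂mT, ∃ n, ρ n t ≠ 0) ∧
      ∀ n l, ∫ t, fourier l t * (ρ n t : ℂ) ∂mT =
        2 * cc μ n l - cc μ n (l + 1) - cc μ n (l - 1) := by
  let G : ℕ → ℕ → TT → ℝ := fun n k t => ww t * (mm μ (n + k) * ‖r.PP n k t‖ ^ 2)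
  have hGc : ∀ n k, Continuous (G n k) := fun n k => by
    have := r.continuous_PP n k
    have := continuous_ww
    simp only [G]; fun_prop
  have hG0 : ∀ n k t, 0 ≤ G n k t := fun n k t =>
    mul_nonneg (sq_nonneg _) (mul_nonneg (mm_nonneg _) (sq_nonneg _))
  have hG : ∀ n k, ∫ t, |G n (k + 1) t - G n k t| ∂mT ≤ mm μ n * (1 / 2) ^ n * (1 / 2) ^ k := by
    intro n k
    have hT : 0 < r.h (n + k) + r.U (n + k) := by have := r.hpos (n + k); omega
    obtain ⟨d1, d2⟩ := decouple (hΦi (n + k)) hT (r.D n k) (fun d hd => by have := r.D_lt hd; omega)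
    have hJ : (0:ℝ) < r.J (n + k) := by have := r.hJ (n + k); positivity
    refine le_trans (integral_mono (cont_int ((hGc _ _).sub (hGc _ _)).abs)
      ((cont_mul_int ((r.continuous_PP n k).norm.pow 2) d1).const_mul (mm μ (n + k))) fun t => ?_) ?_
    · have h1 := hk (n + k) (fourier (-1) t) (norm_fourier _ _)
        (((r.h (n + k) + r.U (n + k) : ℕ) : ℤ) • t)
      have h2 : ∑ j ∈ range (r.J (n + k)), (fourier (-1) t) ^ r.u (n + k) j * fourier (-(j:ℤ))
          (((r.h (n + k) + r.U (n + k) : ℕ) : ℤ) • t) = r.pp (n + k) t := by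
        refine sum_congr rfl fun j _ => ?_
        have : ∀ m : ℕ, (fourier (-1) t : ℂ) ^ m = fourier (-(m:ℤ)) t := fun m => by
          induction m with
          | zero => simp
          | succ m ih => rw [pow_succ, ih, ← fourier_add]; congr 2; push_cast; ring
        rw [this, fourier_smul, ← fourier_add]; congr 2; simp only [pos]; push_cast; ring
      rw [h2] at h1
      have h3 : G n (k + 1) t - G n k t = mm μ (n + k) * ‖r.PP n k t‖ ^ 2 *
          (ww t * (‖r.pp (n + k) t‖ ^ 2 / r.J (n + k) - 1)) := by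
        simp only [G, PP_succ, norm_mul, mul_pow, g.mm_succ (n + k), ← add_assoc]
        field_simp
      simp only [Pi.pow_apply]
      rw [h3, abs_mul, abs_mul (ww t), abs_of_nonneg (a := ww t) (sq_nonneg _),
        abs_of_nonneg (mul_nonneg (mm_nonneg _) (sq_nonneg _)), mul_assoc]
      exact mul_le_mul_of_nonneg_left (mul_le_mul_of_nonneg_left h1 (sq_nonneg _)) (mm_nonneg _)
    · simp only [Pi.pow_apply, PP]
      rw [integral_const_mul, d2, ← mul_assoc, mul_comm (mm μ (n + k)), ← g.mm_D, mul_assoc,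
        ← pow_add]
      exact mul_le_mul_of_nonneg_left (hΦ _) (mm_nonneg _)
  choose ρ hρi hρ using fun n => fast_cauchy (G n) (fun k => cont_int (hGc n k)) _ (hG n)
  have hd : ∀ n k, Integrable (fun t => |ρ n t - G n k t|) mT := fun n k =>
    ((hρi n).sub (cont_int (hGc n k))).abs
  refine ⟨ρ, hρi, fun n => ?_, fun n => ?_, ?_, fun n l => ?_⟩
  · have := ae_zero_of_le (f := fun t => max (-ρ n t) 0) ((hρi n).neg.pos_part) (fun t => le_max_right _ _)
      _ fun k => le_trans (integral_mono ((hρi n).neg.pos_part) (hd n k) fun t => max_le (by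
        have := hG0 n k t
        have := neg_le_abs (ρ n t - G n k t)
        simp only; linarith) (abs_nonneg _)) (hρ n k)
    filter_upwards [this] with t ht
    have := le_max_left (-ρ n t) 0
    linarith
  · have i1 : Integrable (fun t => |ρ n t - ‖r.pp n t‖ ^ 2 * ρ (n + 1) t|) mT :=
      ((hρi n).sub (cont_mul_int ((r.continuous_pp n).norm.pow 2) (hρi (n + 1)))).abs
    have := ae_zero_of_le i1 (fun t => abs_nonneg _) (mm μ n * (1 / 2) ^ n +
      r.J n ^ 2 * (2 * (mm μ (n + 1) * (1 / 2) ^ (n + 1)))) fun k => by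
        refine le_trans (integral_mono i1 ((hd n (k + 1)).add ((hd (n + 1) k).const_mul
          ((r.J n : ℝ) ^ 2))) fun t => ?_) ?_
        · have h1 : G n (k + 1) t = ‖r.pp n t‖ ^ 2 * G (n + 1) k t := by
            simp only [G, PP_succ', norm_mul, mul_pow, add_assoc, add_comm 1 k]; ring
          have h2 := abs_sub_le (ρ n t) (G n (k + 1) t) (‖r.pp n t‖ ^ 2 * ρ (n + 1) t)
          refine h2.trans (add_le_add le_rfl ?_)
          rw [h1, ← mul_sub, abs_mul, abs_sub_comm, abs_of_nonneg (sq_nonneg _)]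
          exact mul_le_mul_of_nonneg_right (pow_le_pow_left₀ (norm_nonneg _) (r.norm_pp n t) 2)
            (abs_nonneg _)
        · simp only [Pi.add_apply]
          rw [integral_add (hd n (k + 1)) ((hd (n + 1) k).const_mul _), integral_const_mul]
          have h1 := hρ n (k + 1)
          have h2 := mul_le_mul_of_nonneg_left (hρ (n + 1) k) (sq_nonneg (r.J n : ℝ))
          rw [pow_succ] at h1
          linarith
    filter_upwards [this] with t ht
    exact sub_eq_zero.1 (abs_eq_zero.1 ht)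
  · choose ρ' hm hρ' using fun n => (hρi n).1.aemeasurable
    have hs : MeasurableSet {t | ∀ n, ρ' n t = 0} := by
      rw [Set.ofPred_forall]
      exact MeasurableSet.iInter fun n => hm n (measurableSet_singleton 0)
    have i1 : Integrable ({t | ∀ n, ρ' n t = 0}.indicator ww) mT :=
      (cont_int continuous_ww).indicator hs
    have := ae_zero_of_le i1 (fun t => Set.indicator_nonneg (fun _ _ => sq_nonneg _) t) 2 fun n => by
      have hm0 := g.mm_pos n
      refine le_of_mul_le_mul_left (le_trans ?_ ((hρ n 0).trans (le_of_eq (by ring)))) hm0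
      rw [← integral_const_mul]
      refine integral_mono_ae (i1.const_mul _) (hd n 0) ?_
      filter_upwards [hρ' n] with t ht
      by_cases h : t ∈ {t | ∀ n, ρ' n t = 0}
      · rw [Set.indicator_of_mem h, ht, h n, zero_sub, abs_neg, abs_of_nonneg (hG0 _ _ _)]
        simp [G, PP, D, mul_comm]
      · rw [Set.indicator_of_notMem h, mul_zero]; exact abs_nonneg _
    filter_upwards [this, ww_ae, ae_all_iff.2 hρ'] with t h1 h2 h3
    by_contra h
    push Not at h
    rw [Set.indicator_of_mem (show t ∈ {t | ∀ n, ρ' n t = 0} from fun n => (h3 n).symm.trans (h n))] at h1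
    exact h2 h1
  · have h1 : ∀ l : ℤ, Tendsto (fun k => ∫ t, fourier l t *
        ((mm μ (n + k) * ‖r.PP n k t‖ ^ 2 : ℝ) : ℂ) ∂mT) atTop (𝓝 (cc μ n l)) := by
      intro l
      rw [tendsto_iff_norm_sub_tendsto_zero]
      refine squeeze_zero (fun _ => norm_nonneg _) (fun k => g.cc_approx n k l) ?_
      have := ((tendsto_add_atTop_iff_nat n).2 g.mm_lim).const_mul (2 * (l.natAbs : ℝ) ^ 2)
      simpa only [mul_zero, add_comm n] using this
    have h2 : Tendsto (fun k => ∫ t, fourier l t * (G n k t : ℂ) ∂mT) atTop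
        (𝓝 (∫ t, fourier l t * (ρ n t : ℂ) ∂mT)) := by
      rw [tendsto_iff_norm_sub_tendsto_zero]
      have := (tendsto_pow_atTop_nhds_zero_of_lt_one (r := (1 / 2 : ℝ)) (by norm_num)
        (by norm_num)).const_mul (2 * (mm μ n * (1 / 2) ^ n))
      rw [mul_zero] at this
      refine squeeze_zero (fun _ => norm_nonneg _) (fun k => le_trans ?_ (hρ n k)) this
      have i1 : Integrable (fun t => fourier l t * (ρ n t : ℂ)) mT :=
        cont_mul_int (fourier l).continuous (hρi n).ofReal
      have i2 : Integrable (fun t => fourier l t * (G n k t : ℂ)) mT :=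
        cont_int (by have := hGc n k; fun_prop)
      rw [← integral_sub i2 i1]
      refine norm_integral_le_of_norm_le (hd n k) (ae_of_all _ fun t => ?_)
      rw [← mul_sub, norm_mul, norm_fourier, one_mul, ← Complex.ofReal_sub, Complex.norm_real,
        Real.norm_eq_abs, abs_sub_comm]
    refine tendsto_nhds_unique h2 (((((h1 l).const_mul 2).sub (h1 (l + 1))).sub
      (h1 (l - 1))).congr fun k => ?_)
    have := r.continuous_PP n k
    rw [← integral_const_mul, ← integral_sub (cont_int (by fun_prop)) (cont_int (by fun_prop)),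
      ← integral_sub (cont_int (by fun_prop)) (cont_int (by fun_prop))]
    refine integral_congr_ae (ae_of_all _ fun t => ?_)
    simp only [G]
    rw [Complex.ofReal_mul (ww t), ← mul_assoc (fourier l t), ww_eq]; ring

end RK

end Vale.Agent.P130
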