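import Vale.Agent.P130.Count

namespace Vale.Agent.P130

open Finset

/-- index of the mirror pair of a coarse cell -/
def hx (H : ℕ) (hH : 0 < H) (Z : ℤ) : Fin H :=
  ⟨(if Z % (2 * H) < H then Z % (2 * H) else 2 * H - 1 - Z % (2 * H)).toNat, by
    have h1 := Int.emod_nonneg Z (by omega : (2 * H : ℤ) ≠ 0)
    have h2 := Int.emod_lt_of_pos Z (by omega : (0:ℤ) < 2 * H)
    split_ifs <;> omega⟩

/-- side of a coarse cell in its mirror pair -/
def sg (H : ℕ) (Z : ℤ) : Bool := decide (Z % (2 * H) < H)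

lemma hx_congr {H : ℕ} (hH : 0 < H) {Z Z' : ℤ} (h : (2 * H : ℤ) ∣ Z - Z') :
    hx H hH Z = hx H hH Z' := by
  have : Z % (2 * H) = Z' % (2 * H) := (Int.emod_emod_of_dvd _ (dvd_refl _)).symm.trans
    (by rw [Int.emod_emod_of_dvd _ (dvd_refl _)]; exact Int.emod_eq_emod_iff_emod_sub_eq_zero.2 (Int.emod_eq_zero_of_dvd h))
  simp only [hx, this]

lemma sg_congr {H : ℕ} {Z Z' : ℤ} (h : (2 * H : ℤ) ∣ Z - Z') : sg H Z = sg H Z' := by
  have : Z % (2 * H) = Z' % (2 * H) :=
    Int.emod_eq_emod_iff_emod_sub_eq_zero.2 (Int.emod_eq_zero_of_dvd h)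
  simp only [sg, this]

lemma emod_mirror {H : ℕ} (hH : 0 < H) (Z : ℤ) :
    (-1 - Z) % (2 * H) = 2 * H - 1 - Z % (2 * H) := by
  have h1 := Int.emod_nonneg Z (by omega : (2 * H : ℤ) ≠ 0)
  have h2 := Int.emod_lt_of_pos Z (by omega : (0:ℤ) < 2 * H)
  have h3 := Int.emod_add_mul_ediv Z (2 * H)
  have : -1 - Z = (2 * H - 1 - Z % (2 * H)) + (2 * H) * (-1 - Z / (2 * H)) := by
    linear_combination h3
  rw [this, Int.add_mul_emod_self_left, Int.emod_eq_of_lt (by omega) (by omega)]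

lemma hx_mirror {H : ℕ} (hH : 0 < H) (Z : ℤ) : hx H hH (-1 - Z) = hx H hH Z := by
  have h1 := Int.emod_nonneg Z (by omega : (2 * H : ℤ) ≠ 0)
  have h2 := Int.emod_lt_of_pos Z (by omega : (0:ℤ) < 2 * H)
  apply Fin.ext
  simp only [hx, emod_mirror hH]
  split_ifs <;> omega

lemma sg_mirror {H : ℕ} (hH : 0 < H) (Z : ℤ) : sg H (-1 - Z) = !sg H Z := by
  simp only [sg, emod_mirror hH]
  by_cases h : Z % (2 * H) < H
  · simp [h]; omega
  · simp [h]; omega

lemma hx_eq {H : ℕ} (hH : 0 < H) {Z Z' : ℤ} (h : hx H hH Z = hx H hH Z') :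
    (2 * H : ℤ) ∣ Z - Z' ∨ (2 * H : ℤ) ∣ Z - (-1 - Z') := by
  have h1 := Int.emod_nonneg Z (by omega : (2 * H : ℤ) ≠ 0)
  have h2 := Int.emod_lt_of_pos Z (by omega : (0:ℤ) < 2 * H)
  have h3 := Int.emod_nonneg Z' (by omega : (2 * H : ℤ) ≠ 0)
  have h4 := Int.emod_lt_of_pos Z' (by omega : (0:ℤ) < 2 * H)
  have h5 := congrArg Fin.val h
  simp only [hx] at h5
  have h6 : Z % (2 * H) = Z' % (2 * H) ∨ Z % (2 * H) = 2 * H - 1 - Z' % (2 * H) := by
    split_ifs at h5 <;> omega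
  rcases h6 with h6 | h6
  · exact Or.inl (Int.dvd_of_emod_eq_zero (Int.emod_eq_emod_iff_emod_sub_eq_zero.1 h6))
  · rw [← emod_mirror hH] at h6
    exact Or.inr (Int.dvd_of_emod_eq_zero (Int.emod_eq_emod_iff_emod_sub_eq_zero.1 h6))

lemma ind_le_sum {α : Type*} [Fintype α] {p : Prop} {q : α → Prop} (h : p → ∃ a, q a) :
    ind p ≤ ∑ a, ind (q a) := by
  by_cases hp : p
  · obtain ⟨a, ha⟩ := h hp
    rw [ind_pos hp, ← ind_pos ha]
    exact single_le_sum (f := fun a => ind (q a)) (fun _ _ => ind_nonneg _) (mem_univ a)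
  · rw [ind_neg hp]; exact sum_nonneg fun _ _ => ind_nonneg _

lemma ind_or_le (p q : Prop) : ind (p ∨ q) ≤ ind p + ind q := by
  by_cases hp : p
  · rw [ind_pos (Or.inl hp), ind_pos hp]; linarith [ind_nonneg q]
  · by_cases hq : q
    · rw [ind_pos (Or.inr hq), ind_pos hq]; linarith [ind_nonneg p]
    · rw [ind_neg (by tauto)]; linarith [ind_nonneg p, ind_nonneg q]

variable {C ι : Type} [Fintype C] [DecidableEq C] [Fintype ι] [DecidableEq ι]

lemma exists_D (lam : ι → C → ℤ) (hp : ∀ i, Prim (lam i))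
    (hnp : ∀ i j, i ≠ j → lam i ≠ lam j ∧ lam i ≠ -lam j) :
    ∃ D : ℝ, 0 ≤ D ∧ ∀ (n m k : ℕ), n = m * k → 0 < m → ∀ i j, i ≠ j → ∀ s s' : ℤ,
      ((m:ℝ) ^ 2 * ∑ A : C → Fin n, ind ((m:ℤ) ∣ lam i ⬝ᵥ cv A - s ∧ (m:ℤ) ∣ lam j ⬝ᵥ cv A - s') ≤
        D * (n:ℝ) ^ Fintype.card C) ∧
      ((m:ℝ) * ∑ A : C → Fin n, ind ((m:ℤ) ∣ (lam i - lam j) ⬝ᵥ cv A - s) ≤
        D * (n:ℝ) ^ Fintype.card C) ∧
      ((m:ℝ) * ∑ A : C → Fin n, ind ((m:ℤ) ∣ (lam i + lam j) ⬝ᵥ cv A - s) ≤
        D * (n:ℝ) ^ Fintype.card C) := by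
  have h : ∀ x : ι × ι, ∃ D : ℝ, 0 ≤ D ∧ ∀ (n m k : ℕ), n = m * k → 0 < m → x.1 ≠ x.2 →
      ∀ s s' : ℤ,
      ((m:ℝ) ^ 2 * ∑ A : C → Fin n, ind ((m:ℤ) ∣ lam x.1 ⬝ᵥ cv A - s ∧ (m:ℤ) ∣ lam x.2 ⬝ᵥ cv A - s') ≤
        D * (n:ℝ) ^ Fintype.card C) ∧
      ((m:ℝ) * ∑ A : C → Fin n, ind ((m:ℤ) ∣ (lam x.1 - lam x.2) ⬝ᵥ cv A - s) ≤
        D * (n:ℝ) ^ Fintype.card C) ∧
      ((m:ℝ) * ∑ A : C → Fin n, ind ((m:ℤ) ∣ (lam x.1 + lam x.2) ⬝ᵥ cv A - s) ≤
        D * (n:ℝ) ^ Fintype.card C) := by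
    rintro ⟨i, j⟩
    by_cases hij : i = j
    · exact ⟨0, le_rfl, fun _ _ _ _ _ h => absurd hij h⟩
    obtain ⟨D1, h1, H1⟩ := form2 (hp i) (hp j) (hnp j i (Ne.symm hij)).1 (hnp j i (Ne.symm hij)).2
    obtain ⟨D2, h2, H2⟩ := form1' (lam i - lam j) (sub_ne_zero.2 (hnp i j hij).1)
    obtain ⟨D3, h3, H3⟩ := form1' (lam i + lam j)
      (fun h => (hnp i j hij).2 (eq_neg_of_add_eq_zero_left h))
    refine ⟨D1 + D2 + D3, by positivity, fun n m k hn hm _ s s' => ⟨?_, ?_, ?_⟩⟩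
    · refine (H1 n m k hn hm s s').trans ?_; gcongr; linarith
    · refine (H2 n m k hn hm s).trans ?_; gcongr; linarith
    · refine (H3 n m k hn hm s).trans ?_; gcongr; linarith
  choose D h0 hD using h
  refine ⟨∑ x, D x, sum_nonneg fun x _ => h0 x, fun n m k hn hm i j hij s s' => ?_⟩
  have hle : D (i, j) * (n:ℝ) ^ Fintype.card C ≤ (∑ x, D x) * (n:ℝ) ^ Fintype.card C :=
    mul_le_mul_of_nonneg_right (single_le_sum (f := D) (fun x _ => h0 x) (mem_univ _))
      (by positivity)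
  obtain ⟨a1, a2, a3⟩ := hD (i, j) n m k hn hm hij s s'
  exact ⟨a1.trans hle, a2.trans hle, a3.trans hle⟩

set_option maxHeartbeats 1600000 in
theorem labelled [Nonempty ι] (lam : ι → C → ℤ) (hp : ∀ i, Prim (lam i))
    (hnp : ∀ i j, i ≠ j → lam i ≠ lam j ∧ lam i ≠ -lam j) (β : C → ℤ) (ρ : ι → ℕ)
    (hρ : ∀ i, lam i ⬝ᵥ β = ρ i) (hρ0 : ∀ i, 0 < ρ i) (L : ℕ) (hL0 : 0 < L) (hL : ∀ i, ρ i ∣ L)
    (pi qq : ι → ℕ) (q : ℕ) (hq0 : 0 < q) (hq : ∀ i, pi i * qq i = q) (ε : ℝ) (hε : 0 < ε) :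
    ∃ (H : ℕ) (hH : 0 < H) (N : ℕ) (A : Fin N → C → ℤ) (ω : Fin H → ι × Bool),
      (1 - ε) * (L * q * (2 * H)) ≤ N * (2 * ∑ i, (ρ i * qq i : ℝ)) ∧
      (∀ b i, ω (hx H hH ((lam i ⬝ᵥ A b) / L)) = (i, sg H ((lam i ⬝ᵥ A b) / L))) ∧
      (∀ b i, (ρ i : ℤ) ∣ lam i ⬝ᵥ A b) ∧
      (∀ b b' i, (L * pi i * (2 * H) : ℤ) ∣ lam i ⬝ᵥ A b - lam i ⬝ᵥ A b' → b = b') := by
  classical
  obtain ⟨D, hD0, hD⟩ := exists_D lam hp hnp
  have hqq0 : ∀ i, 0 < qq i := fun i => Nat.pos_of_ne_zero (fun h => by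
    have := hq i; rw [h] at this; omega)
  have hpi0 : ∀ i, 0 < pi i := fun i => Nat.pos_of_ne_zero (fun h => by
    have := hq i; rw [h] at this; omega)
  set K : ℝ := 2 * ∑ i, (ρ i * qq i : ℝ) with hK
  have hrq : ∀ i, (1:ℝ) ≤ ρ i * qq i := fun i => by
    have : 1 ≤ ρ i * qq i := Nat.mul_pos (hρ0 i) (hqq0 i)
    exact_mod_cast this
  have hrqK : ∀ i, 2 * (ρ i * qq i : ℝ) ≤ K := fun i => by
    have := single_le_sum (f := fun i => (ρ i * qq i : ℝ)) (fun i _ => by positivity) (mem_univ i)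
    linarith
  have hK1 : 1 ≤ K := by
    obtain ⟨i⟩ := ‹Nonempty ι›
    linarith [hrq i, hrqK i]
  set pp : ι → ℝ := fun i => ρ i * qq i / K with hpp
  have hpp0 : ∀ i, 0 < pp i := fun i => div_pos (by linarith [hrq i]) (by linarith)
  have hpp1 : ∀ i, pp i ≤ 1 := fun i => (div_le_one (by linarith)).2 (by linarith [hrq i, hrqK i])
  set Q := ∏ i, pp i with hQ
  have hQ0 : 0 < Q := prod_pos fun i _ => hpp0 i
  set I : ℝ := (Fintype.card ι : ℝ) with hI
  have hI1 : 1 ≤ I := by rw [hI]; exact_mod_cast Fintype.card_pos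
  set ε' := min ε 1 / (5 * K) with hε'
  have hmin : 0 < min ε 1 := by positivity
  have hε'0 : 0 < ε' := by positivity
  have hε'K : ε' * K = min ε 1 / 5 := by rw [hε']; field_simp
  obtain ⟨δ, hδ, hnib⟩ := nibble (ι := ι) ε' hε'0
  set a := ε' / I with ha
  have ha0 : 0 < a := by positivity
  obtain ⟨H, hH1⟩ := exists_nat_gt (max (max (q * L * D / (Q * K * δ)) (I ^ 2 * D / ε'))
    (2 * I ^ 2 * L * D * q / (Q ^ 2 * K) / (4 * a * a)))
  have hH0 : (0:ℝ) < H := lt_of_le_of_lt (le_max_of_le_right (by positivity)) hH1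
  have hH : 0 < H := by exact_mod_cast hH0
  have hHa : q * L * D / (Q * K * δ) < H := lt_of_le_of_lt (le_max_of_le_left (le_max_left _ _)) hH1
  have hHb : I ^ 2 * D / ε' < H := lt_of_le_of_lt (le_max_of_le_left (le_max_right _ _)) hH1
  have hHc : 2 * I ^ 2 * L * D * q / (Q ^ 2 * K) / (4 * a * a) < H :=
    lt_of_le_of_lt (le_max_right _ _) hH1
  set m := 2 * H with hm
  have hm0 : 0 < m := by omega
  have hmR : (m:ℝ) = 2 * H := by rw [hm]; push_cast; ring
  have hmZ : (m:ℤ) = 2 * H := by rw [hm]; push_cast; ring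
  set n := m * q with hn
  have hn0 : (0:ℝ) < n := by exact_mod_cast Nat.mul_pos hm0 hq0
  have hnR : (n:ℝ) = m * q := by rw [hn]; push_cast; ring
  set M := L * n with hM
  have hM0 : 0 < M := Nat.mul_pos hL0 (Nat.mul_pos hm0 hq0)
  set nd : ℝ := (n:ℝ) ^ Fintype.card C with hnd
  have hnd0 : 0 < nd := by positivity
  let E := Fin L × (C → Fin n)
  let Av : E → C → ℤ := fun e => ((e.1 : ℕ) : ℤ) • β + (L:ℤ) • cv e.2
  let Y : E → ι → ℤ := fun e i => lam i ⬝ᵥ Av e
  have hY : ∀ e i, Y e i = ((e.1 : ℕ) : ℤ) * ρ i + L * (lam i ⬝ᵥ cv e.2) := by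
    intro e i; simp only [Y, Av, dotProduct_add, dotProduct_smul, smul_eq_mul, hρ]
  have hL0' : (L:ℤ) ≠ 0 := by exact_mod_cast hL0.ne'
  have hZ : ∀ e i, Y e i / L = ((e.1 : ℕ) : ℤ) * ρ i / L + lam i ⬝ᵥ cv e.2 := by
    intro e i; rw [hY, Int.add_mul_ediv_left _ _ hL0']
  let md : ι → ℤ := fun i => L * pi i * m
  have hmd0 : ∀ i, 0 < md i := fun i => by have := hpi0 i; positivity
  have hmdM : ∀ i, md i ≤ M := fun i => by
    have : L * pi i * m ≤ M := by
      rw [hM, hn, ← hq i]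
      calc L * pi i * m = L * (m * (pi i * 1)) := by ring
        _ ≤ _ := by gcongr; exact hqq0 i
    simp only [md]
    exact_mod_cast this
  let v : E → ι → Fin M := fun e i => ⟨(Y e i % md i).toNat, by
    have h1 := Int.emod_nonneg (Y e i) (hmd0 i).ne'
    have h2 := Int.emod_lt_of_pos (Y e i) (hmd0 i)
    have := hmdM i
    omega⟩
  have hv : ∀ e i, (((v e i : ℕ) : ℤ)) = Y e i % md i := fun e i =>
    Int.toNat_of_nonneg (Int.emod_nonneg (Y e i) (hmd0 i).ne')
  have hvd : ∀ e i, md i ∣ Y e i - ((v e i : ℕ) : ℤ) := fun e i => by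
    rw [hv]; exact Int.dvd_self_sub_emod
  have hdiv : ∀ (i : ι) (y y' : ℤ), md i ∣ y - y' → (m:ℤ) ∣ y / L - y' / L := by
    rintro i y y' ⟨k, hk⟩
    have : y = y' + L * (pi i * m * k) := by simp only [md] at hk; linear_combination hk
    rw [this, Int.add_mul_ediv_left _ _ hL0']
    exact ⟨pi i * k, by ring⟩
  let good : E → Prop := fun e => ∀ i j, i ≠ j → hx H hH (Y e i / L) ≠ hx H hH (Y e j / L)
  let p : Fin H → ι × Bool → ℝ := fun _ x => pp x.1
  have hp0 : ∀ j x, 0 ≤ p j x := fun j x => (hpp0 _).le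
  have hp1 : ∀ j, ∑ x, p j x = 1 := fun j => by
    simp only [p, Fintype.sum_prod_type, sum_const, card_univ, Fintype.card_bool, nsmul_eq_mul,
      hpp, ← mul_sum, ← sum_div]
    push_cast
    exact div_self (by linarith)
  let alive : (Fin H → ι × Bool) → ι → Fin M → Prop := fun ω i x =>
    ω (hx H hH (((x:ℕ):ℤ) / L)) = (i, sg H (((x:ℕ):ℤ) / L))
  have halive : ∀ ω e i, alive ω i (v e i) ↔ ω (hx H hH (Y e i / L)) = (i, sg H (Y e i / L)) := by
    intro ω e i
    have := hdiv i _ _ (hvd e i)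
    rw [hmZ] at this
    simp only [alive, hx_congr hH this, sg_congr this]
  obtain ⟨i0⟩ := ‹Nonempty ι›
  have hsumA : ∑ A : C → Fin n, (1:ℝ) = nd := by simp [hnd]
  have hcod : ∀ (i j : ι), i ≠ j → ∀ (f g : Fin L → ℤ), ∑ e : E, ind ((m:ℤ) ∣ lam i ⬝ᵥ cv e.2 - f e.1
      ∧ (m:ℤ) ∣ lam j ⬝ᵥ cv e.2 - g e.1) ≤ L * (D * nd / m ^ 2) := by
    intro i j hij f g
    rw [Fintype.sum_prod_type]
    calc _ ≤ ∑ c : Fin L, D * nd / m ^ 2 := sum_le_sum fun c _ => by
          rw [le_div_iff₀ (by positivity), mul_comm]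
          exact (hD n m q hn hm0 i j hij (f c) (g c)).1
      _ = _ := by simp
  set lamS := n / (Q * K * nd) with hlamS
  have hlamS0 : 0 ≤ lamS := by positivity
  obtain ⟨w', h0, hle, hal, hd', hsum⟩ := thin (PW p) (PW_nonneg hp0) (sum_PW hp1) v
    (fun e => ind (good e)) (fun e => ind_nonneg _) alive pp hpp0 hpp1 Q lamS 0
    (I * (I * (2 * (L * (D * nd / m ^ 2))))) a hQ0 hlamS0 le_rfl (by positivity) ha0
    (fun i e e' => ∃ j, j ≠ i ∧ ∃ j', hx H hH (Y e' j / L) = hx H hH (Y e j' / L))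
    (fun e he => by
      have hg : good e := by by_contra h; rw [ind_neg h] at he; exact lt_irrefl _ he
      have := prob_inj hp1 univ (fun i => hx H hH (Y e i / L))
        (fun i _ j _ h => by by_contra h'; exact hg i j h' h) (fun i => (i, sg H (Y e i / L)))
        (i0, true)
      refine le_of_eq (this.symm.trans (sum_congr rfl fun ω _ => ?_))
      rw [← ind_eq_ite]; simp only [halive, mem_univ, true_implies])
    (fun i x => by
      have := prob_inj hp1 ({()} : Finset Unit) (fun _ => hx H hH (((x:ℕ):ℤ) / L))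
        (fun i _ j _ h => rfl) (fun _ => (i, sg H (((x:ℕ):ℤ) / L))) (i0, true)
      rw [prod_singleton] at this
      refine le_of_eq ((sum_congr rfl fun ω _ => ?_).trans this)
      rw [← ind_eq_ite]; simp [alive])
    (fun i e e' he he' _ hb => by
      have hg : good e := by by_contra h; rw [ind_neg h] at he; exact lt_irrefl _ he
      have hg' : good e' := by by_contra h; rw [ind_neg h] at he'; exact lt_irrefl _ he'
      have := prob_inj hp1 ((univ : Finset ι).disjSum (univ.erase i))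
        (Sum.elim (fun j => hx H hH (Y e j / L)) (fun j => hx H hH (Y e' j / L)))
        (by
          rintro (j | j) hj (j' | j') hj' h
          · by_contra h'; exact hg j j' (fun e => h' (by rw [e])) h
          · exact absurd ⟨j', by simpa using hj', j, h.symm⟩ hb
          · exact absurd ⟨j, by simpa using hj, j', h⟩ hb
          · by_contra h'; exact hg' j j' (fun e => h' (by rw [e])) h)
        (Sum.elim (fun j => (j, sg H (Y e j / L))) (fun j => (j, sg H (Y e' j / L)))) (i0, true)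
      rw [prod_disjSum] at this
      simp only [Sum.elim_inl, Sum.elim_inr, p] at this
      have e1 : (∏ j, pp j) * ∏ j ∈ univ.erase i, pp j = (1 + 0) * Q ^ 2 / pp i := by
        rw [eq_div_iff (hpp0 i).ne', mul_assoc, prod_erase_mul _ _ (mem_univ i)]; ring
      rw [← e1, ← this]
      refine sum_le_sum fun ω _ => mul_le_mul_of_nonneg_left ?_ (PW_nonneg hp0 _)
      rw [← ind_eq_ite]
      refine ind_mono fun ⟨h1, h2⟩ => ?_
      rintro (j | j) _
      · exact (halive ω e j).1 (h1 j)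
      · exact (halive ω e' j).1 (h2 j))
    (fun i e _ => by
      let f : Fin L → ℤ := fun c => Y e i / L - ((c : ℕ) : ℤ) * ρ i / L
      let g1 : ι → ι → Fin L → ℤ := fun j j' c => Y e j' / L - ((c : ℕ) : ℤ) * ρ j / L
      let g2 : ι → ι → Fin L → ℤ := fun j j' c => (-1 - Y e j' / L) - ((c : ℕ) : ℤ) * ρ j / L
      calc _ ≤ ∑ e' : E, ∑ j ∈ univ.erase i, ∑ j', (ind ((m:ℤ) ∣ lam i ⬝ᵥ cv e'.2 - f e'.1
              ∧ (m:ℤ) ∣ lam j ⬝ᵥ cv e'.2 - g1 j j' e'.1) + ind ((m:ℤ) ∣ lam i ⬝ᵥ cv e'.2 - f e'.1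
              ∧ (m:ℤ) ∣ lam j ⬝ᵥ cv e'.2 - g2 j j' e'.1)) := by
            refine sum_le_sum fun e' _ => ?_
            refine (mul_le_of_le_one_right (ind_nonneg _) (ind_le_one _)).trans ?_
            have hnn : ∀ j j', 0 ≤ ind ((m:ℤ) ∣ lam i ⬝ᵥ cv e'.2 - f e'.1
              ∧ (m:ℤ) ∣ lam j ⬝ᵥ cv e'.2 - g1 j j' e'.1) + ind ((m:ℤ) ∣ lam i ⬝ᵥ cv e'.2 - f e'.1
              ∧ (m:ℤ) ∣ lam j ⬝ᵥ cv e'.2 - g2 j j' e'.1) := fun j j' =>
                add_nonneg (ind_nonneg _) (ind_nonneg _)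
            by_cases h : v e' i = v e i ∧ ∃ j, j ≠ i ∧ ∃ j', hx H hH (Y e' j / L) =
              hx H hH (Y e j' / L)
            swap
            · rw [ind_neg h]; exact sum_nonneg fun j _ => sum_nonneg fun j' _ => hnn j j'
            rw [ind_pos h]
            obtain ⟨h1, j, hj, j', h2⟩ := h
            refine le_trans ?_ (single_le_sum (fun j _ => sum_nonneg fun j' _ => hnn j j')
              (mem_erase.2 ⟨hj, mem_univ _⟩))
            refine le_trans ?_ (single_le_sum (fun j' _ => hnn j j') (mem_univ j'))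
            have h3 : (m:ℤ) ∣ lam i ⬝ᵥ cv e'.2 - f e'.1 := by
              have := hdiv i (Y e' i) (Y e i) (by
                have := (hvd e' i).sub (hvd e i); rw [h1] at this; simpa using this)
              rw [hZ e' i] at this
              simp only [f]
              refine (dvd_refl _).trans ?_
              obtain ⟨k, hk⟩ := this
              exact ⟨k, by linear_combination hk⟩
            rcases hx_eq hH h2 with h4 | h4
            · rw [hZ e' j, ← hmZ] at h4
              obtain ⟨k, hk⟩ := h4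
              rw [ind_pos ⟨h3, k, by simp only [g1]; linear_combination hk⟩]
              linarith [ind_nonneg ((m:ℤ) ∣ lam i ⬝ᵥ cv e'.2 - f e'.1
                ∧ (m:ℤ) ∣ lam j ⬝ᵥ cv e'.2 - g2 j j' e'.1)]
            · rw [hZ e' j, ← hmZ] at h4
              obtain ⟨k, hk⟩ := h4
              rw [ind_pos (p := (m:ℤ) ∣ lam i ⬝ᵥ cv e'.2 - f e'.1
                ∧ (m:ℤ) ∣ lam j ⬝ᵥ cv e'.2 - g2 j j' e'.1)
                ⟨h3, k, by simp only [g2]; linear_combination hk⟩]
              linarith [ind_nonneg ((m:ℤ) ∣ lam i ⬝ᵥ cv e'.2 - f e'.1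
                ∧ (m:ℤ) ∣ lam j ⬝ᵥ cv e'.2 - g1 j j' e'.1)]
        _ = ∑ j ∈ univ.erase i, ∑ j', ((∑ e' : E, ind ((m:ℤ) ∣ lam i ⬝ᵥ cv e'.2 - f e'.1
              ∧ (m:ℤ) ∣ lam j ⬝ᵥ cv e'.2 - g1 j j' e'.1)) + ∑ e' : E,
              ind ((m:ℤ) ∣ lam i ⬝ᵥ cv e'.2 - f e'.1
              ∧ (m:ℤ) ∣ lam j ⬝ᵥ cv e'.2 - g2 j j' e'.1)) := by
            rw [sum_comm]
            refine sum_congr rfl fun j _ => ?_
            rw [sum_comm]
            exact sum_congr rfl fun j' _ => sum_add_distrib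
        _ ≤ ∑ j ∈ univ.erase i, ∑ j' : ι, (2 * (L * (D * nd / m ^ 2))) := by
            refine sum_le_sum fun j hj => sum_le_sum fun j' _ => ?_
            have h1 := hcod i j (ne_of_mem_erase hj).symm f (g1 j j')
            have h2 := hcod i j (ne_of_mem_erase hj).symm f (g2 j j')
            linarith
        _ ≤ ∑ j : ι, ∑ j' : ι, (2 * (L * (D * nd / m ^ 2))) :=
            sum_le_sum_of_subset_of_nonneg (subset_univ _) (fun _ _ _ => by positivity)
        _ = _ := by simp [hI])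
    (fun i x => by
      have h1 : deg v (fun e => ind (good e)) i x ≤ ρ i * (nd / (pi i * m)) := by
        let t : Fin L → ℤ := fun c => -((ρ i * ((c : ℕ) : ℤ) - ((x:ℕ):ℤ)) / L)
        calc _ ≤ ∑ e : E, ind ((L:ℤ) ∣ ρ i * ((e.1 : ℕ) : ℤ) - ((x:ℕ):ℤ)) *
              ind (((pi i * m : ℕ) : ℤ) ∣ lam i ⬝ᵥ cv e.2 - t e.1) := by
              refine sum_le_sum fun e _ => ?_
              refine (mul_le_of_le_one_right (ind_nonneg _) (ind_le_one _)).trans ?_
              rw [← ind_and]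
              refine ind_mono fun h => ?_
              obtain ⟨k, hk⟩ := hvd e i
              rw [h, hY] at hk
              simp only [md] at hk
              have h2 : ρ i * ((e.1 : ℕ) : ℤ) - ((x:ℕ):ℤ) =
                  L * (pi i * m * k - lam i ⬝ᵥ cv e.2) := by linear_combination hk
              refine ⟨⟨_, h2⟩, k, ?_⟩
              simp only [t]
              rw [h2, Int.mul_ediv_cancel_left _ hL0']; push_cast; ring
          _ ≤ ∑ c : Fin L, ind ((L:ℤ) ∣ ρ i * ((c : ℕ) : ℤ) - ((x:ℕ):ℤ)) * (nd / (pi i * m)) := by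
              rw [Fintype.sum_prod_type]
              refine sum_le_sum fun c _ => ?_
              dsimp only
              rw [← mul_sum]
              refine mul_le_mul_of_nonneg_left ?_ (ind_nonneg _)
              obtain ⟨c0, hc0⟩ := hp i
              have := form1 (lam i) c0 (by rcases hc0 with h | h <;> simp [h]) n (pi i * m) (qq i)
                (by rw [hn, ← hq i]; ring) (Nat.mul_pos (hpi0 i) hm0) (t c)
              have habs : |(lam i c0 : ℝ)| = 1 := by rcases hc0 with h | h <;> simp [h]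
              rw [habs, one_mul] at this
              have hpi : (0:ℝ) < pi i := by exact_mod_cast hpi0 i
              rw [le_div_iff₀ (by positivity), mul_comm, ← Nat.cast_mul]
              exact this
          _ ≤ _ := by
              rw [← sum_mul]
              refine mul_le_mul_of_nonneg_right ?_ (by positivity)
              have := cnt1 (ρ i) (by exact_mod_cast (hρ0 i).ne') L L 1 (by ring) hL0 ((x:ℕ):ℤ)
              simpa using this
      have hpi : (0:ℝ) < pi i := by exact_mod_cast hpi0 i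
      have hqR : (q:ℝ) = pi i * qq i := by exact_mod_cast (hq i).symm
      calc _ ≤ lamS * (ρ i * (nd / (pi i * m))) * Q := by gcongr
        _ = pp i := by
          simp only [hlamS, hpp]; rw [hnR, hqR]; field_simp)
  obtain ⟨ω, hω⟩ := exists_ge_avg (PW_nonneg hp0) (sum_PW hp1) (fun ω => ∑ e, w' ω e)
  obtain ⟨Mt, g1, g2, g3⟩ := hnib (Fin M) E v (w' ω) (h0 ω) (hd' ω) (fun i j x x' hij => by
    calc codeg v (w' ω) i j x x' ≤ ∑ e : E, lamS * ind ((m:ℤ) ∣ lam i ⬝ᵥ cv e.2 -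
          (((x:ℕ):ℤ) / L - ((e.1 : ℕ) : ℤ) * ρ i / L) ∧ (m:ℤ) ∣ lam j ⬝ᵥ cv e.2 -
          (((x':ℕ):ℤ) / L - ((e.1 : ℕ) : ℤ) * ρ j / L)) := by
          refine sum_le_sum fun e _ => ?_
          have h1 : w' ω e ≤ lamS :=
            (hle ω e).trans (mul_le_of_le_one_right hlamS0 (ind_le_one _))
          rw [mul_comm]
          refine mul_le_mul h1 (ind_mono fun ⟨a1, a2⟩ => ?_) (ind_nonneg _) hlamS0
          obtain ⟨k1, b1⟩ := hdiv i _ _ (hvd e i)
          obtain ⟨k2, b2⟩ := hdiv j _ _ (hvd e j)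
          rw [hZ, a1] at b1
          rw [hZ, a2] at b2
          exact ⟨⟨k1, by linear_combination b1⟩, ⟨k2, by linear_combination b2⟩⟩
      _ ≤ lamS * (L * (D * nd / m ^ 2)) := by
          rw [← mul_sum]
          exact mul_le_mul_of_nonneg_left (hcod i j hij
            (fun c => ((x:ℕ):ℤ) / L - ((c : ℕ) : ℤ) * ρ i / L)
            (fun c => ((x':ℕ):ℤ) / L - ((c : ℕ) : ℤ) * ρ j / L)) hlamS0
      _ = q * L * D / (Q * K) / m := by simp only [hlamS]; rw [hnR]; field_simp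
      _ ≤ δ := by
          rw [div_lt_iff₀ (by positivity)] at hHa
          rw [div_le_iff₀ (by positivity), div_le_iff₀ (by positivity), hmR]
          nlinarith [mul_pos hH0 (mul_pos (mul_pos hQ0 (by linarith : 0 < K)) hδ)])
  refine ⟨H, hH, Mt.card, fun b => Av (Mt.equivFin.symm b), ω, ?_, fun b i => ?_, fun b i => ?_,
    fun b b' i h => ?_⟩
  · have hgood : L * nd - I * (I * (2 * (L * (D * nd / m)))) ≤ ∑ e, ind (good e) := by
      have h1 : ∑ e : E, (1 - ind (good e)) ≤ I * (I * (2 * (L * (D * nd / m)))) := by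
        let f1 : ι → ι → Fin L → ℤ := fun i j c => ((c : ℕ) : ℤ) * ρ j / L - ((c : ℕ) : ℤ) * ρ i / L
        let f2 : ι → ι → Fin L → ℤ := fun i j c =>
          -1 - ((c : ℕ) : ℤ) * ρ j / L - ((c : ℕ) : ℤ) * ρ i / L
        calc _ ≤ ∑ e : E, ∑ i, ∑ j, (ind (i ≠ j ∧ (m:ℤ) ∣ (lam i - lam j) ⬝ᵥ cv e.2 - f1 i j e.1) +
              ind (i ≠ j ∧ (m:ℤ) ∣ (lam i + lam j) ⬝ᵥ cv e.2 - f2 i j e.1)) := by
              refine sum_le_sum fun e _ => ?_
              have hnn : ∀ i j, 0 ≤ ind (i ≠ j ∧ (m:ℤ) ∣ (lam i - lam j) ⬝ᵥ cv e.2 - f1 i j e.1) +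
                ind (i ≠ j ∧ (m:ℤ) ∣ (lam i + lam j) ⬝ᵥ cv e.2 - f2 i j e.1) := fun i j =>
                  add_nonneg (ind_nonneg _) (ind_nonneg _)
              by_cases h : good e
              · rw [ind_pos h, sub_self]
                exact sum_nonneg fun i _ => sum_nonneg fun j _ => hnn i j
              rw [ind_neg h, sub_zero]
              simp only [good, not_forall, not_not] at h
              obtain ⟨i, j, hij, h2⟩ := h
              refine le_trans ?_ (single_le_sum (fun i _ => sum_nonneg fun j _ => hnn i j)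
                (mem_univ i))
              refine le_trans ?_ (single_le_sum (fun j _ => hnn i j) (mem_univ j))
              rcases hx_eq hH h2 with h4 | h4
              · rw [hZ e j, hZ e i, ← hmZ] at h4
                obtain ⟨k, hk⟩ := h4
                rw [ind_pos ⟨hij, k, by simp only [f1, sub_dotProduct]; linear_combination hk⟩]
                linarith [ind_nonneg (i ≠ j ∧ (m:ℤ) ∣ (lam i + lam j) ⬝ᵥ cv e.2 - f2 i j e.1)]
              · rw [hZ e j, hZ e i, ← hmZ] at h4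
                obtain ⟨k, hk⟩ := h4
                rw [ind_pos (p := i ≠ j ∧ (m:ℤ) ∣ (lam i + lam j) ⬝ᵥ cv e.2 - f2 i j e.1)
                  ⟨hij, k, by simp only [f2, add_dotProduct]; linear_combination hk⟩]
                linarith [ind_nonneg (i ≠ j ∧ (m:ℤ) ∣ (lam i - lam j) ⬝ᵥ cv e.2 - f1 i j e.1)]
          _ = ∑ i, ∑ j, ∑ c : Fin L, ((∑ A : C → Fin n,
                ind (i ≠ j ∧ (m:ℤ) ∣ (lam i - lam j) ⬝ᵥ cv A - f1 i j c)) + ∑ A : C → Fin n,
                ind (i ≠ j ∧ (m:ℤ) ∣ (lam i + lam j) ⬝ᵥ cv A - f2 i j c)) := by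
              rw [sum_comm]
              refine sum_congr rfl fun i _ => ?_
              rw [sum_comm]
              refine sum_congr rfl fun j _ => ?_
              rw [Fintype.sum_prod_type]
              exact sum_congr rfl fun c _ => sum_add_distrib
          _ ≤ ∑ i : ι, ∑ j : ι, ∑ c : Fin L, (2 * (D * nd / m)) := by
              refine sum_le_sum fun i _ => sum_le_sum fun j _ => sum_le_sum fun c _ => ?_
              by_cases hij : i = j
              · simp only [hij, ne_eq, not_true, false_and, ind_neg (not_false), sum_const_zero,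
                  add_zero]
                positivity
              simp only [ne_eq, hij, not_false_eq_true, true_and]
              have h1 := (hD n m q hn hm0 i j hij (f1 i j c) 0).2.1
              have h2 := (hD n m q hn hm0 i j hij (f2 i j c) 0).2.2
              rw [mul_comm, ← le_div_iff₀ (by positivity)] at h1 h2
              linarith
          _ = _ := by simp [hI]; ring
      rw [sum_sub_distrib] at h1
      have h2 : ∑ e : E, (1:ℝ) = L * nd := by
        rw [Fintype.sum_prod_type]; simp only [hsumA]; simp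
      linarith
    have hMR : (M:ℝ) = L * q * (2 * H) := by rw [hM]; push_cast; rw [hnR, hmR]; ring
    rw [← hMR]
    rw [Fintype.card_fin] at hsum g3
    have hMp : (0:ℝ) < M := by exact_mod_cast hM0
    have e1 : lamS * Q * (L * nd - I * (I * (2 * (L * (D * nd / m))))) =
        M / K - M / K * (I ^ 2 * D / H) := by
      simp only [hlamS]; rw [hM]; push_cast; rw [hmR]; field_simp
    have e2 : (0 + lamS * (I * (I * (2 * (L * (D * nd / m ^ 2))))) / Q) / (4 * a) ≤ a := by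
      have : lamS * (I * (I * (2 * (L * (D * nd / m ^ 2))))) / Q =
          2 * I ^ 2 * L * D * q / (Q ^ 2 * K) / m := by
        simp only [hlamS]; rw [hnR]; field_simp
      rw [zero_add, this, div_le_iff₀ (by positivity), div_le_iff₀ (by positivity), hmR]
      rw [div_lt_iff₀ (by positivity)] at hHc
      nlinarith [mul_pos hH0 (mul_pos ha0 ha0)]
    have e3 : I ^ 2 * D / H ≤ ε' := by
      rw [div_lt_iff₀ hε'0] at hHb
      rw [div_le_iff₀ hH0]; linarith
    have e4 : I * M * (a + (0 + lamS * (I * (I * (2 * (L * (D * nd / m ^ 2))))) / Q) / (4 * a)) ≤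
        2 * ε' * M := by
      calc _ ≤ I * M * (a + a) := by gcongr
        _ = _ := by rw [ha]; field_simp; ring
    have e5 := mul_le_mul_of_nonneg_left hgood (mul_nonneg hlamS0 hQ0.le)
    rw [e1] at e5
    have hMK : M / K ≤ (M:ℝ) := div_le_self hMp.le hK1
    have hMK0 : 0 ≤ (M:ℝ) / K := by positivity
    have e6 : M / K - 3 * ε' * M ≤ ∑ e, w' ω e := by
      have : M / K * (I ^ 2 * D / H) ≤ M * ε' := mul_le_mul hMK e3 (by positivity) hMp.le
      linarith
    have hε'1 : ε' ≤ 1 := by nlinarith [min_le_right ε 1]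
    have e7 : M / K - 5 * ε' * M ≤ Mt.card := by
      have := mul_le_mul_of_nonneg_left e6 (by linarith : 0 ≤ 1 - ε')
      nlinarith [mul_pos hε'0 hMp, mul_pos hε'0 (mul_pos hε'0 hMp)]
    have e8 := mul_le_mul_of_nonneg_right e7 (by linarith : 0 ≤ K)
    have e9 : (M / K - 5 * ε' * M) * K = M - min ε 1 * M := by
      have : min ε 1 = 5 * (ε' * K) := by rw [hε'K]; ring
      rw [this]; field_simp
    rw [e9] at e8
    nlinarith [min_le_left ε 1]
  · exact (halive ω _ i).1 ((hal ω _ (g1 _ (Mt.equivFin.symm b).2)).2 i)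
  · change (ρ i : ℤ) ∣ Y _ i
    rw [hY]
    exact (dvd_mul_left _ _).add ((Int.natCast_dvd_natCast.2 (hL i)).mul_right _)
  · by_contra hne
    refine g2 _ (Mt.equivFin.symm b).2 _ (Mt.equivFin.symm b').2
      (fun h => hne (Mt.equivFin.symm.injective (Subtype.ext h))) i ?_
    apply Fin.ext
    have : ((v (Mt.equivFin.symm b) i : ℕ) : ℤ) = ((v (Mt.equivFin.symm b') i : ℕ) : ℤ) := by
      rw [hv, hv]
      refine Int.emod_eq_emod_iff_emod_sub_eq_zero.2 (Int.emod_eq_zero_of_dvd ?_)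
      simp only [md]; rw [hmZ]; exact h
    exact_mod_cast this

end Vale.Agent.P130
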