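import Vale.Agent.P130.Chirp
import Vale.Agent.P130.Label

namespace Vale.Agent.P130

open Finset
open scoped Real ComplexConjugate

lemma gauss (q : ℕ) (hq : 0 < q) (m : ℤ) (hm : IsCoprime (2 * m) q) :
    ∃ g : Fin q → ℂ, (∀ a, ‖g a‖ ^ 2 = 1 / q) ∧
      ∀ n : ℕ, ee (m * (n:ℝ) ^ 2 / q) = ∑ a, g a * ee ((a:ℕ) * (n:ℝ) / q) := by
  classical
  haveI : NeZero q := ⟨hq.ne'⟩
  let ψ : AddChar (ZMod q) ℂ := ZMod.stdAddChar
  have hψ : ∀ j : ℤ, ψ (j : ZMod q) = ee (j / q) := by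
    intro j
    simp only [ψ]; rw [ZMod.stdAddChar_coe, ee]; congr 1; push_cast; ring
  have hsum : ∀ b : ZMod q, ∑ x, ψ (x * b) = if b = 0 then (q:ℂ) else 0 := by
    intro b
    rw [AddChar.sum_mulShift b (ZMod.isPrimitive_stdAddChar q), ZMod.card]; simp
  have hconj : ∀ x, conj (ψ x) = ψ (-x) := by
    intro x
    obtain ⟨j, rfl⟩ := ZMod.intCast_surjective x
    rw [← Int.cast_neg, hψ, hψ, conj_ee]; congr 1; push_cast; ring
  have hu : IsUnit ((2 * m : ℤ) : ZMod q) := (ZMod.coe_int_isUnit_iff_isCoprime _ _).2 hm.symm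
  have hqC : (q:ℂ) ≠ 0 := by exact_mod_cast hq.ne'
  let G : ZMod q → ℂ := fun a => ∑ r, ψ (m * r ^ 2 - a * r)
  have hG : ∀ a, G a * conj (G a) = q := by
    intro a
    simp only [G, map_sum, hconj]
    rw [sum_mul_sum, sum_comm]
    have e : ∀ s : ZMod q, ∑ r, ψ (m * r ^ 2 - a * r) * ψ (-(m * s ^ 2 - a * s)) =
        ∑ h, ψ (m * h ^ 2 - a * h) * ψ (s * (((2 * m : ℤ) : ZMod q) * h)) := by
      intro s
      rw [← Equiv.sum_comp (Equiv.addLeft s)]
      refine sum_congr rfl fun h _ => ?_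
      rw [← AddChar.map_add_eq_mul, ← AddChar.map_add_eq_mul]
      congr 1; simp only [Equiv.coe_addLeft]; push_cast; ring
    simp only [e]
    rw [sum_comm]
    simp only [← mul_sum, hsum]
    rw [sum_eq_single 0]
    · simp
    · intro h _ hh
      rw [if_neg (fun h' => hh (hu.mul_right_eq_zero.1 h')), mul_zero]
    · simp
  have hbij : Function.Bijective (fun a : Fin q => ((a:ℕ) : ZMod q)) := by
    rw [Fintype.bijective_iff_injective_and_card]
    refine ⟨fun a b h => ?_, by simp⟩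
    have := congrArg ZMod.val h
    simp only [ZMod.val_natCast, Nat.mod_eq_of_lt a.2, Nat.mod_eq_of_lt b.2] at this
    exact Fin.ext this
  refine ⟨fun a => (q:ℂ)⁻¹ * G ((a:ℕ) : ZMod q), fun a => ?_, fun n => ?_⟩
  · have h1 := hG ((a:ℕ) : ZMod q)
    rw [← sq_norm_eq] at h1
    have h2 : ‖G ((a:ℕ) : ZMod q)‖ ^ 2 = q := by exact_mod_cast h1
    have : (q:ℝ) ≠ 0 := by exact_mod_cast hq.ne'
    rw [norm_mul, mul_pow, h2, norm_inv, Complex.norm_natCast]; field_simp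
  · have e1 : ∀ a : Fin q, ee ((a:ℕ) * (n:ℝ) / q) = ψ (((a:ℕ) : ZMod q) * n) := by
      intro a
      have := hψ ((a:ℕ) * n)
      push_cast at this; exact this.symm
    have e2 : ee (m * (n:ℝ) ^ 2 / q) = ψ (m * (n : ZMod q) ^ 2) := by
      have := hψ (m * n ^ 2)
      push_cast at this; exact this.symm
    simp only [e1, e2]
    rw [Fintype.sum_bijective _ hbij _ (fun a => (q:ℂ)⁻¹ * G a * ψ (a * n)) (fun _ => rfl)]
    simp only [G, mul_assoc, sum_mul, ← mul_sum]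
    rw [sum_comm]
    have e3 : ∀ r : ZMod q, ∑ a, ψ (m * r ^ 2 - a * r) * ψ (a * n) =
        ψ (m * r ^ 2) * ∑ a, ψ (a * (n - r)) := by
      intro r
      rw [mul_sum]
      refine sum_congr rfl fun a _ => ?_
      rw [← AddChar.map_add_eq_mul, ← AddChar.map_add_eq_mul]; congr 1; ring
    simp only [e3, hsum]
    rw [sum_eq_single (n : ZMod q)]
    · simp; field_simp
    · intro r _ hr; rw [if_neg (fun h => hr (sub_eq_zero.1 h).symm), mul_zero]
    · simp

lemma exists_generic {C : Type} [Fintype C] [DecidableEq C] (S : Finset (C → ℤ))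
    (hS : ∀ μ ∈ S, μ ≠ 0) : ∃ ζ : C → ℤ, ∀ μ ∈ S, μ ⬝ᵥ ζ ≠ 0 := by
  classical
  induction S using Finset.induction_on with
  | empty => exact ⟨0, by simp⟩
  | insert μ S hμ ih =>
    obtain ⟨ζ, hζ⟩ := ih (fun ν hν => hS ν (mem_insert_of_mem hν))
    by_cases h0 : μ ⬝ᵥ ζ = 0
    swap
    · exact ⟨ζ, fun ν hν => by
        rcases mem_insert.1 hν with rfl | h
        · exact h0
        · exact hζ ν h⟩
    obtain ⟨c, hc⟩ := Function.ne_iff.1 (hS μ (mem_insert_self _ _))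
    refine ⟨(1 + ∑ ν ∈ S, |ν c|) • ζ + Pi.single c 1, fun ν hν => ?_⟩
    rw [dotProduct_add, dotProduct_smul, dotProduct_single, smul_eq_mul, mul_one]
    rcases mem_insert.1 hν with rfl | h
    · rw [h0]; simpa using hc
    · have h1 := single_le_sum (f := fun ν : C → ℤ => |ν c|) (fun _ _ => abs_nonneg _) h
      have h2 := Int.one_le_abs (hζ ν h)
      intro h3
      have h4 : |ν c| = (1 + ∑ ν ∈ S, |ν c|) * |ν ⬝ᵥ ζ| := by
        have : ν c = -((1 + ∑ ν ∈ S, |ν c|) * (ν ⬝ᵥ ζ)) := by linarith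
        rw [this, abs_neg, abs_mul, abs_of_nonneg (by have := abs_nonneg (ν c); linarith)]
      nlinarith [abs_nonneg (ν c)]

lemma exists_moduli {ι : Type} [Fintype ι] [Nonempty ι] (t : ι → ℝ) (ht : ∀ i, 0 < t i)
    (G : Finset ℤ) (hG : ∀ g ∈ G, g ≠ 0) (η : ℝ) (hη : 0 < η) :
    ∃ (pi : ι → ℕ) (c : ℝ), 0 < c ∧ (∀ i, 0 < pi i) ∧ (∀ i j, i ≠ j → IsCoprime (pi i : ℤ) (pi j)) ∧
      (∀ i, ∀ g ∈ G, IsCoprime (pi i : ℤ) g) ∧ (∀ i, c * t i ≤ pi i) ∧
      (∀ i, pi i ≤ (1 + η) * (c * t i)) := by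
  classical
  set n0 := Fintype.card ι with hn0
  have hn : 0 < n0 := Fintype.card_pos
  let idx : ι → ℕ := fun i => Fintype.equivFin ι i
  have hidx : ∀ i, idx i < n0 := fun i => (Fintype.equivFin ι i).2
  set X := ∑ i, 3 / (η * t i) with hX
  have hXi : ∀ i, 3 / (η * t i) ≤ X := fun i =>
    single_le_sum (f := fun i => 3 / (η * t i)) (fun i _ => by have := ht i; positivity) (mem_univ i)
  have hX0 : 0 < X := by
    obtain ⟨i⟩ := ‹Nonempty ι›
    exact lt_of_lt_of_le (by have := ht i; positivity) (hXi i)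
  let a : ι → ℕ := fun i => n0 * ⌈X * t i⌉₊ + idx i
  have hane : ∀ i j, i ≠ j → (a i : ℤ) - a j ≠ 0 := by
    intro i j hij h
    have h1 : a i = a j := by exact_mod_cast sub_eq_zero.1 h
    have h2 := congrArg (· % n0) h1
    simp only [a, Nat.mul_add_mod, Nat.mod_eq_of_lt (hidx _)] at h2
    exact hij ((Fintype.equivFin ι).injective (Fin.ext h2))
  let Q : ℕ := ((∏ g ∈ G, g) * ∏ x ∈ (univ : Finset ι).offDiag, ((a x.1 : ℤ) - a x.2)).natAbs
  have hQ : 0 < Q := Int.natAbs_pos.2 (mul_ne_zero (prod_ne_zero_iff.2 hG)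
    (prod_ne_zero_iff.2 fun x hx => hane _ _ (mem_offDiag.1 hx).2.2))
  have hcop : ∀ i (g : ℤ), g ∣ Q → IsCoprime ((1 + Q * a i : ℕ) : ℤ) g := by
    rintro i g ⟨k, hk⟩
    exact ⟨1, -(k * a i), by push_cast; rw [hk]; ring⟩
  have hQR : (1:ℝ) ≤ Q := by exact_mod_cast hQ
  have hnR : (1:ℝ) ≤ n0 := by exact_mod_cast hn
  refine ⟨fun i => 1 + Q * a i, Q * n0 * X, by positivity, fun i => by positivity,
    fun i j hij => ?_, fun i g hg => ?_, fun i => ?_, fun i => ?_⟩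
  · have h1 : ((a i : ℤ) - a j) ∣ Q := by
      rw [Int.dvd_natAbs]
      exact (dvd_prod_of_mem (fun x : ι × ι => ((a x.1 : ℤ) - a x.2))
        (a := (i, j)) (mem_offDiag.2 ⟨mem_univ _, mem_univ _, hij⟩)).mul_left _
    obtain ⟨u, v, huv⟩ := hcop i _ h1
    exact ⟨u - v * a j, v * a i, by push_cast at huv ⊢; linear_combination huv⟩
  · refine hcop i g ?_
    rw [Int.dvd_natAbs]
    exact (dvd_prod_of_mem (fun g => g) hg).mul_right _
  · have := Nat.le_ceil (X * t i)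
    simp only [a]; push_cast
    have h0 : (0:ℝ) ≤ idx i := by positivity
    nlinarith [mul_le_mul_of_nonneg_left this (by positivity : (0:ℝ) ≤ Q * n0),
      mul_nonneg (by linarith : (0:ℝ) ≤ Q) h0]
  · have h1 := (Nat.ceil_lt_add_one (by have := ht i; positivity : 0 ≤ X * t i)).le
    have h2 : (idx i : ℝ) ≤ n0 := by exact_mod_cast (hidx i).le
    have h3 : 3 ≤ η * (X * t i) := by
      have := hXi i
      rw [div_le_iff₀ (by have := ht i; positivity)] at this; linarith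
    simp only [a]; push_cast
    have h4 : (1:ℝ) ≤ Q * n0 := by nlinarith
    nlinarith [mul_le_mul_of_nonneg_left h1 (by positivity : (0:ℝ) ≤ Q * n0),
      mul_le_mul_of_nonneg_left h2 (by positivity : (0:ℝ) ≤ Q),
      mul_le_mul_of_nonneg_left h3 (by positivity : (0:ℝ) ≤ Q * n0)]

end Vale.Agent.P130
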