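import Vale.Agent.P130.Rank

namespace Vale.Agent.P130

open Finset MeasureTheory Filter Topology
open scoped Real ComplexConjugate

/-- the shift as a measurable automorphism -/
def shE : XX ≃ᵐ XX where
  toFun := sh 1
  invFun := sh (-1)
  left_inv x := by simp [sh_sh, sh_zero]
  right_inv x := by simp [sh_sh, sh_zero]
  measurable_toFun := (continuous_sh 1).measurable
  measurable_invFun := (continuous_sh (-1)).measurable

lemma shE_zpow (n : ℤ) (x : XX) : ((shE.toEquiv : Equiv.Perm XX) ^ n) x = sh n x := by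
  induction n using Int.induction_on generalizing x with
  | zero => simp [sh_zero]
  | succ n ih => rw [zpow_add_one, Equiv.Perm.mul_apply, ih]; exact sh_sh _ _ _
  | pred n ih => rw [zpow_sub_one, Equiv.Perm.mul_apply, ih]; exact sh_sh _ _ _

lemma inv_all {μ : Measure XX} (h : MeasurePreserving (sh 1) μ μ) (m : ℤ) :
    MeasurePreserving (sh m) μ μ := by
  have h' : MeasurePreserving (sh (-1)) μ μ := MeasurePreserving.symm shE h
  induction m using Int.induction_on with
  | zero => rw [show sh 0 = id from funext sh_zero]; exact MeasurePreserving.id μ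
  | succ n ih => rw [show sh (n + 1) = sh n ∘ sh 1 from funext fun x => (sh_sh _ _ _).symm]
                 exact ih.comp h
  | pred n ih => rw [show sh (-n - 1) = sh (-n) ∘ sh (-1) from funext fun x => (sh_sh _ _ _).symm]
                 exact ih.comp h'

lemma int_sh {μ : Measure XX} (h : MeasurePreserving (sh 1) μ μ) (m : ℤ) {f : XX → ℝ}
    (hf : Continuous f) : ∫ x, f (sh m x) ∂μ = ∫ x, f x ∂μ := by
  rw [← integral_map (continuous_sh m).measurable.aemeasurable hf.aestronglyMeasurable,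
    (inv_all h m).map_eq]

lemma vv_nonneg (n : ℕ) (k : ℤ) (x : XX) : 0 ≤ vv n k x := by
  rcases vv_01 n k x with h | h <;> simp [h]

lemma vv_le_one (n : ℕ) (k : ℤ) (x : XX) : vv n k x ≤ 1 := by
  rcases vv_01 n k x with h | h <;> simp [h]

lemma meas_W (N : ℕ) (s : Finset ℤ) : MeasurableSet {x : XX | ∃ k ∈ s, x (N, k) = true} := by
  have : {x : XX | ∃ k ∈ s, x (N, k) = true} = ⋃ k ∈ s, (fun x : XX => x (N, k)) ⁻¹' {true} := by
    ext x; simp
  rw [this]
  exact s.measurableSet_biUnion fun k _ => measurable_pi_apply (N, k) (measurableSet_singleton _)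

namespace RK
variable (r : RK)

/-- positions of the tower `n` in the tower `n + k` -/
def D (n : ℕ) : ℕ → Finset ℕ
  | 0 => {0}
  | k + 1 => (range (r.J (n + k)) ×ˢ D n k).image fun p => r.pos (n + k) p.1 + p.2

lemma D_lt {n k d : ℕ} (h : d ∈ r.D n k) : d < r.h (n + k) := by
  induction k generalizing d with
  | zero => rw [mem_singleton.1 h]; exact r.hpos n
  | succ k ih =>
    obtain ⟨p, hp, rfl⟩ := mem_image.1 h
    have h1 := ih (mem_product.1 hp).2
    have h2 := r.pos_le (mem_range.1 (mem_product.1 hp).1)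
    rw [← add_assoc]; omega

lemma sum_D {E : Type*} [AddCommMonoid E] (n k : ℕ) (f : ℕ → E) : ∑ d ∈ r.D n (k + 1), f d =
    ∑ j ∈ range (r.J (n + k)), ∑ d ∈ r.D n k, f (r.pos (n + k) j + d) := by
  rw [D, sum_image, sum_product]
  rintro ⟨j, d⟩ h1 ⟨j', d'⟩ h2 h
  have a1 := r.D_lt (mem_product.1 h1).2
  have a2 := r.D_lt (mem_product.1 h2).2
  simp only at h a1 a2
  rcases lt_trichotomy j j' with h' | h' | h'
  · have := r.pos_lt (n := n + k) h'; omega
  · subst h'; congr 1; omega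
  · have := r.pos_lt (n := n + k) h'; omega

lemma vv_D {x : XX} (hx : ∀ n, r.A x n ∧ r.B x n) (n k : ℕ) (l : ℤ) :
    vv n l x = ∑ d ∈ r.D n k, vv (n + k) (l - d) x := by
  induction k with
  | zero => simp [D]
  | succ k ih =>
    rw [ih, sum_D, sum_comm]
    refine sum_congr rfl fun d _ => ?_
    rw [(hx _).1]
    refine sum_congr rfl fun j _ => ?_
    congr 1; push_cast; ring

lemma vv_det {x : XX} {N : ℕ} (hx : r.B x N) {k k' : ℤ} (h : x (N, k) = true)
    (hk : |k - k'| < r.h N) : vv N k' x = if k = k' then 1 else 0 := by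
  have h1 : vv N k x = 1 := by simp [vv, h]
  split_ifs with h2
  · rw [← h2, h1]
  · have := hx k k' h2 hk; rwa [h1, one_mul] at this

lemma sum_vv {x : XX} {N : ℕ} (hx : r.B x N) (s : Finset ℤ)
    (hs : ∀ k ∈ s, ∀ k' ∈ s, |k - k'| < r.h N) :
    ∑ k ∈ s, vv N k x = {x : XX | ∃ k ∈ s, x (N, k) = true}.indicator 1 x := by
  by_cases h : ∃ k ∈ s, x (N, k) = true
  · rw [Set.indicator_of_mem (s := {x : XX | ∃ k ∈ s, x (N, k) = true}) h]
    obtain ⟨k, hk, h⟩ := h
    rw [sum_congr rfl fun k' hk' => r.vv_det hx h (hs k hk k' hk')]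
    simp [hk]
  · rw [Set.indicator_of_notMem (s := {x : XX | ∃ k ∈ s, x (N, k) = true}) h]
    refine sum_eq_zero fun k hk => ?_
    simp only [vv]; rw [if_neg fun h' => h ⟨k, hk, h'⟩]

/-- the properties of the limit measure -/
structure Good (μ : Measure XX) : Prop where
  inv : MeasurePreserving (sh 1) μ μ
  ae : ∀ᵐ x ∂μ, ∀ n, r.A x n ∧ r.B x n
  low : ∀ n, 1 - (1 / 2) ^ n ≤ r.h (n + 1) * ∫ x, vv (n + 1) 0 x ∂μ

variable {r} {μ : Measure XX} [IsProbabilityMeasure μ]

/-- measure of the base of the tower `n` -/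
noncomputable def mm (μ : Measure XX) (n : ℕ) : ℝ := ∫ x, vv n 0 x ∂μ

omit [IsProbabilityMeasure μ] in
lemma Good.int_vv (g : r.Good μ) (n : ℕ) (k : ℤ) : ∫ x, vv n k x ∂μ = mm μ n := by
  rw [mm, ← int_sh g.inv k (continuous_vv n 0)]; simp [vv_sh]

lemma Good.mm_succ (g : r.Good μ) (n : ℕ) : mm μ n = r.J n * mm μ (n + 1) := by
  rw [mm, integral_congr_ae (g.ae.mono fun x hx => (hx n).1 0),
    integral_finsetSum _ fun j _ => cont_intX (continuous_vv _ _)]
  simp [g.int_vv]

lemma Good.mm_D (g : r.Good μ) (n k : ℕ) : mm μ n = (r.D n k).card * mm μ (n + k) := by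
  rw [mm, integral_congr_ae (g.ae.mono fun x hx => r.vv_D hx n k 0),
    integral_finsetSum _ fun j _ => cont_intX (continuous_vv _ _)]
  simp [g.int_vv]

omit [IsProbabilityMeasure μ] in
lemma mm_nonneg (n : ℕ) : 0 ≤ mm μ n := integral_nonneg fun x => vv_nonneg _ _ x

lemma Good.mm_pos (g : r.Good μ) (n : ℕ) : 0 < mm μ n := by
  refine lt_of_le_of_ne (mm_nonneg n) fun h => ?_
  have h1 := g.mm_succ n
  have h2 := g.mm_succ (n + 1)
  have h3 := g.low (n + 1)
  have h4 : (1 / 2 : ℝ) ^ (n + 1) < 1 := pow_lt_one₀ (by norm_num) (by norm_num) (by omega)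
  have a1 : (r.J n : ℝ) ≠ 0 := by have := r.hJ n; positivity
  have a2 : (r.J (n + 1) : ℝ) ≠ 0 := by have := r.hJ (n + 1); positivity
  rw [← h, eq_comm, mul_eq_zero_iff_left a1] at h1
  rw [h1, eq_comm, mul_eq_zero_iff_left a2] at h2
  rw [← mm, h2] at h3
  linarith

lemma Good.meas (g : r.Good μ) (N : ℕ) (s : Finset ℤ) (hs : ∀ k ∈ s, ∀ k' ∈ s, |k - k'| < r.h N) :
    μ.real {x : XX | ∃ k ∈ s, x (N, k) = true} = s.card * mm μ N := by
  rw [← integral_indicator_one (meas_W N s),
    ← integral_congr_ae (g.ae.mono fun x hx => r.sum_vv (hx N).2 s hs),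
    integral_finsetSum _ fun j _ => cont_intX (continuous_vv _ _)]
  simp [g.int_vv]

lemma Good.mm_lim (g : r.Good μ) : Tendsto (mm μ) atTop (𝓝 0) := by
  refine squeeze_zero mm_nonneg (fun N => ?_) tendsto_one_div_add_atTop_nhds_zero_nat
  have h1 := g.meas N (Ico 0 (r.h N)) (fun k hk k' hk' => by
    rw [mem_Ico] at hk hk'; rw [abs_lt]; omega)
  have h2 : μ.real {x : XX | ∃ k ∈ Ico (0:ℤ) (r.h N), x (N, k) = true} ≤ 1 := measureReal_le_one
  rw [h1] at h2
  simp only [Int.card_Ico, sub_zero, Int.toNat_natCast] at h2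
  rw [le_div_iff₀ (by positivity)]
  have h3 : (N:ℝ) + 1 ≤ r.h N := by exact_mod_cast r.hge N
  nlinarith [mm_nonneg (μ := μ) N]

lemma Good.rest (g : r.Good μ) (R : ℕ) : Tendsto (fun N => μ.real
    {x : XX | ∃ k ∈ Ioc ((R:ℤ) - r.h N) (-R), x (N, k) = true}ᶜ) atTop (𝓝 0) := by
  rw [← tendsto_add_atTop_iff_nat 1]
  have h0 : Tendsto (fun N => (1 / 2 : ℝ) ^ N + 2 * R * mm μ (N + 1)) atTop (𝓝 0) := by
    have := (tendsto_pow_atTop_nhds_zero_of_lt_one (r := (1 / 2 : ℝ)) (by norm_num) (by norm_num)).add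
      (((tendsto_add_atTop_iff_nat 1).2 g.mm_lim).const_mul (2 * (R:ℝ)))
    simpa using this
  refine squeeze_zero (fun _ => measureReal_nonneg) (fun N => ?_) h0
  rw [probReal_compl_eq_one_sub (meas_W _ _), g.meas _ _ (fun k hk k' hk' => by
    rw [mem_Ioc] at hk hk'; rw [abs_lt]; omega)]
  have h1 := g.low N
  have h2 : (r.h (N + 1) : ℝ) - 2 * R ≤ (Ioc ((R:ℤ) - r.h (N + 1)) (-R)).card := by
    have : (r.h (N + 1) : ℤ) - 2 * R ≤ (Ioc ((R:ℤ) - r.h (N + 1)) (-R)).card := by
      rw [Int.card_Ioc]; omega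
    exact_mod_cast this
  have h3 := mul_le_mul_of_nonneg_right h2 (mm_nonneg (μ := μ) (N + 1))
  rw [← mm] at h1
  linarith

lemma Good.noAtoms (g : r.Good μ) (x : XX) : μ {x} = 0 := by
  rw [← measureReal_eq_zero_iff]
  refine le_antisymm (ge_of_tendsto' (by simpa using (g.rest 0).add g.mm_lim) fun N => ?_)
    measureReal_nonneg
  by_cases h : ∃ k ∈ Ioc (-(r.h N : ℤ)) 0, x (N, k) = true
  · obtain ⟨k, -, h⟩ := h
    have h1 := g.meas N {k} (by simp [r.hpos])
    refine le_add_of_nonneg_of_le measureReal_nonneg ?_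
    rw [card_singleton, Nat.cast_one, one_mul] at h1
    rw [← h1]
    exact measureReal_mono (by simpa using h)
  · refine le_add_of_le_of_nonneg (measureReal_mono ?_) (mm_nonneg N)
    simpa using h

theorem Good.gen (g : r.Good μ) {ψ : XX → ℂ} (hψ : Integrable ψ μ)
    (h : ∀ n k, ∫ x, (vv n k x : ℂ) * ψ x ∂μ = 0) : ψ =ᵐ[μ] 0 := by
  classical
  let P : Set (Set XX) := {E | MeasurableSet E ∧ ∃ n0 R : ℕ, ∀ N ≥ n0, ∀ k ∈ Ioc ((R:ℤ) - r.h N) (-R),
    ∀ x y : XX, (∀ n, r.A x n ∧ r.B x n) → (∀ n, r.A y n ∧ r.B y n) → x (N, k) = true →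
      y (N, k) = true → (x ∈ E ↔ y ∈ E)}
  have hP : IsPiSystem P := by
    rintro E ⟨hE, n1, R1, h1⟩ F ⟨hF, n2, R2, h2⟩ -
    refine ⟨hE.inter hF, max n1 n2, max R1 R2, fun N hN k hk x y hx hy a b => ?_⟩
    rw [mem_Ioc] at hk
    exact and_congr (h1 N (by omega) k (mem_Ioc.2 (by omega)) x y hx hy a b)
      (h2 N (by omega) k (mem_Ioc.2 (by omega)) x y hx hy a b)
  have hgen : (inferInstance : MeasurableSpace XX) = MeasurableSpace.generateFrom P := by
    refine le_antisymm (iSup_le fun p => Measurable.comap_le (measurable_to_bool ?_))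
      (MeasurableSpace.generateFrom_le fun E hE => hE.1)
    refine MeasurableSpace.measurableSet_generateFrom ⟨measurable_pi_apply p
      (measurableSet_singleton _), p.1, p.2.natAbs, fun N hN k hk x y hx hy a b => ?_⟩
    obtain ⟨m, rfl⟩ := Nat.exists_eq_add_of_le hN
    have : vv p.1 p.2 x = vv p.1 p.2 y := by
      rw [r.vv_D hx p.1 m, r.vv_D hy p.1 m]
      refine sum_congr rfl fun d hd => ?_
      have h1 := r.D_lt hd
      rw [mem_Ioc] at hk
      have h2 : |k - (p.2 - d)| < r.h (p.1 + m) := by rw [abs_lt]; omega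
      rw [r.vv_det (hx _).2 a h2, r.vv_det (hy _).2 b h2]
    simp only [vv] at this
    simp only [Set.mem_preimage, Set.mem_singleton_iff]
    split_ifs at this with h1 h2 h2 <;> simp_all
  have hbasic : ∀ E ∈ P, ∫ x in E, ψ x ∂μ = 0 := by
    rintro E ⟨hE, n0, R, hR⟩
    let G : ℕ → Set XX := fun N => {x : XX | ∃ k ∈ Ioc ((R:ℤ) - r.h N) (-R), x (N, k) = true}
    have h1 : Tendsto (fun N => ∫ x in E \ G N, ψ x ∂μ) atTop (𝓝 0) := by
      refine hψ.tendsto_setIntegral_nhds_zero ?_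
      have := ENNReal.tendsto_ofReal (g.rest R)
      simp only [ofReal_measureReal, ne_eq, measure_ne_top, not_false_eq_true,
        ENNReal.ofReal_zero] at this
      exact tendsto_of_tendsto_of_tendsto_of_le_of_le tendsto_const_nhds this (fun _ => zero_le)
        fun N => measure_mono fun x hx => hx.2
    refine tendsto_nhds_unique (tendsto_const_nhds.congr' ?_) h1
    filter_upwards [eventually_ge_atTop n0] with N hN
    rw [← integral_inter_add_sdiff (meas_W N _) hψ.integrableOn, add_eq_right]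
    let s := (Ioc ((R:ℤ) - r.h N) (-R)).filter fun k => ∃ y : XX, (∀ n, r.A y n ∧ r.B y n) ∧
      y (N, k) = true ∧ y ∈ E
    rw [← integral_indicator (hE.inter (meas_W N _)), integral_congr_ae
      (g := fun x => ∑ k ∈ s, (vv N k x : ℂ) * ψ x), integral_finsetSum]
    · simp [h]
    · intro k _
      exact hψ.bdd_mul (c := 1) (Complex.continuous_ofReal.comp
        (continuous_vv _ _)).aestronglyMeasurable (ae_of_all _ fun x => by
          rcases vv_01 N k x with h | h <;> simp [h])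
    · filter_upwards [g.ae] with x hx
      rw [← sum_mul, ← Complex.ofReal_sum, r.sum_vv (hx N).2 s (fun k hk k' hk' => by
        have a := mem_Ioc.1 (mem_filter.1 hk).1
        have b := mem_Ioc.1 (mem_filter.1 hk').1
        rw [abs_lt]; omega)]
      by_cases hxE : x ∈ E ∩ {x : XX | ∃ k ∈ Ioc ((R:ℤ) - r.h N) (-R), x (N, k) = true}
      · rw [Set.indicator_of_mem hxE, Set.indicator_of_mem]
        · simp
        · obtain ⟨h1, k, hk, h2⟩ := hxE
          exact ⟨k, mem_filter.2 ⟨hk, x, hx, h2, h1⟩, h2⟩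
      · rw [Set.indicator_of_notMem hxE, Set.indicator_of_notMem]
        · simp
        · rintro ⟨k, hk, h2⟩
          obtain ⟨hk1, y, hy, h3, h4⟩ := mem_filter.1 hk
          exact hxE ⟨(hR N hN k hk1 x y hx hy h2 h3).2 h4, k, hk1, h2⟩
  refine hψ.ae_eq_zero_of_forall_setIntegral_eq_zero fun s hs _ => ?_
  induction s, hs using MeasurableSpace.induction_on_inter hgen hP with
  | empty => simp
  | basic t ht => exact hbasic t ht
  | compl t ht ih =>
    have I : ∫ x, ψ x ∂μ = 0 := by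
      rw [← setIntegral_univ]; exact hbasic _ ⟨MeasurableSet.univ, 0, 0, by simp⟩
    simpa [ih (measure_lt_top _ _), I] using integral_add_compl ht hψ
  | iUnion f hd hm ih => simp [integral_iUnion hm hd hψ.integrableOn, fun i => ih i (measure_lt_top _ _)]

end RK

end Vale.Agent.P130
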