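import Vale.Agent.P130.Dens

namespace Vale.Agent.P130

open Finset MeasureTheory Filter Topology Submodule
open scoped Real ComplexConjugate InnerProductSpace

variable {H K I : Type*} [NormedAddCommGroup H] [InnerProductSpace ℂ H]
  [NormedAddCommGroup K] [InnerProductSpace ℂ K]

lemma mem_orth {a : I → H} {δ : H} (h : ∀ i, ⟪a i, δ⟫_ℂ = 0) : δ ∈ (span ℂ (Set.range a))ᗮ := by
  intro u hu
  induction hu using span_induction with
  | mem x hx => obtain ⟨i, rfl⟩ := hx; exact h i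
  | zero => simp
  | add x y _ _ hx hy => rw [inner_add_left, hx, hy, add_zero]
  | smul c x _ hx => rw [inner_smul_left, hx, mul_zero]

lemma map_closure (b : I → K) (L : K →ₗᵢ[ℂ] H) (S : Submodule ℂ H)
    (h : ∀ i, L (b i) ∈ S.topologicalClosure) {x : K}
    (hx : x ∈ (span ℂ (Set.range b)).topologicalClosure) : L x ∈ S.topologicalClosure :=
  topologicalClosure_minimal (t := S.topologicalClosure.comap L.toLinearMap) _
    (span_le.2 (by rintro _ ⟨i, rfl⟩; exact h i))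
    (S.isClosed_topologicalClosure.preimage L.continuous) hx

lemma exists_isometry [CompleteSpace H] (a : I → H) (b : I → K)
    (hG : ∀ i j, ⟪a i, a j⟫_ℂ = ⟪b i, b j⟫_ℂ)
    (hd : (span ℂ (Set.range b)).topologicalClosure = ⊤) :
    ∃ W : K →ₗᵢ[ℂ] H, ∀ i, W (b i) = a i := by
  let f := Finsupp.linearCombination ℂ a
  let e := Finsupp.linearCombination ℂ b
  have h1 : ∀ x, ‖f x‖ = ‖e x‖ := by
    intro x
    rw [@norm_eq_sqrt_re_inner ℂ, @norm_eq_sqrt_re_inner ℂ]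
    simp only [f, e, Finsupp.linearCombination_apply, Finsupp.sum, sum_inner, inner_sum,
      inner_smul_left, inner_smul_right, hG]
  have h2 : DenseRange e := by
    rw [← Submodule.dense_iff_topologicalClosure_eq_top, ← Finsupp.range_linearCombination] at hd
    exact hd
  have h3 := LinearMap.extendOfNorm_eq h2 ⟨1, fun x => by rw [h1, one_mul]⟩
  refine ⟨⟨(f.extendOfNorm e).toLinearMap, fun x => ?_⟩, fun i => ?_⟩
  · refine h2.induction_on x (isClosed_eq (by fun_prop) continuous_norm) fun y => ?_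
    exact (congrArg norm (h3 y)).trans (h1 y)
  · simpa [e, f] using h3 (Finsupp.single i 1)

theorem hilb [CompleteSpace H] (a : ℕ × ℤ → H) (b : ℕ × ℤ → K) (φ : ℤ → K)
    (V : ℤ → H →ₗᵢ[ℂ] H) (hV : ∀ m n k, V m (a (n, k)) = a (n, k + m))
    (hG : ∀ i j, ⟪a i, a j⟫_ℂ = ⟪b i, b j⟫_ℂ)
    (hd : (span ℂ (Set.range b)).topologicalClosure = ⊤) (hφ : Orthonormal ℂ φ)
    (hφd : (span ℂ (Set.range φ)).topologicalClosure = ⊤)
    (hφb : ∀ m n k, ⟪b (n, k + m), φ m⟫_ℂ = ⟪b (n, k), φ 0⟫_ℂ) :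
    ∃ e : ℤ → H, (∀ m, e m = V m (e 0)) ∧ Orthonormal ℂ e ∧
      (span ℂ (Set.range e)).topologicalClosure = (span ℂ (Set.range a)).topologicalClosure := by
  obtain ⟨W, hW⟩ := exists_isometry a b hG hd
  have ha : ∀ i, a i ∈ (span ℂ (Set.range a)).topologicalClosure := fun i =>
    le_topologicalClosure _ (subset_span ⟨i, rfl⟩)
  have h1 : ∀ x, W x ∈ (span ℂ (Set.range a)).topologicalClosure := fun x =>
    map_closure b W _ (fun i => hW i ▸ ha i) (hd ▸ mem_top)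
  refine ⟨W ∘ φ, fun m => ?_, hφ.comp_linearIsometry W, le_antisymm ?_ ?_⟩
  · have h2 : W (φ m) - V m (W (φ 0)) ∈ (span ℂ (Set.range a)).topologicalClosure :=
      sub_mem (h1 _) (map_closure a (V m) _ (fun i => hV m i.1 i.2 ▸ ha _) (h1 _))
    have h3 : W (φ m) - V m (W (φ 0)) ∈ (span ℂ (Set.range a))ᗮ := mem_orth fun i => by
      obtain ⟨n, k⟩ := i
      obtain ⟨k, rfl⟩ : ∃ k', k = k' + m := ⟨k - m, by ring⟩
      rw [inner_sub_right, sub_eq_zero]
      conv_rhs => rw [← hV, LinearIsometry.inner_map_map]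
      rw [← hW, ← hW, LinearIsometry.inner_map_map, LinearIsometry.inner_map_map, hφb]
    rw [← orthogonal_orthogonal_eq_closure] at h2
    exact sub_eq_zero.1 (inner_self_eq_zero.1 (h2 _ h3))
  · exact topologicalClosure_minimal _ (span_le.2 (by rintro _ ⟨i, rfl⟩; exact h1 _))
      (isClosed_topologicalClosure _)
  · refine topologicalClosure_minimal _ (span_le.2 ?_) (isClosed_topologicalClosure _)
    rintro _ ⟨i, rfl⟩
    rw [← hW]
    exact map_closure φ W _ (fun m => le_topologicalClosure _ (subset_span (Set.mem_range_self (f := W ∘ φ) m)))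
      (hφd ▸ mem_top)

lemma inner_toLp {Ω : Type*} [MeasurableSpace Ω] {μ : Measure Ω} {f : Ω → ℂ} (hf : MemLp f 2 μ)
    (g : Lp ℂ 2 μ) : ⟪hf.toLp f, g⟫_ℂ = ∫ x, conj (f x) * g x ∂μ := by
  rw [L2.inner_def]
  refine integral_congr_ae ?_
  filter_upwards [hf.coeFn_toLp] with x hx
  rw [hx, RCLike.inner_apply, mul_comm]

lemma inner_toLp2 {Ω : Type*} [MeasurableSpace Ω] {μ : Measure Ω} {f g : Ω → ℂ} (hf : MemLp f 2 μ)
    (hg : MemLp g 2 μ) : ⟪hf.toLp f, hg.toLp g⟫_ℂ = ∫ x, conj (f x) * g x ∂μ := by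
  rw [inner_toLp]
  refine integral_congr_ae ?_
  filter_upwards [hg.coeFn_toLp] with x hx
  rw [hx]

lemma toLp_sum {Ω : Type*} [MeasurableSpace Ω] {μ : Measure Ω} {f : Ω → ℂ} (hf : MemLp f 2 μ)
    (s : Finset ℕ) {g : ℕ → Ω → ℂ} (hg : ∀ j, MemLp (g j) 2 μ)
    (h : ∀ᵐ x ∂μ, f x = ∑ j ∈ s, g j x) : hf.toLp f = ∑ j ∈ s, (hg j).toLp (g j) := by
  refine Lp.ext ?_
  filter_upwards [hf.coeFn_toLp, Lp.coeFn_fun_finsetSum s fun j => (hg j).toLp (g j), h,
    ae_all_iff.2 fun j => (hg j).coeFn_toLp] with x h1 h2 h3 h4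
  rw [h1, h2, h3]
  exact sum_congr rfl fun j _ => (h4 j).symm

lemma gram (a : ℕ × ℤ → H) (b : ℕ × ℤ → K) (J : ℕ → ℕ) (p : ℕ → ℕ → ℤ)
    (ha : ∀ n k, a (n, k) = ∑ j ∈ range (J n), a (n + 1, k - p n j))
    (hb : ∀ n k, b (n, k) = ∑ j ∈ range (J n), b (n + 1, k - p n j))
    (h : ∀ n k k', ⟪a (n, k), a (n, k')⟫_ℂ = ⟪b (n, k), b (n, k')⟫_ℂ) (i j : ℕ × ℤ) :
    ⟪a i, a j⟫_ℂ = ⟪b i, b j⟫_ℂ := by
  have h1 : ∀ m n k k', ⟪a (n, k), a (n + m, k')⟫_ℂ = ⟪b (n, k), b (n + m, k')⟫_ℂ := by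
    intro m
    induction m with
    | zero => exact h
    | succ m ih =>
      intro n k k'
      rw [ha n, hb n, sum_inner, sum_inner, show n + (m + 1) = n + 1 + m by ring]
      exact sum_congr rfl fun j _ => ih _ _ _
  obtain ⟨n, k⟩ := i
  obtain ⟨n', k'⟩ := j
  rcases le_total n n' with h2 | h2
  · obtain ⟨m, rfl⟩ := Nat.exists_eq_add_of_le h2
    exact h1 _ _ _ _
  · obtain ⟨m, rfl⟩ := Nat.exists_eq_add_of_le h2
    rw [← inner_conj_symm, h1, inner_conj_symm]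

end Vale.Agent.P130
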