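import Vale.Agent.P130.Walsh

namespace Vale.Agent.P130

open Finset MeasureTheory Filter Topology
open scoped Real ComplexConjugate

lemma prod_tri {R : Type*} [CommMonoid R] {U m : ℕ} (hm : m < U) (A : ℕ → R) (B : R) :
    ∏ i : Fin U, (if (i:ℕ) < m then A i else if (i:ℕ) = m then B else 1) = (∏ i ∈ range m, A i) * B := by
  rw [Fin.prod_univ_eq_prod_range (fun i => if i < m then A i else if i = m then B else 1)]
  obtain ⟨k, rfl⟩ := Nat.exists_eq_add_of_lt hm
  induction k with
  | zero =>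
    rw [add_zero, prod_range_succ, if_neg (lt_irrefl _), if_pos rfl]
    congr 1
    exact prod_congr rfl fun i hi => if_pos (mem_range.1 hi)
  | succ k ih =>
    rw [← add_assoc, prod_range_succ, ih (by omega), if_neg (by omega), if_neg (by omega), mul_one]

lemma first_success (y : ℕ → ℂ) (u U : ℕ) (h0 : ∀ i < u, y i = 0) (h1 : y u = 1) (z ι : ℂ) :
    ∑ m ∈ range U, z ^ m * ((∏ i ∈ range m, (1 - y i)) * (y m - ι)) =
      (if u < U then z ^ u else 0) - ι * ∑ m ∈ range (min (u + 1) U), z ^ m := by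
  induction U with
  | zero => simp
  | succ U ih =>
    rw [sum_range_succ, ih]
    rcases lt_trichotomy U u with h | h | h
    · rw [if_neg (by omega), if_neg (by omega), min_eq_right (by omega), min_eq_right (by omega),
        sum_range_succ, h0 U h, prod_eq_one fun i hi => by
          rw [h0 i ((mem_range.1 hi).trans h), sub_zero]]
      ring
    · subst h
      rw [if_neg (by omega), if_pos (by omega), min_eq_right (by omega), min_eq_right (by omega),
        sum_range_succ, h1, prod_eq_one fun i hi => by rw [h0 i (mem_range.1 hi), sub_zero]]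
      ring
    · rw [if_pos h, if_pos (by omega), min_eq_left (by omega), min_eq_left (by omega),
        prod_eq_zero (mem_range.2 h) (by rw [h1, sub_self])]
      ring

lemma int_ind_trig (J : ℕ) (p : ℕ → Prop) :
    ∫ x, ‖∑ j ∈ range J, ((ind (p j) : ℝ) : ℂ) * fourier (-(j:ℤ)) x‖ ^ 2 ∂mT =
      ∑ j ∈ range J, ind (p j) := by
  rw [parseval_trig _ (fun j : ℕ => -(j:ℤ)) (fun a _ b _ h => by simpa using h)]
  refine sum_congr rfl fun j _ => ?_
  by_cases h : p j
  · simp [ind_pos h]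
  · simp [ind_neg h]

set_option maxHeartbeats 1000000 in
theorem key (θ : ℝ) (hθ : 0 < θ) : ∃ U : ℕ, ∀ J0 : ℕ, ∃ J : ℕ, J0 ≤ J ∧ 0 < J ∧
    ∃ (u : ℕ → ℕ) (Φ : TT → ℝ), (∀ j, u j ≤ U) ∧ Integrable Φ mT ∧ ∫ x, Φ x ∂mT ≤ θ ∧
      ∀ z : ℂ, ‖z‖ = 1 → ∀ x, ‖1 - z‖ ^ 2 *
        |‖∑ j ∈ range J, z ^ u j * fourier (-(j:ℤ)) x‖ ^ 2 / J - 1| ≤ Φ x := by
  classical
  set ε := θ / 8 with hε
  have hε0 : 0 < ε := by positivity
  set δ := min (1 / 4) (θ / 2 / ((1 + ε) * 4 + 8 + (1 + 1 / ε) * 64)) with hδ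
  have hδ0 : 0 < δ := by positivity
  have hδ1 : δ ≤ 1 / 4 := min_le_left _ _
  have hδ2 : δ * ((1 + ε) * 4 + 8 + (1 + 1 / ε) * 64) ≤ θ / 2 := by
    rw [← le_div_iff₀ (by positivity)]; exact min_le_right _ _
  obtain ⟨L, hL⟩ := exists_nat_ge (1 / δ)
  rw [div_le_iff₀ hδ0] at hL
  obtain ⟨d, hd⟩ := exists_pow_lt_of_lt_one (show 0 < δ / (L + 1) by positivity)
    (show (1 / 2 : ℝ) < 1 by norm_num)
  set ι : ℝ := (1 / 2) ^ d with hι
  have hι0 : 0 < ι := by positivity
  rw [lt_div_iff₀ (by positivity)] at hd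
  have hL0 : (0:ℝ) ≤ L := by positivity
  have hι1 : ι ≤ δ := by nlinarith
  have hι2 : (2:ℝ) ^ d * ι = 1 := by rw [hι, ← mul_pow]; norm_num
  set U := L * 2 ^ d with hU
  have hUι : (U:ℝ) * ι = L := by rw [hU]; push_cast; rw [mul_assoc, hι2, mul_one]
  have hU1 : (1 - ι) ^ U ≤ δ := by
    have a1 := one_add_mul_le_pow (show (-2:ℝ) ≤ ι by linarith) U
    have a2 : (1 - ι) ^ U * (1 + ι) ^ U ≤ 1 := by
      rw [← mul_pow]; exact pow_le_one₀ (by nlinarith) (by nlinarith)
    have a3 : 0 ≤ (1 - ι) ^ U := pow_nonneg (by linarith) _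
    rw [hUι] at a1
    have a4 := mul_le_mul_of_nonneg_left a1 a3
    nlinarith
  have hU2 : ι ^ 2 * (U + 1) ≤ 2 * δ := by nlinarith
  refine ⟨U, fun J0 => ?_⟩
  let dl : (Fin d → Bool) → ℝ := fun T => if T = fun _ => false then 1 else 0
  let q : ℕ → ℕ → (Fin d → Bool) → ℝ := fun m m' T =>
    if m' < m then dl T - ι else if m' = m then ι - ι * dl T else dl T
  let p : Fin U → (Fin U → Fin d → Bool) → ℝ := fun m S => ∏ m' : Fin U, q m m' (S m')
  let κ : (Fin U → Fin d → Bool) → ℝ := fun S => ∑ m, p m S ^ 2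
  have hcκ : ∀ z : ℂ, ‖z‖ = 1 → ∀ S, ‖∑ m : Fin U, z ^ (m:ℕ) * (p m S : ℂ)‖ ^ 2 = κ S := by
    intro z hz S
    have hd : ∀ m m' : Fin U, m < m' → p m S = 0 ∨ p m' S = 0 := by
      intro m m' h
      have h' : (m:ℕ) < m' := h
      by_cases hS : S m' = fun _ => false
      · right
        refine prod_eq_zero (mem_univ m') ?_
        simp [q, dl, hS]
      · left
        refine prod_eq_zero (mem_univ m') ?_
        simp only [q, dl]
        rw [if_neg (by omega), if_neg (by omega), if_neg hS]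
    rw [norm_sq_sum_disj]
    · simp only [norm_mul, norm_pow, hz, one_pow, one_mul, Complex.norm_real, Real.norm_eq_abs, sq_abs, κ]
    · intro m m' hne
      rcases lt_or_gt_of_ne hne with h | h
      · rcases hd m m' h with h | h <;> simp [h]
      · rcases hd m' m h with h | h <;> simp [h]
  have hdl : ∀ g : (Fin d → Bool) → ℝ, ∑ T, dl T * g T = g fun _ => false := fun g => by
    simp [dl]
  have hσ : ∑ S, κ S = (1 - ι) * (1 - (1 - ι) ^ U) := by
    simp only [κ, p]
    rw [sum_comm]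
    have a1 : ∀ m : Fin U, ∑ S : Fin U → Fin d → Bool, (∏ m' : Fin U, q m m' (S m')) ^ 2 =
        (1 - ι) ^ (m:ℕ) * (ι * (1 - ι)) := by
      intro m
      simp only [← prod_pow]
      rw [← Fintype.piFinset_univ, ← prod_univ_sum (fun _ => univ)
        (fun (m' : Fin U) T => q m m' T ^ 2)]
      have := prod_tri m.2 (fun _ => 1 - ι) (ι * (1 - ι))
      rw [prod_const, card_range] at this
      rw [← this]
      refine prod_congr rfl fun m' _ => ?_
      have b0 : ∑ _T : Fin d → Bool, ι ^ 2 = ι := by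
        simp only [sum_const, card_univ, Fintype.card_fun, Fintype.card_bool, Fintype.card_fin,
          nsmul_eq_mul]
        push_cast; rw [sq, ← mul_assoc, hι2, one_mul]
      simp only [q]
      split_ifs
      · have : ∀ T, (dl T - ι) ^ 2 = dl T * (dl T - 2 * ι) + ι ^ 2 := fun T => by ring
        simp only [this, sum_add_distrib, hdl, b0]; simp only [dl, if_true]; ring
      · have : ∀ T, (ι - ι * dl T) ^ 2 = dl T * (ι ^ 2 * (dl T - 2)) + ι ^ 2 := fun T => by ring
        simp only [this, sum_add_distrib, hdl, b0]; simp only [dl, if_true]; ring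
      · simp only [sq, hdl]; simp only [dl, if_true]
    simp only [a1]
    rw [Fin.sum_univ_eq_sum_range (fun m => (1 - ι) ^ m * (ι * (1 - ι))), ← sum_mul,
      ← mul_neg_geom_sum (1 - ι) U]
    ring
  have hp0 : 0 ≤ (1 - ι) ^ U := pow_nonneg (by linarith) _
  have hσ1 : 1 - 2 * δ ≤ ∑ S, κ S := by rw [hσ]; nlinarith
  have hσ2 : ∑ S, κ S ≤ 1 := by rw [hσ]; nlinarith
  obtain ⟨J, hJ0, hJ, b, Φ, hb, hΦi, hΦ, hmain⟩ := walsh
    (fun (S : Fin U → Fin d → Bool) (i : Fin U × Fin d) => S i.1 i.2)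
    (fun S S' h => funext fun m => funext fun t => congrFun h (m, t)) κ
    (fun S => sum_nonneg fun _ _ => sq_nonneg _) (fun S hS => sum_eq_zero fun m _ => by
      rw [sq_eq_zero_iff]
      refine prod_eq_zero (mem_univ m) ?_
      have : S m = fun _ => false := funext fun t => hS (m, t)
      simp [q, dl, this]) (by linarith) δ hδ0 J0
  set σ := ∑ S, κ S
  have hJR : (0:ℝ) < J := by exact_mod_cast hJ
  let y : ℕ → ℕ → ℂ := fun j m => if h : m < U then ∏ t, ((1 + (b j (⟨m, h⟩, t) : ℂ)) / 2) else 1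
  have hy : ∀ j m, y j m = 0 ∨ y j m = 1 := by
    intro j m
    simp only [y]
    split_ifs with h
    · refine prod_induction _ (fun y : ℂ => y = 0 ∨ y = 1) ?_ (Or.inr rfl) fun t _ => ?_
      · rintro a b (rfl | rfl) (rfl | rfl) <;> simp
      · rcases hb j (⟨m, h⟩, t) with h | h <;> simp [h]
    · exact Or.inr rfl
  have hex : ∀ j, ∃ m, y j m = 1 := fun j => ⟨U, by simp [y]⟩
  let u : ℕ → ℕ := fun j => Nat.find (hex j)
  have huU : ∀ j, u j ≤ U := fun j => Nat.find_min' _ (by simp [y])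
  let v : ℕ → ℕ := fun j => min (u j + 1) U
  have hF : ∀ (z : ℂ) j, ∑ S : Fin U → Fin d → Bool, (∑ m : Fin U, z ^ (m:ℕ) * (p m S : ℂ)) *
      ∏ i : Fin U × Fin d, (if S i.1 i.2 then ((b j i : ℝ) : ℂ) else 1) =
      (if u j < U then z ^ u j else 0) - ι * ∑ m ∈ range (v j), z ^ m := by
    intro z j
    rw [← first_success (y j) (u j) U (fun i hi => (hy j i).resolve_right (Nat.find_min _ hi))
      (Nat.find_spec (hex j)), ← Fin.sum_univ_eq_sum_range
        (fun m => z ^ m * ((∏ i ∈ range m, (1 - y j i)) * (y j m - ι)))]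
    simp only [sum_mul]
    rw [sum_comm]
    refine sum_congr rfl fun m _ => ?_
    simp only [mul_assoc]
    rw [← mul_sum, ← prod_tri m.2]
    congr 1
    simp only [p, Fintype.prod_prod_type]
    push_cast
    simp only [← prod_mul_distrib]
    rw [← Fintype.piFinset_univ, ← prod_univ_sum (fun _ => univ)
      (fun (m' : Fin U) T => (q m m' T : ℂ) * ∏ t, if T t then ((b j (m', t) : ℝ) : ℂ) else 1)]
    refine prod_congr rfl fun m' _ => ?_
    have b0 : ∑ T : Fin d → Bool, (dl T : ℂ) * ∏ t, (if T t then ((b j (m', t) : ℝ) : ℂ) else 1) = 1 := by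
      simp [dl, apply_ite]
    have b1 : ∑ T : Fin d → Bool, (ι : ℂ) * ∏ t, (if T t then ((b j (m', t) : ℝ) : ℂ) else 1) =
        y j m' := by
      rw [← mul_sum, ← Fintype.piFinset_univ, ← prod_univ_sum (fun _ => univ)
        (fun (t : Fin d) (s : Bool) => if s then ((b j (m', t) : ℝ) : ℂ) else 1)]
      simp only [y, m'.2, dif_pos, Fintype.sum_bool, if_true, Bool.false_eq_true, if_false, hι,
        prod_div_distrib, prod_const, card_univ, Fintype.card_fin, add_comm]
      push_cast; rw [one_div, inv_pow, div_eq_mul_inv, mul_comm]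
    simp only [q]
    split_ifs with h1 h2
    · push_cast; simp only [sub_mul, sum_sub_distrib, b0, b1]
    · push_cast; simp only [sub_mul, sum_sub_distrib, mul_assoc, b1]
      rw [← mul_sum, b0, h2, mul_one]
    · exact b0
  have hm : ∀ z : ℂ, ‖z‖ = 1 → ∀ x, |‖∑ j ∈ range J, ((if u j < U then z ^ u j else 0) -
      ι * ∑ m ∈ range (v j), z ^ m) * fourier (-(j:ℤ)) x‖ ^ 2 / J - σ| ≤ Φ x := by
    intro z hz x
    have := hmain _ (hcκ z hz) x
    simpa only [hF] using this
  have hfail : ∑ j ∈ range J, ind (u j = U) ≤ J * (6 * δ) := by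
    have a1 : σ - ∫ x, ‖∑ j ∈ range J, ((if u j < U then (-1:ℂ) ^ u j else 0) -
        ι * ∑ m ∈ range (v j), (-1:ℂ) ^ m) * fourier (-(j:ℤ)) x‖ ^ 2 / J ∂mT ≤ δ := by
      refine le_trans ?_ hΦ
      have : σ = ∫ _x, σ ∂mT := by simp
      rw [this, ← integral_sub (integrable_const _) (cont_int (by fun_prop))]
      refine integral_mono ((integrable_const _).sub (cont_int (by fun_prop))) hΦi fun x => ?_
      have := hm (-1) (by simp) x
      rw [abs_sub_comm] at this
      exact (le_abs_self _).trans this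
    rw [integral_div, parseval_trig _ (fun j : ℕ => -(j:ℤ)) (fun a _ b _ h => by simpa using h)] at a1
    have a2 : ∑ j ∈ range J, ‖(if u j < U then (-1:ℂ) ^ u j else 0) -
        ι * ∑ m ∈ range (v j), (-1:ℂ) ^ m‖ ^ 2 ≤ ∑ j ∈ range J, (1 + 3 * δ - ind (u j = U)) := by
      refine sum_le_sum fun j _ => ?_
      have b1 : ‖(ι:ℂ) * ∑ m ∈ range (v j), (-1:ℂ) ^ m‖ ≤ δ := by
        rw [norm_mul, neg_one_geom_sum, Complex.norm_real, Real.norm_of_nonneg hι0.le]
        split_ifs <;> simp [hδ0.le, hι1]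
      refine (pow_le_pow_left₀ (norm_nonneg _) ((norm_sub_le _ _).trans
        (add_le_add le_rfl b1)) 2).trans ?_
      split_ifs with h
      · rw [ind_neg h.ne]; simp only [norm_pow, norm_neg, norm_one, one_pow]; nlinarith
      · rw [ind_pos (le_antisymm (huU j) (not_lt.1 h))]; simp only [norm_zero]; nlinarith
    rw [sum_sub_distrib, sum_const, card_range, nsmul_eq_mul] at a2
    rw [sub_le_comm, le_div_iff₀ hJR] at a1
    nlinarith
  let R : (ℕ → Prop) → TT → ℂ := fun P x => ∑ j ∈ range J, ((ind (P j) : ℝ) : ℂ) * fourier (-(j:ℤ)) x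
  have hRc : ∀ P, Continuous (R P) := fun P => by simp only [R]; fun_prop
  let Ψ : TT → ℝ := fun x => 8 * (ι ^ 2 * (U + 1) * ∑ r ∈ range (U + 1), ‖R (fun j => v j = r) x‖ ^ 2 +
    ‖R (fun j => u j = U) x‖ ^ 2) / J
  have hΨc : Continuous Ψ := by simp only [Ψ]; fun_prop
  have hΨ : ∫ x, Ψ x ∂mT ≤ 64 * δ := by
    simp only [Ψ]
    rw [integral_div, integral_const_mul, integral_add (cont_int (by fun_prop))
      (cont_int (by fun_prop)), integral_const_mul,
      integral_finsetSum _ fun _ _ => cont_int (by fun_prop), div_le_iff₀ hJR]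
    simp only [R, int_ind_trig]
    have : ∑ r ∈ range (U + 1), ∑ j ∈ range J, ind (v j = r) = J := by
      rw [sum_comm, sum_congr rfl (g := fun _ => (1:ℝ))]
      · simp
      · intro j _
        have : v j ≤ U := min_le_right _ _
        simp only [ind_eq_ite, sum_ite_eq, mem_range]
        rw [if_pos (by omega)]
    rw [this]
    nlinarith
  refine ⟨J, hJ0, hJ, u, fun x => (1 + ε) * (4 * Φ x) + (8 * δ + ε * 4) + (1 + 1 / ε) * Ψ x, huU,
    ?_, ?_, ?_⟩
  · exact (((hΦi.const_mul _).const_mul _).add (integrable_const _)).add ((cont_int hΨc).const_mul _)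
  · have i1 : Integrable (fun x => (1 + ε) * (4 * Φ x) + (8 * δ + ε * 4)) mT :=
      ((hΦi.const_mul _).const_mul _).add (integrable_const _)
    rw [integral_add i1 ((cont_int hΨc).const_mul _), integral_add ((hΦi.const_mul _).const_mul _)
      (integrable_const _), integral_const_mul, integral_const_mul, integral_const_mul,
      integral_const, probReal_univ, one_smul]
    have b1 := mul_le_mul_of_nonneg_left hΨ (by positivity : 0 ≤ 1 + 1 / ε)
    have b2 := mul_le_mul_of_nonneg_left hΦ (by positivity : 0 ≤ 1 + ε)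
    nlinarith
  · intro z hz x
    have hz4 : ∀ r : ℕ, ‖1 - z ^ r‖ ^ 2 ≤ 4 := fun r => by
      have : ‖1 - z ^ r‖ ≤ 2 := (norm_sub_le _ _).trans (by simp [hz]; norm_num)
      nlinarith [norm_nonneg (1 - z ^ r)]
    have hz1 := hz4 1
    rw [pow_one] at hz1
    have h1 := hm z hz x
    set G := ∑ j ∈ range J, ((if u j < U then z ^ u j else 0) -
      ι * ∑ m ∈ range (v j), z ^ m) * fourier (-(j:ℤ)) x with hG
    have h2 : |‖(1 - z) * G‖ ^ 2 / J - ‖1 - z‖ ^ 2 * σ| ≤ 4 * Φ x := by
      rw [norm_mul, mul_pow, mul_div_assoc, ← mul_sub, abs_mul, abs_of_nonneg (sq_nonneg _)]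
      exact mul_le_mul hz1 h1 (abs_nonneg _) (by norm_num)
    have h3 : ‖ι * ∑ r ∈ range (U + 1), (1 - z ^ r) * R (fun j => v j = r) x +
        (1 - z) * z ^ U * R (fun j => u j = U) x‖ ^ 2 / J ≤ Ψ x := by
      refine div_le_div_of_nonneg_right ?_ hJR.le
      have b1 : ‖ι * ∑ r ∈ range (U + 1), (1 - z ^ r) * R (fun j => v j = r) x‖ ^ 2 ≤
          4 * (ι ^ 2 * (U + 1) * ∑ r ∈ range (U + 1), ‖R (fun j => v j = r) x‖ ^ 2) := by
        rw [norm_mul, mul_pow, Complex.norm_real, Real.norm_of_nonneg hι0.le, mul_assoc, mul_left_comm]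
        refine mul_le_mul_of_nonneg_left ((norm_sq_sum_le _ _).trans ?_) (sq_nonneg _)
        rw [card_range, mul_left_comm, mul_sum _ _ (4:ℝ)]
        push_cast
        refine mul_le_mul_of_nonneg_left (sum_le_sum fun r _ => ?_) (by positivity)
        rw [norm_mul, mul_pow]
        exact mul_le_mul_of_nonneg_right (hz4 r) (sq_nonneg _)
      have b2 : ‖(1 - z) * z ^ U * R (fun j => u j = U) x‖ ^ 2 ≤ 4 * ‖R (fun j => u j = U) x‖ ^ 2 := by
        rw [norm_mul, norm_mul, norm_pow, hz, one_pow, mul_one, mul_pow]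
        exact mul_le_mul_of_nonneg_right hz1 (sq_nonneg _)
      refine (pow_le_pow_left₀ (norm_nonneg _) (norm_add_le _ _) 2).trans ?_
      nlinarith [sq_nonneg (‖ι * ∑ r ∈ range (U + 1), (1 - z ^ r) * R (fun j => v j = r) x‖ -
        ‖(1 - z) * z ^ U * R (fun j => u j = U) x‖)]
    have h4 := perturb (σ := ‖1 - z‖ ^ 2) _ _ hJR hε0 h2 h3
    have h5 : (1 - z) * G + (ι * ∑ r ∈ range (U + 1), (1 - z ^ r) * R (fun j => v j = r) x +
        (1 - z) * z ^ U * R (fun j => u j = U) x) =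
        (1 - z) * ∑ j ∈ range J, z ^ u j * fourier (-(j:ℤ)) x := by
      simp only [hG, R, mul_sum]
      rw [sum_comm (s := range (U + 1)), ← sum_add_distrib, ← sum_add_distrib]
      refine sum_congr rfl fun j _ => ?_
      have c1 : v j ≤ U := min_le_right _ _
      rw [sum_eq_single_of_mem (s := range (U + 1)) (v j) (mem_range.2 (by omega)) fun r _ hr => by
        rw [ind_neg (Ne.symm hr)]; simp, ind_pos rfl, ← mul_sum, ← mul_neg_geom_sum z (v j)]
      split_ifs with h
      · rw [ind_neg h.ne]; push_cast; ring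
      · have h6 := le_antisymm (huU j) (not_lt.1 h)
        rw [ind_pos h6, h6]; push_cast; ring
    rw [h5, norm_mul, mul_pow, mul_div_assoc, ← mul_sub_one, abs_mul, abs_of_nonneg (sq_nonneg _),
      abs_of_nonneg (a := ‖1 - z‖ ^ 2 - _) (by nlinarith [sq_nonneg ‖1 - z‖])] at h4
    refine h4.trans ?_
    have h7 : ‖1 - z‖ ^ 2 * σ ≤ 4 := by nlinarith [sq_nonneg ‖1 - z‖]
    have h8 : ‖1 - z‖ ^ 2 - ‖1 - z‖ ^ 2 * σ ≤ 8 * δ := by nlinarith [sq_nonneg ‖1 - z‖]
    have h9 := mul_le_mul_of_nonneg_left h7 hε0.le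
    simp only
    linarith

end Vale.Agent.P130
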