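import Vale.Agent.P130.Thin

namespace Vale.Agent.P130

open Finset

/-- weighted codegree -/
noncomputable def codeg {ι V E : Type*} [Fintype E] (v : E → ι → V) (w : E → ℝ) (s s' : ι)
    (x x' : V) : ℝ := ∑ e, ind (v e s = x ∧ v e s' = x') * w e

lemma le_one_of_deg {ι V E : Type*} [Fintype E] [Nonempty ι] (v : E → ι → V) {w : E → ℝ}
    (hw : ∀ e, 0 ≤ w e) (hd : ∀ s x, deg v w s x ≤ 1) (e : E) : w e ≤ 1 := by
  obtain ⟨s⟩ := ‹Nonempty ι›
  refine le_trans ?_ (hd s (v e s))
  have := single_le_sum (f := fun e' => ind (v e' s = v e s) * w e')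
    (fun e' _ => mul_nonneg (ind_nonneg _) (hw e')) (mem_univ e)
  simpa [ind_pos, deg] using this

lemma sum_filter_ind {E : Type*} [Fintype E] (p : E → Prop) [DecidablePred p] (f : E → ℝ) :
    ∑ e ∈ univ.filter p, f e = ∑ e, ind (p e) * f e := by
  rw [sum_filter]
  refine sum_congr rfl fun e _ => ?_
  rw [ind_eq_ite]; split_ifs <;> simp

theorem nibble_step {ι : Type} [Fintype ι] [Nonempty ι] {V E : Type} [Fintype V] [Fintype E]
    (γ δ a : ℝ) (hγ0 : 0 < γ) (hγ1 : γ < 1) (hδ : 0 ≤ δ) (ha : 0 < a)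
    (hδ1 : (2 * Fintype.card ι : ℝ) ^ 2 * δ ≤ 1 / 2)
    (v : E → ι → V) (w : E → ℝ) (hw : ∀ e, 0 ≤ w e) (hd : ∀ s x, deg v w s x ≤ 1)
    (hc : ∀ s s' x x', s ≠ s' → codeg v w s s' x x' ≤ δ) (c : ℝ) (hc0 : 0 ≤ c) (hc1 : c ≤ 1) :
    ∃ (M : Finset E) (w' : E → ℝ), (∀ e ∈ M, 0 < w e) ∧
      (∀ e ∈ M, ∀ e' ∈ M, e ≠ e' → ∀ s, v e s ≠ v e' s) ∧
      (∀ e, 0 ≤ w' e) ∧ (∀ e, w' e ≤ (1 - γ) / (1 - γ) ^ Fintype.card ι * w e) ∧
      (∀ e, 0 < w' e → 0 < w e ∧ ∀ e' ∈ M, ∀ s, v e' s ≠ v e s) ∧ (∀ s x, deg v w' s x ≤ 1) ∧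
      (γ * (1 - γ * Fintype.card ι) + c * (1 - γ)) * ∑ e, w e -
        Fintype.card ι * Fintype.card V * (a + (2 * (2 * Fintype.card ι : ℝ) ^ 2 * δ +
          (1 - γ) / (1 - γ) ^ Fintype.card ι * (Fintype.card ι * δ) / (1 - γ) ^ Fintype.card ι) /
            (4 * a)) ≤ M.card + c * ∑ e, w' e := by
  classical
  set K := Fintype.card ι with hK
  have hKpos : 0 < K := Fintype.card_pos
  set q := 1 - γ with hq
  have hq0 : 0 < q := by linarith
  have hq1 : q ≤ 1 := by linarith
  have hw1 := le_one_of_deg v hw hd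
  let pr : ι → V → ℝ := fun s x => ∏ e ∈ univ.filter (fun e => v e s = x), (1 - γ * w e)
  have hr0 : ∀ e, 0 ≤ γ * w e := fun e => mul_nonneg hγ0.le (hw e)
  have hr1 : ∀ e, γ * w e ≤ 1 := fun e => by nlinarith [hw1 e, hw e]
  have hpr : ∀ s x, q ≤ pr s x := by
    intro s x
    refine le_trans ?_ (one_sub_sum_le_prod _ (fun e => γ * w e) hr0 hr1)
    rw [← mul_sum, sum_filter_ind]
    have := hd s x
    unfold deg at this
    nlinarith
  let r : E ⊕ (ι × V) → ℝ := fun i => match i with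
    | Sum.inl e => γ * w e
    | Sum.inr y => 1 - q / pr y.1 y.2
  have hR0 : ∀ i, 0 ≤ r i := by
    rintro (e | y)
    · exact hr0 e
    · exact sub_nonneg.2 ((div_le_one (hq0.trans_le (hpr _ _))).2 (hpr _ _))
  have hR1 : ∀ i, r i ≤ 1 := by
    rintro (e | y)
    · exact hr1 e
    · have : 0 ≤ q / pr y.1 y.2 := div_nonneg hq0.le (hq0.le.trans (hpr _ _))
      simp only [r]; linarith
  let p : E ⊕ (ι × V) → Bool → ℝ := fun i b => if b then r i else 1 - r i
  have hp0 : ∀ i b, 0 ≤ p i b := fun i b => by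
    simp only [p]; split_ifs
    · exact hR0 i
    · linarith [hR1 i]
  have hp1 : ∀ i, ∑ b, p i b = 1 := fun i => by simp [p]
  let N : ι × V → Finset (E ⊕ (ι × V)) := fun y =>
    insert (Sum.inr y) ((univ.filter (fun e => v e y.1 = y.2)).map Function.Embedding.inl)
  have hN : ∀ y, ∏ i ∈ N y, (1 - r i) = q := by
    intro y
    simp only [N]
    rw [prod_insert (by simp), prod_map]
    have : pr y.1 y.2 ≠ 0 := (hq0.trans_le (hpr _ _)).ne'
    simp only [r, Function.Embedding.inl_apply]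
    change (1 - (1 - q / pr y.1 y.2)) * pr y.1 y.2 = q
    field_simp; ring
  let alive : (E ⊕ (ι × V) → Bool) → ι → V → Prop := fun ω s x => ∀ i ∈ N (s, x), ω i = false
  have hprob : ∀ X : Finset (ι × V), ∑ ω, PW p ω * ind (∀ y ∈ X, alive ω y.1 y.2) =
      ∏ i ∈ X.biUnion N, (1 - r i) := by
    intro X
    have := prob_set hp1 (X.biUnion N) (fun _ => false)
    simp only [p, Bool.false_eq_true, if_false] at this
    rw [← this]
    refine sum_congr rfl fun ω _ => ?_
    congr 1
    rw [← ind_eq_ite]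
    refine ind_congr ⟨fun h i hi => ?_, fun h y hy i hi => h i (mem_biUnion.2 ⟨y, hy, hi⟩)⟩
    obtain ⟨y, hy, hi⟩ := mem_biUnion.1 hi
    exact h y hy i hi
  let Xe : E → Finset (ι × V) := fun e => univ.image (fun s => (s, v e s))
  have hXc : ∀ e, (Xe e).card = K := fun e => by
    rw [card_image_of_injective _ (fun s s' h => (Prod.ext_iff.1 h).1), card_univ]
  have hXe : ∀ ω e, (∀ s, alive ω s (v e s)) ↔ ∀ y ∈ Xe e, alive ω y.1 y.2 := by
    intro ω e; simp [Xe]
  have hKR : (1:ℝ) ≤ K := by exact_mod_cast hKpos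
  obtain ⟨w', h0, hle, hal, hd', hsum⟩ := thin (PW p) (PW_nonneg hp0) (sum_PW hp1) v w hw alive
    (fun _ => q) (fun _ => hq0) (fun _ => hq1) (q ^ K) (q / q ^ K) (2 * (2 * K : ℝ) ^ 2 * δ)
    (K * δ) a (by positivity) (by positivity) (by positivity) (by positivity) ha
    (fun s e e' => ∃ s', s' ≠ s ∧ v e' s' = v e s')
    (fun e _ => by
      simp only [hXe]
      rw [hprob]
      refine le_trans (le_of_eq ?_) (prod_biUnion_ge _ N _ (fun i => sub_nonneg.2 (hR1 i))
        (fun i => by linarith [hR0 i]))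
      simp only [hN, prod_const, hXc])
    (fun s x => by
      have := hprob {(s, x)}
      simp only [mem_singleton, forall_eq, singleton_biUnion] at this
      rw [this, hN])
    (fun s e e' _ _ hs hb => by
      have e1 : ∀ ω, ((∀ s, alive ω s (v e s)) ∧ (∀ s, alive ω s (v e' s))) ↔
          ∀ y ∈ Xe e ∪ Xe e', alive ω y.1 y.2 := by
        intro ω; rw [hXe, hXe]; simp only [mem_union, or_imp, forall_and]
      simp only [e1]
      rw [hprob]
      have hint : Xe e ∩ Xe e' = {(s, v e s)} := by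
        ext ⟨s', x⟩
        simp only [Xe, mem_inter, mem_image, mem_univ, true_and, Prod.mk.injEq, mem_singleton]
        constructor
        · rintro ⟨⟨a, rfl, rfl⟩, ⟨b, rfl, h⟩⟩
          by_cases hb' : b = s
          · subst hb'; exact ⟨rfl, rfl⟩
          · exact absurd ⟨b, hb', h⟩ hb
        · rintro ⟨rfl, rfl⟩
          exact ⟨⟨_, rfl, rfl⟩, ⟨_, rfl, hs⟩⟩
      have hcard : (Xe e ∪ Xe e').card + 1 = K + K := by
        have := card_union_add_card_inter (Xe e) (Xe e')
        rw [hint, card_singleton, hXc, hXc] at this; exact this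
      have hm : (2 * K : ℝ) * δ ≤ 1 := by nlinarith [mul_nonneg (by positivity : (0:ℝ) ≤ 2 * K) hδ]
      have hcR : ((Xe e ∪ Xe e').card : ℝ) ≤ 2 * K := by
        have : (((Xe e ∪ Xe e').card + 1 : ℕ) : ℝ) = ((K + K : ℕ) : ℝ) := by rw [hcard]
        push_cast at this; linarith
      have h1 := prod_biUnion_le (Xe e ∪ Xe e') N r hR0 hR1 (2 * K) δ hδ hm hcR (by
        rintro ⟨s1, x1⟩ _ ⟨s2, x2⟩ _ hne
        have hsub : N (s1, x1) ∩ N (s2, x2) ⊆
            (univ.filter (fun e => v e s1 = x1 ∧ v e s2 = x2)).map Function.Embedding.inl := by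
          rintro (e | y) hi
          · simp only [N, mem_inter, mem_insert, mem_map, mem_filter, mem_univ, true_and,
              Function.Embedding.inl_apply, Sum.inl.injEq, exists_eq_right, reduceCtorEq,
              false_or] at hi ⊢
            exact hi
          · simp only [N, mem_inter, mem_insert, mem_map, mem_filter, mem_univ, true_and,
              Function.Embedding.inl_apply, Sum.inr.injEq, reduceCtorEq, and_false, exists_false,
              or_false] at hi
            exact absurd (hi.1.symm.trans hi.2) hne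
        refine (sum_le_sum_of_subset_of_nonneg hsub (fun i _ _ => hR0 i)).trans ?_
        rw [sum_map, sum_filter_ind]
        simp only [r, Function.Embedding.inl_apply]
        by_cases hss : s1 = s2
        · subst hss
          rw [sum_eq_zero]
          · exact hδ
          · intro e _
            rw [ind_neg, zero_mul]
            rintro ⟨h1, h2⟩
            exact hne (by rw [← h1, ← h2])
        · refine le_trans (sum_le_sum fun e _ => ?_) (hc s1 s2 x1 x2 hss)
          refine mul_le_mul_of_nonneg_left ?_ (ind_nonneg _)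
          nlinarith [hw e])
      simp only [hN, prod_const] at h1
      set n := (Xe e ∪ Xe e').card
      set Y := ∏ i ∈ (Xe e ∪ Xe e').biUnion N, (1 - r i)
      have hY : 0 ≤ Y := prod_nonneg fun i _ => sub_nonneg.2 (hR1 i)
      have hb1 : 1 - (2 * K : ℝ) ^ 2 * δ ≤ (1 - 2 * K * δ) ^ n := by
        have := one_add_mul_le_pow (a := -(2 * K * δ : ℝ)) (by linarith) n
        have h2 : (n : ℝ) * (2 * K * δ) ≤ (2 * K) * (2 * K * δ) :=
          mul_le_mul_of_nonneg_right hcR (by positivity)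
        rw [← sub_eq_add_neg] at this
        nlinarith
      have e2 : (q ^ K) ^ 2 / q = q ^ n := by
        rw [div_eq_iff hq0.ne', ← pow_succ, hcard, ← pow_mul]; ring_nf
      rw [mul_div_assoc, e2]
      set t := (2 * K : ℝ) ^ 2 * δ
      have ht0 : 0 ≤ t := by positivity
      have h3 : (1 - t) * Y ≤ q ^ n := (mul_le_mul_of_nonneg_right hb1 hY).trans h1
      have h4 : 2 * (2 * K : ℝ) ^ 2 * δ = 2 * t := by simp only [t]; ring
      rw [h4]
      have h5 : 1 ≤ (1 + 2 * t) * (1 - t) := by nlinarith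
      nlinarith [mul_le_mul_of_nonneg_left h3 (by linarith : 0 ≤ 1 + 2 * t)])
    (fun s e _ => by
      calc _ ≤ ∑ e', ∑ s' ∈ univ.erase s, ind (v e' s = v e s ∧ v e' s' = v e s') * w e' := by
            refine sum_le_sum fun e' _ => ?_
            by_cases h : v e' s = v e s ∧ ∃ s', s' ≠ s ∧ v e' s' = v e s'
            · obtain ⟨h1, s', h2, h3⟩ := h
              rw [ind_pos ⟨h1, s', h2, h3⟩]
              refine le_trans ?_ (single_le_sum (f := fun s' =>
                ind (v e' s = v e s ∧ v e' s' = v e s') * w e')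
                (fun s' _ => mul_nonneg (ind_nonneg _) (hw e')) (mem_erase.2 ⟨h2, mem_univ _⟩))
              rw [ind_pos ⟨h1, h3⟩]
            · rw [ind_neg h, zero_mul]
              exact sum_nonneg fun s' _ => mul_nonneg (ind_nonneg _) (hw e')
        _ = ∑ s' ∈ univ.erase s, codeg v w s s' (v e s) (v e s') := by rw [sum_comm]; rfl
        _ ≤ ∑ s' ∈ univ.erase s, δ := sum_le_sum fun s' hs' =>
            hc _ _ _ _ (ne_of_mem_erase hs').symm
        _ ≤ ∑ s' : ι, δ := sum_le_sum_of_subset_of_nonneg (subset_univ _) (fun _ _ _ => hδ)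
        _ = K * δ := by simp [hK])
    (fun s x => by
      have := hd s x
      have e1 : q / q ^ K * deg v w s x * q ^ K = q * deg v w s x := by field_simp
      rw [e1]; nlinarith)
  let M1 : (E ⊕ (ι × V) → Bool) → Finset E := fun ω => univ.filter (fun e =>
    0 < w e ∧ ω (Sum.inl e) = true ∧ ∀ e', e' ≠ e → (∃ s, v e' s = v e s) → ω (Sum.inl e') = false)
  have hM1 : γ * (1 - γ * K) * ∑ e, w e ≤ ∑ ω, PW p ω * (M1 ω).card := by
    have e1 : ∀ ω, ((M1 ω).card : ℝ) = ∑ e, ind (0 < w e ∧ ω (Sum.inl e) = true ∧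
        ∀ e', e' ≠ e → (∃ s, v e' s = v e s) → ω (Sum.inl e') = false) := by
      intro ω
      rw [card_eq_sum_ones, Nat.cast_sum, sum_filter_ind]; simp
    simp only [e1, mul_sum]
    rw [sum_comm]
    refine sum_le_sum fun e _ => ?_
    rcases (hw e).lt_or_eq with h2 | h2
    swap
    · rw [← h2, mul_zero]
      exact sum_nonneg fun ω _ => mul_nonneg (PW_nonneg hp0 _) (ind_nonneg _)
    let S : Finset E := univ.filter (fun e' => e' ≠ e ∧ ∃ s, v e' s = v e s)
    have h3 := prob_inj hp1 (insert e S) (fun e' => (Sum.inl e' : E ⊕ (ι × V)))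
      (fun a _ b _ h => Sum.inl.inj h) (fun e' => decide (e' = e)) true
    rw [prod_insert (by simp [S])] at h3
    have h4 : ∏ e' ∈ S, p (Sum.inl e') (decide (e' = e)) = ∏ e' ∈ S, (1 - γ * w e') := by
      refine prod_congr rfl fun e' he' => ?_
      have : e' ≠ e := (mem_filter.1 he').2.1
      simp [p, r, this]
    have h5 : 1 - γ * K ≤ ∏ e' ∈ S, (1 - γ * w e') := by
      refine le_trans ?_ (one_sub_sum_le_prod _ (fun e => γ * w e) hr0 hr1)
      rw [← mul_sum]
      have : ∑ e' ∈ S, w e' ≤ K := by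
        calc _ ≤ ∑ e', ∑ s, ind (v e' s = v e s) * w e' := by
              rw [sum_filter_ind]
              refine sum_le_sum fun e' _ => ?_
              by_cases h : e' ≠ e ∧ ∃ s, v e' s = v e s
              · obtain ⟨h1, s, h3⟩ := h
                rw [ind_pos ⟨h1, s, h3⟩]
                refine le_trans ?_ (single_le_sum (f := fun s => ind (v e' s = v e s) * w e')
                  (fun s' _ => mul_nonneg (ind_nonneg _) (hw e')) (mem_univ s))
                rw [ind_pos h3]
              · rw [ind_neg h, zero_mul]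
                exact sum_nonneg fun s' _ => mul_nonneg (ind_nonneg _) (hw e')
          _ = ∑ s, deg v w s (v e s) := by rw [sum_comm]; rfl
          _ ≤ ∑ s : ι, (1:ℝ) := sum_le_sum fun s _ => hd _ _
          _ = K := by simp [hK]
      nlinarith
    have h6 : p (Sum.inl e) (decide (e = e)) = γ * w e := by simp [p, r]
    rw [h4, h6] at h3
    calc γ * (1 - γ * K) * w e = γ * w e * (1 - γ * K) := by ring
      _ ≤ γ * w e * ∏ e' ∈ S, (1 - γ * w e') := mul_le_mul_of_nonneg_left h5 (hr0 e)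
      _ = _ := h3.symm
      _ ≤ _ := by
        refine sum_le_sum fun ω _ => mul_le_mul_of_nonneg_left ?_ (PW_nonneg hp0 _)
        rw [← ind_eq_ite]
        refine ind_mono fun h => ⟨h2, ?_, fun e' h1 h3 => ?_⟩
        · simpa using h e (mem_insert_self _ _)
        · have := h e' (mem_insert_of_mem (mem_filter.2 ⟨mem_univ _, h1, h3⟩))
          simpa [h1] using this
  obtain ⟨ω, hω⟩ := exists_ge_avg (PW_nonneg hp0) (sum_PW hp1)
    (fun ω => ((M1 ω).card : ℝ) + c * ∑ e, w' ω e)
  refine ⟨M1 ω, w' ω, fun e he => (mem_filter.1 he).2.1, fun e he e' he' hne s h => ?_, h0 ω,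
    hle ω, fun e he => ⟨(hal ω e he).1, fun e' he' s h => ?_⟩, hd' ω, ?_⟩
  · have h1 := (mem_filter.1 he).2.2.1
    have h2 := (mem_filter.1 he').2.2.2 e hne ⟨s, h⟩
    rw [h1] at h2; cases h2
  · have h1 := (mem_filter.1 he').2.2.1
    have h2 := (hal ω e he).2 s (Sum.inl e') (by simp [N, h])
    rw [h1] at h2; cases h2
  · refine le_trans ?_ hω
    simp only [mul_add (PW p _), sum_add_distrib]
    have e1 : ∑ ω, PW p ω * (c * ∑ e, w' ω e) = c * ∑ ω, PW p ω * ∑ e, w' ω e := by
      rw [mul_sum]; exact sum_congr rfl fun ω _ => by ring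
    rw [e1]
    have e2 : q / q ^ K * q ^ K = q := by field_simp
    rw [e2] at hsum
    set L := (K : ℝ) * Fintype.card V * (a + (2 * (2 * K : ℝ) ^ 2 * δ +
      q / q ^ K * (K * δ) / q ^ K) / (4 * a))
    have hL : 0 ≤ L := by positivity
    have := mul_le_mul_of_nonneg_left hsum hc0
    nlinarith

theorem nibble_aux {ι : Type} [Fintype ι] [Nonempty ι] (γ : ℝ) (hγ0 : 0 < γ) (hγ1 : γ < 1)
    (hγK : γ * Fintype.card ι ≤ 1) (n : ℕ) :
    ∀ β : ℝ, 0 < β → ∃ δ : ℝ, 0 < δ ∧ ∀ (V E : Type) [Fintype V] [Fintype E]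
      (v : E → ι → V) (w : E → ℝ), (∀ e, 0 ≤ w e) → (∀ s x, deg v w s x ≤ 1) →
      (∀ s s' x x', s ≠ s' → codeg v w s s' x x' ≤ δ) →
      ∃ M : Finset E, (∀ e ∈ M, 0 < w e) ∧ (∀ e ∈ M, ∀ e' ∈ M, e ≠ e' → ∀ s, v e s ≠ v e' s) ∧
        (1 - γ * Fintype.card ι) * (1 - (1 - γ) ^ n) * ∑ e, w e - β * Fintype.card V ≤ M.card := by
  classical
  induction n with
  | zero =>
    intro β hβ
    refine ⟨1, one_pos, fun V E _ _ v w _ _ _ => ⟨∅, by simp, by simp, ?_⟩⟩
    simp; positivity
  | succ n ih =>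
    intro β hβ
    obtain ⟨δ1, hδ1, H⟩ := ih (β / 2) (by positivity)
    set K := Fintype.card ι with hK
    have hKpos : (0:ℝ) < K := by exact_mod_cast Fintype.card_pos
    set q := 1 - γ with hq
    have hq0 : 0 < q := by linarith
    set a := β / (4 * K) with ha
    have ha0 : 0 < a := by positivity
    set lam := q / q ^ K with hlam
    have hlam0 : 0 < lam := by positivity
    set C := 2 * (2 * K : ℝ) ^ 2 + lam * K / q ^ K with hC
    have hC0 : 0 < C := by positivity
    refine ⟨min (min (δ1 / lam) (1 / (2 * (2 * K) ^ 2))) (4 * a * a / C), by positivity, ?_⟩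
    intro V E _ _ v w hw hd hc
    set δ := min (min (δ1 / lam) (1 / (2 * (2 * K) ^ 2))) (4 * a * a / C) with hδ
    have hδ0 : 0 < δ := by positivity
    have hδa : δ ≤ δ1 / lam := (min_le_left _ _).trans (min_le_left _ _)
    have hδb : δ ≤ 1 / (2 * (2 * K) ^ 2) := (min_le_left _ _).trans (min_le_right _ _)
    have hδc : δ ≤ 4 * a * a / C := min_le_right _ _
    set c := (1 - γ * K) * (1 - q ^ n) with hcc
    have hqn0 : 0 ≤ q ^ n := by positivity
    have hqn1 : q ^ n ≤ 1 := pow_le_one₀ hq0.le (by linarith)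
    have hγK0 : 0 ≤ γ * K := by positivity
    have hc0 : 0 ≤ c := mul_nonneg (by linarith) (by linarith)
    have hc1 : c ≤ 1 := mul_le_one₀ (by linarith) (by linarith) (by linarith)
    obtain ⟨M1, w', h1, h2, h3, h4, h5, h6, h7⟩ := nibble_step γ δ a hγ0 hγ1 hδ0.le ha0
      (by rw [le_div_iff₀ (by positivity)] at hδb; linarith) v w hw hd hc c hc0 hc1
    obtain ⟨M2, g1, g2, g3⟩ := H V E v w' h3 h6 (fun s s' x x' hs => by
      have := hc s s' x x' hs
      calc codeg v w' s s' x x' ≤ lam * codeg v w s s' x x' := by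
            unfold codeg; rw [mul_sum]
            refine sum_le_sum fun e _ => ?_
            have := mul_le_mul_of_nonneg_left (h4 e) (ind_nonneg (v e s = x ∧ v e s' = x'))
            linarith
        _ ≤ lam * (δ1 / lam) := mul_le_mul_of_nonneg_left (this.trans hδa) hlam0.le
        _ = δ1 := by field_simp)
    have hdisj : Disjoint M1 M2 := by
      rw [disjoint_left]
      intro e he1 he2
      obtain ⟨s⟩ := ‹Nonempty ι›
      exact (h5 e (g1 e he2)).2 e he1 s rfl
    refine ⟨M1 ∪ M2, fun e he => ?_, fun e he e' he' hne s => ?_, ?_⟩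
    · rcases mem_union.1 he with h | h
      · exact h1 e h
      · exact (h5 e (g1 e h)).1
    · rcases mem_union.1 he with h | h <;> rcases mem_union.1 he' with h' | h'
      · exact h2 e h e' h' hne s
      · exact (h5 e' (g1 e' h')).2 e h s
      · exact ((h5 e (g1 e h)).2 e' h' s).symm
      · exact g2 e h e' h' hne s
    · rw [card_union_of_disjoint hdisj]
      push_cast
      have e1 : (1 - γ * K) * (1 - q ^ (n + 1)) = γ * (1 - γ * K) + c * q := by
        rw [hcc, pow_succ, hq]; ring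
      rw [e1]
      have e2 : (2 * (2 * K : ℝ) ^ 2 * δ + lam * (K * δ) / q ^ K) / (4 * a) ≤ a := by
        rw [div_le_iff₀ (by positivity)]
        rw [le_div_iff₀ hC0] at hδc
        have : 2 * (2 * K : ℝ) ^ 2 * δ + lam * (K * δ) / q ^ K = δ * C := by rw [hC]; ring
        linarith
      have e3 : (K : ℝ) * Fintype.card V * (a + (2 * (2 * K : ℝ) ^ 2 * δ +
          lam * (K * δ) / q ^ K) / (4 * a)) ≤ β / 2 * Fintype.card V := by
        have : (K : ℝ) * (a + a) = β / 2 := by rw [ha]; field_simp; ring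
        calc _ ≤ (K : ℝ) * Fintype.card V * (a + a) := by gcongr
          _ = _ := by rw [← this]; ring
      linarith

/-- Pippenger-type matching theorem for fractional matchings of a partite hypergraph -/
theorem nibble {ι : Type} [Fintype ι] [Nonempty ι] (ε : ℝ) (hε : 0 < ε) :
    ∃ δ : ℝ, 0 < δ ∧ ∀ (V E : Type) [Fintype V] [Fintype E]
      (v : E → ι → V) (w : E → ℝ), (∀ e, 0 ≤ w e) → (∀ s x, deg v w s x ≤ 1) →
      (∀ s s' x x', s ≠ s' → codeg v w s s' x x' ≤ δ) →
      ∃ M : Finset E, (∀ e ∈ M, 0 < w e) ∧ (∀ e ∈ M, ∀ e' ∈ M, e ≠ e' → ∀ s, v e s ≠ v e' s) ∧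
        (1 - ε) * ∑ e, w e - ε * Fintype.card V ≤ M.card := by
  set K := Fintype.card ι with hK
  have hKpos : (1:ℝ) ≤ K := by exact_mod_cast Fintype.card_pos
  set γ := min ε 1 / (2 * K) with hγ
  have hm : 0 < min ε 1 := by positivity
  have hγ0 : 0 < γ := by positivity
  have hγK : γ * K = min ε 1 / 2 := by rw [hγ]; field_simp
  have hγ1 : γ < 1 := by nlinarith [min_le_right ε 1]
  obtain ⟨n, hn⟩ := exists_pow_lt_of_lt_one (x := ε / 2) (y := 1 - γ) (by positivity) (by linarith)
  obtain ⟨δ, hδ, H⟩ := nibble_aux (ι := ι) γ hγ0 hγ1 (by linarith [min_le_right ε 1]) n ε hε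
  refine ⟨δ, hδ, fun V E _ _ v w hw hd hc => ?_⟩
  obtain ⟨M, h1, h2, h3⟩ := H V E v w hw hd hc
  refine ⟨M, h1, h2, le_trans ?_ h3⟩
  have hs : 0 ≤ ∑ e, w e := sum_nonneg fun e _ => hw e
  have : 1 - ε ≤ (1 - γ * K) * (1 - (1 - γ) ^ n) := by
    have h0 : 0 ≤ (1 - γ) ^ n := pow_nonneg (by linarith) _
    have := min_le_left ε 1
    nlinarith [mul_nonneg (mul_nonneg hγ0.le (by linarith : (0:ℝ) ≤ K)) h0]
  nlinarith

end Vale.Agent.P130
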