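import Vale.Agent.P130.Gauss

namespace Vale.Agent.P130

open Finset MeasureTheory Filter Topology
open scoped Real ComplexConjugate

lemma norm_sq_sum_sub {I : Type*} [Fintype I] [DecidableEq I] (z : I → ℂ) :
    |‖∑ i, z i‖ ^ 2 - ∑ i, ‖z i‖ ^ 2| ≤ ∑ i, ∑ j, if i = j then 0 else ‖z i‖ * ‖z j‖ := by
  have e : (((‖∑ i, z i‖ ^ 2 - ∑ i, ‖z i‖ ^ 2 : ℝ)) : ℂ) =
      ∑ i, ∑ j, if i = j then 0 else z i * conj (z j) := by
    rw [Complex.ofReal_sub, Complex.ofReal_sum, sq_norm_eq, map_sum, sum_mul_sum, ← sum_sub_distrib]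
    refine sum_congr rfl fun i _ => ?_
    rw [sq_norm_eq, ← add_sum_erase _ _ (mem_univ i),
      ← add_sum_erase _ (fun j => if i = j then 0 else z i * conj (z j)) (mem_univ i)]
    simp only [if_true, zero_add, add_sub_cancel_left]
    exact sum_congr rfl fun j hj => by rw [if_neg (ne_of_mem_erase hj).symm]
  rw [← Real.norm_eq_abs, ← Complex.norm_real, e]
  refine (norm_sum_le _ _).trans (sum_le_sum fun i _ => (norm_sum_le _ _).trans
    (sum_le_sum fun j _ => ?_))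
  split_ifs <;> simp

lemma combine {I : Type*} [Fintype I] (z : I → ℂ) (τ : I → ℝ) (σ σ' ε : ℝ) (hε : 0 < ε)
    (hσ : σ ≤ σ') (hσ0 : 0 ≤ σ') (hτ : ∀ i, τ i ≤ σ') (hd : ∀ i j, i ≠ j → τ i = 0 ∨ τ j = 0) :
    |‖∑ i, z i‖ ^ 2 - σ| ≤ (2 + Fintype.card I / (2 * ε)) * ∑ i, |‖z i‖ ^ 2 - τ i| +
      (2 * (σ' - σ) + σ) + (2 * Fintype.card I * ε - 1) * ∑ i, ‖z i‖ ^ 2 := by
  classical
  have h1 := norm_sq_sum_sub z
  have h2 : ∑ i, τ i ≤ σ' := by
    by_cases h : ∃ i, τ i ≠ 0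
    · obtain ⟨i, hi⟩ := h
      rw [sum_eq_single i (fun j _ hj => (hd j i hj).resolve_right hi) (by simp)]
      exact hτ i
    · push Not at h
      simp [h, hσ0]
  have h3 : ∑ i, ‖z i‖ ^ 2 - ∑ i, τ i ≤ ∑ i, |‖z i‖ ^ 2 - τ i| := by
    rw [← sum_sub_distrib]; exact sum_le_sum fun i _ => le_abs_self _
  have key : ∀ a b : ℝ, a * b ≤ ε * a ^ 2 + b ^ 2 / (4 * ε) := by
    intro a b
    have : 0 ≤ (2 * ε * a - b) ^ 2 / (4 * ε) := by positivity
    have e : (2 * ε * a - b) ^ 2 / (4 * ε) = ε * a ^ 2 + b ^ 2 / (4 * ε) - a * b := by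
      field_simp; ring
    linarith
  have h4 : ∀ i j, (if i = j then 0 else ‖z i‖ * ‖z j‖) ≤
      (ε * ‖z i‖ ^ 2 + |‖z i‖ ^ 2 - τ i| / (4 * ε)) + (ε * ‖z j‖ ^ 2 + |‖z j‖ ^ 2 - τ j| / (4 * ε)) := by
    intro i j
    have a1 : 0 ≤ ε * ‖z i‖ ^ 2 := by positivity
    have a2 : 0 ≤ ε * ‖z j‖ ^ 2 := by positivity
    have a3 : 0 ≤ |‖z i‖ ^ 2 - τ i| / (4 * ε) := by positivity
    have a4 : 0 ≤ |‖z j‖ ^ 2 - τ j| / (4 * ε) := by positivity
    split_ifs with h
    · linarith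
    · rcases hd i j h with h5 | h5
      · have := key ‖z j‖ ‖z i‖
        rw [h5, sub_zero, abs_of_nonneg (sq_nonneg _)]; linarith
      · have := key ‖z i‖ ‖z j‖
        rw [h5, sub_zero, abs_of_nonneg (sq_nonneg (‖z j‖))]; linarith
  have h5 := h1.trans (sum_le_sum fun i _ => sum_le_sum fun j _ => h4 i j)
  simp only [sum_add_distrib, sum_const, card_univ, nsmul_eq_mul, ← mul_sum, ← sum_div] at h5
  set G := ∑ i, ‖z i‖ ^ 2
  set D := ∑ i, |‖z i‖ ^ 2 - τ i|
  have hD : 0 ≤ D := sum_nonneg fun i _ => abs_nonneg _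
  have h6 : |G - σ| ≤ 2 * D + 2 * (σ' - σ) + σ - G := by
    rw [abs_le]; constructor <;> linarith
  have h7 := abs_sub_le (‖∑ i, z i‖ ^ 2) G σ
  have e : (Fintype.card I : ℝ) / (2 * ε) * D =
      Fintype.card I * (D / (4 * ε)) + Fintype.card I * (D / (4 * ε)) := by field_simp; ring
  have e2 : (2 + Fintype.card I / (2 * ε)) * D + (2 * (σ' - σ) + σ) +
      (2 * Fintype.card I * ε - 1) * G = 2 * D + Fintype.card I / (2 * ε) * D +
        (2 * (σ' - σ) + σ) + 2 * (Fintype.card I * (ε * G)) - G := by ring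
  rw [e2, e]
  linarith

lemma sum_range_mul' {E : Type*} [AddCommMonoid E] (f : ℕ → E) (N B : ℕ) :
    ∑ j ∈ range (N * B), f j = ∑ b ∈ range N, ∑ n ∈ range B, f (b * B + n) := by
  induction N with
  | zero => simp
  | succ N ih => rw [Nat.succ_mul, sum_range_add, ih, sum_range_succ]

/-- sign attached to a boolean -/
def sgn (s : Bool) : ℤ := if s then 1 else -1

lemma ediv_run {Y L r : ℤ} {ρ : ℕ} (hL0 : 0 < L) (hL : (ρ:ℤ) ∣ L) (hY : (ρ:ℤ) ∣ Y) (h0 : 0 ≤ r)
    (h1 : r < ρ) : (Y + r) / L = Y / L := by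
  have h2 := Int.emod_nonneg Y hL0.ne'
  have h3 := Int.emod_lt_of_pos Y hL0
  have h4 : (ρ:ℤ) ∣ L - Y % L := by
    rw [Int.emod_def]; exact hL.sub (hY.sub (hL.mul_right _))
  have h5 := Int.le_of_dvd (by omega) h4
  have h6 := Int.emod_add_mul_ediv Y L
  have : Y + r = (Y % L + r) + L * (Y / L) := by linarith
  rw [this, Int.add_mul_ediv_left _ _ hL0.ne', Int.ediv_eq_zero_of_lt (by omega) (by omega), zero_add]

lemma ediv_mirror {y L : ℤ} (hL0 : 0 < L) : (-1 - y) / L = -1 - y / L := by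
  have h2 := Int.emod_nonneg y hL0.ne'
  have h3 := Int.emod_lt_of_pos y hL0
  have h6 := Int.emod_add_mul_ediv y L
  have : -1 - y = (L - 1 - y % L) + L * (-1 - y / L) := by linarith
  rw [this, Int.add_mul_ediv_left _ _ hL0.ne', Int.ediv_eq_zero_of_lt (by omega) (by omega), zero_add]

lemma line_label {ι : Type} {H : ℕ} (hH : 0 < H) (ω : Fin H → ι × Bool) (i : ι) {Y L k : ℤ}
    {ρ : ℕ} (hL0 : 0 < L) (hL : (ρ:ℤ) ∣ L) (hY : (ρ:ℤ) ∣ Y)
    (hω : ω (hx H hH (Y / L)) = (i, sg H (Y / L))) (s : Bool) {r : ℤ} (hr : r ∈ run (sgn s * ρ)) :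
    ω (hx H hH ((sgn s * Y + L * (2 * H * k) + r) / L)) =
      (i, if s then sg H ((sgn s * Y + L * (2 * H * k) + r) / L)
        else !sg H ((sgn s * Y + L * (2 * H * k) + r) / L)) := by
  simp only [run, mem_Ico] at hr
  cases s
  · simp only [sgn, Bool.false_eq_true, if_false] at hr ⊢
    set y := -1 * Y + L * (2 * H * k) + r
    have e : -1 - y / L - Y / L = 2 * H * (-k) := by
      rw [← ediv_mirror hL0]
      have : -1 - y = (Y + (-1 - r)) + L * (2 * H * (-k)) := by simp only [y]; ring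
      rw [this, Int.add_mul_ediv_left _ _ hL0.ne', ediv_run hL0 hL hY (by omega) (by omega)]; ring
    have hd : (2 * H : ℤ) ∣ (-1 - y / L) - Y / L := ⟨_, e⟩
    rw [← hx_mirror hH, hx_congr hH hd, hω, ← sg_congr hd, sg_mirror hH]
  · simp only [sgn, if_true] at hr ⊢
    set y := 1 * Y + L * (2 * H * k) + r
    have e : y / L - Y / L = 2 * H * k := by
      have : y = (Y + r) + L * (2 * H * k) := by simp only [y]; ring
      rw [this, Int.add_mul_ediv_left _ _ hL0.ne', ediv_run hL0 hL hY (by omega) (by omega)]; ring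
    have hd : (2 * H : ℤ) ∣ y / L - Y / L := ⟨_, e⟩
    rw [hx_congr hH hd, hω, ← sg_congr hd]

lemma exists_xi {C ι : Type} [Fintype C] [DecidableEq C] [Fintype ι] [DecidableEq ι]
    (lam : ι → C → ℤ) (hp : ∀ i, Prim (lam i))
    (hnp : ∀ i j, i ≠ j → lam i ≠ lam j ∧ lam i ≠ -lam j) (j : ι) :
    ∃ ξ : C → ℤ, lam j ⬝ᵥ ξ = 0 ∧ ∀ i, i ≠ j → lam i ⬝ᵥ ξ ≠ 0 := by
  classical
  obtain ⟨c, hc⟩ := hp j
  obtain ⟨ζ, hζ⟩ := exists_generic
    ((univ.erase j).image fun i => lam i - (lam i c * lam j c) • lam j) (by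
      intro μ hμ
      obtain ⟨i, hi, rfl⟩ := mem_image.1 hμ
      exact prim_reduce c hc (hp i) (hnp i j (ne_of_mem_erase hi)).1 (hnp i j (ne_of_mem_erase hi)).2)
  refine ⟨ζ - Pi.single c ((lam j ⬝ᵥ ζ) * lam j c), ?_, fun i hi => ?_⟩
  · rw [dotProduct_sub, dotProduct_single]
    rcases hc with h | h <;> rw [h] <;> ring
  · have := hζ _ (mem_image_of_mem _ (mem_erase.2 ⟨hi, mem_univ _⟩))
    rw [sub_dotProduct, smul_dotProduct, smul_eq_mul] at this
    rw [dotProduct_sub, dotProduct_single]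
    intro h; apply this; linear_combination h

set_option maxHeartbeats 1600000 in
theorem pack {C ι : Type} [Fintype C] [DecidableEq C] [Fintype ι] [DecidableEq ι] [Nonempty ι]
    (lam : ι → C → ℤ) (hp : ∀ i, Prim (lam i))
    (hnp : ∀ i j, i ≠ j → lam i ≠ lam j ∧ lam i ≠ -lam j) (β : C → ℤ) (hβ : ∀ i, 0 < lam i ⬝ᵥ β)
    (κ : ι → ℝ) (hκ : ∀ i, 0 < κ i) (η : ℝ) (hη : 0 < η) (J0 : ℕ) :
    ∃ J : ℕ, J0 ≤ J ∧ 0 < J ∧ ∃ (Θ : ℕ → C → ℝ) (Φ : TT → ℝ), Integrable Φ mT ∧ ∫ x, Φ x ∂mT ≤ η ∧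
      ∀ c : ι → Bool → ℂ, (∀ i s, ‖c i s‖ ^ 2 = κ i) → ∀ x,
        |‖∑ j ∈ range J, (∑ i, ∑ s, c i s * ee (sgn s * ∑ k, lam i k * Θ j k)) *
          fourier (-(j:ℤ)) x‖ ^ 2 / J - 2 * ∑ i, κ i| ≤ Φ x := by
  classical
  obtain ⟨i0⟩ := ‹Nonempty ι›
  set σ := 2 * ∑ i, κ i with hσ
  have hσ0 : 0 < σ := by
    have := single_le_sum (f := κ) (fun i _ => (hκ i).le) (mem_univ i0)
    linarith [hκ i0]
  let ρ : ι → ℕ := fun i => (lam i ⬝ᵥ β).toNat
  have hρ : ∀ i, lam i ⬝ᵥ β = ρ i := fun i => (Int.toNat_of_nonneg (hβ i).le).symm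
  have hρ0 : ∀ i, 0 < ρ i := fun i => by have := hβ i; rw [hρ] at this; exact_mod_cast this
  have hρR : ∀ i, (0:ℝ) < ρ i := fun i => by exact_mod_cast hρ0 i
  set L := ∏ i, ρ i with hLd
  have hL0 : 0 < L := prod_pos fun i _ => hρ0 i
  have hL : ∀ i, ρ i ∣ L := fun i => dvd_prod_of_mem _ (mem_univ i)
  choose ξ hξ0 hξ using exists_xi lam hp hnp
  set e := min (1 / 2) (η / (32 * σ)) with he
  have he0 : 0 < e := by positivity
  have he1 : e ≤ 1 / 2 := min_le_left _ _
  have he2 : e ≤ η / (32 * σ) := min_le_right _ _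
  obtain ⟨pi, cc, hcc, hpi0, hcop, hcopG, hpl, hpu⟩ := exists_moduli (fun i => ρ i / κ i)
    (fun i => div_pos (hρR i) (hκ i))
    (insert 2 ((univ : Finset ι).offDiag.image fun x => lam x.1 ⬝ᵥ ξ x.2)) (by
      intro g hg
      rcases mem_insert.1 hg with rfl | hg
      · norm_num
      · obtain ⟨x, hx, rfl⟩ := mem_image.1 hg
        exact hξ _ _ (mem_offDiag.1 hx).2.2) e he0
  have hpiR : ∀ i, (0:ℝ) < pi i := fun i => by exact_mod_cast hpi0 i
  let qq : ι → ℕ := fun i => ∏ j ∈ univ.erase i, pi j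
  set q := ∏ i, pi i with hqd
  have hq : ∀ i, pi i * qq i = q := fun i => mul_prod_erase _ _ (mem_univ i)
  have hq0 : 0 < q := prod_pos fun i _ => hpi0 i
  have hqq0 : ∀ i, 0 < qq i := fun i => prod_pos fun i _ => hpi0 i
  have hqqR : ∀ i, (0:ℝ) < qq i := fun i => by exact_mod_cast hqq0 i
  let mm : ι → ℤ := fun i => ∑ j ∈ univ.erase i, (lam i ⬝ᵥ ξ j) *
    ∏ k ∈ (univ.erase i).erase j, (pi k : ℤ)
  have hmm : ∀ i, (mm i : ℝ) / qq i = ∑ k, lam i k * ∑ j, (ξ j k : ℝ) / pi j := by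
    intro i
    have e1 : ∑ k, (lam i k : ℝ) * ∑ j, (ξ j k : ℝ) / pi j = ∑ j, ((lam i ⬝ᵥ ξ j : ℤ) : ℝ) / pi j := by
      simp only [mul_sum]; rw [sum_comm]
      refine sum_congr rfl fun j _ => ?_
      simp only [dotProduct]; push_cast; rw [sum_div]
      exact sum_congr rfl fun k _ => by ring
    rw [e1, ← add_sum_erase _ _ (mem_univ i), hξ0]
    simp only [mm]; push_cast; rw [sum_div, zero_div, zero_add]
    refine sum_congr rfl fun j hj => ?_
    have : (qq i : ℝ) = pi j * ∏ k ∈ (univ.erase i).erase j, (pi k : ℝ) := by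
      simp only [qq]; push_cast; exact (mul_prod_erase _ (fun k => (pi k : ℝ)) hj).symm
    have h2 : 0 < ∏ k ∈ (univ.erase i).erase j, (pi k : ℝ) := prod_pos fun k _ => hpiR k
    have := hpiR j
    rw [‹(qq i : ℝ) = _›]; field_simp
  have hmc : ∀ i s, IsCoprime (2 * (sgn s * mm i)) (qq i) := by
    intro i s
    simp only [qq]; push_cast
    refine IsCoprime.prod_right fun j hj => ?_
    refine IsCoprime.mul_left (hcopG j 2 (mem_insert_self _ _)).symm (IsCoprime.mul_left ?_ ?_)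
    · cases s <;> simp [sgn, isCoprime_one_left, IsCoprime.neg_left_iff]
    · simp only [mm]
      rw [← add_sum_erase _ _ hj]
      have hd : (pi j : ℤ) ∣ ∑ j' ∈ (univ.erase i).erase j, (lam i ⬝ᵥ ξ j') *
          ∏ k ∈ (univ.erase i).erase j', (pi k : ℤ) := by
        refine dvd_sum fun j' hj' => Dvd.dvd.mul_left ?_ _
        exact dvd_prod_of_mem (fun k => (pi k : ℤ)) (mem_erase.2 ⟨(ne_of_mem_erase hj').symm, hj⟩)
      obtain ⟨k, hk⟩ := hd
      rw [hk]
      refine IsCoprime.add_mul_left_left (IsCoprime.mul_left ?_ ?_) k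
      · exact (hcopG j _ (mem_insert_of_mem (mem_image.2 ⟨(i, j), mem_offDiag.2
          ⟨mem_univ _, mem_univ _, (ne_of_mem_erase hj).symm⟩, rfl⟩))).symm
      · exact IsCoprime.prod_left fun k hk => hcop k j (ne_of_mem_erase hk)
  choose g hg1 hg2 using fun i s => gauss (qq i) (hqq0 i) (sgn s * mm i) (hmc i s)
  obtain ⟨H, hH, N, A, ω, hN, hlab, hdiv, hinj⟩ := labelled lam hp hnp β ρ hρ hρ0 L hL0 hL pi qq q
    hq0 hq e he0
  set M := L * q * (2 * H) with hMd
  have hM0 : 0 < M := by positivity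
  have hMR : (0:ℝ) < M := by exact_mod_cast hM0
  have hMc : (L * q * (2 * H) : ℝ) = M := by rw [hMd]; push_cast; ring
  rw [hMc] at hN
  set K : ℝ := 2 * ∑ i, (ρ i * qq i : ℝ) with hK
  have hKle : K ≤ q * σ / cc := by
    rw [hK, hσ, le_div_iff₀ hcc, mul_assoc, sum_mul, mul_left_comm, mul_sum _ _ (q:ℝ)]
    refine mul_le_mul_of_nonneg_left (sum_le_sum fun i _ => ?_) (by norm_num)
    have h1 := hpl i
    have h2 : (q:ℝ) = pi i * qq i := by exact_mod_cast (hq i).symm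
    rw [← mul_div_assoc, div_le_iff₀ (hκ i)] at h1
    rw [h2]
    nlinarith [mul_le_mul_of_nonneg_right h1 (hqqR i).le]
  have hN0 : 0 < N := Nat.pos_of_ne_zero (fun h => by
    rw [h] at hN; simp only [Nat.cast_zero, zero_mul] at hN; nlinarith)
  have hNR : (0:ℝ) < N := by exact_mod_cast hN0
  let I := Fin N × (Σ i : ι, Bool × Fin (qq i))
  let rate : I → ℤ := fun l => sgn l.2.2.1 * ρ l.2.1
  let Yc : I → ℤ := fun l => sgn l.2.2.1 * (lam l.2.1 ⬝ᵥ A l.1) +
    L * (2 * H * (pi l.2.1 * ((l.2.2.2 : ℕ) : ℤ)))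
  let wt : I → ℝ := fun l => κ l.2.1 / (qq l.2.1 * N)
  have hwt0 : ∀ l, 0 < wt l := fun l => div_pos (hκ _) (mul_pos (hqqR _) hNR)
  have hsg : ∀ s, |sgn s| = 1 := fun s => by cases s <;> simp [sgn]
  have hrabs : ∀ l, |rate l| = ρ l.2.1 := fun l => by simp only [rate]; rw [abs_mul, hsg]; simp
  have hr0 : ∀ l, rate l ≠ 0 := fun l h => by
    have := hrabs l; rw [h] at this; have := hρ0 l.2.1; simp at *; omega
  have hrM : ∀ l, 2 * |rate l| ≤ M := fun l => by
    rw [hrabs]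
    have h1 : ρ l.2.1 ≤ L := Nat.le_of_dvd hL0 (hL _)
    have : 2 * ρ l.2.1 ≤ M := by
      rw [hMd]
      calc 2 * ρ l.2.1 = ρ l.2.1 * 1 * (2 * 1) := by ring
        _ ≤ _ := by gcongr <;> omega
    exact_mod_cast this
  have hsumwt : ∑ l, wt l = σ := by
    simp only [I, wt, Fintype.sum_prod_type, Fintype.sum_sigma, sum_const, card_univ,
      Fintype.card_prod, Fintype.card_fin, Fintype.card_bool, nsmul_eq_mul, hσ, mul_sum]
    refine sum_congr rfl fun i _ => ?_
    have := hqqR i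
    push_cast; field_simp
  let τ : I → TT → ℝ := fun l x => wt l * (M / |(rate l : ℝ)| * ind (arc M (rate l) (Yc l) x))
  have hτle : ∀ l x, τ l x ≤ σ * (1 + 4 * e) := by
    intro l x
    have h0 : |(rate l : ℝ)| = ρ l.2.1 := by exact_mod_cast hrabs l
    simp only [τ]; rw [h0]
    obtain ⟨b, i, s, a⟩ := l
    set l : I := (b, ⟨i, s, a⟩) with hl
    show wt l * (M / ρ i * _) ≤ _
    have h1 : wt l * (M / ρ i) ≤ σ * (1 + 4 * e) := by
      have a1 := hpu i
      have a2 : (q:ℝ) = pi i * qq i := by exact_mod_cast (hq i).symm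
      have a3 : (1 - e) * M ≤ N * (q * σ / cc) := hN.trans (by gcongr)
      have a4 : κ i * pi i ≤ (1 + e) * (cc * ρ i) := by
        have := mul_le_mul_of_nonneg_left a1 (hκ i).le
        refine this.trans (le_of_eq ?_)
        have := hκ i
        field_simp
      have a5 : wt l * (M / ρ i) = κ i * M / (qq i * N * ρ i) := by
        show κ i / (qq i * N) * (M / ρ i) = _
        have := hρR i; have := hqqR i; field_simp
      rw [a5, div_le_iff₀ (by have := hρR i; have := hqqR i; positivity)]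
      rw [a2, ← mul_div_assoc, le_div_iff₀ hcc] at a3
      have a6 : (1 - e) * (κ i * M) * cc ≤ (1 + e) * (σ * (qq i * N * ρ i)) * cc := by
        have b1 := mul_le_mul_of_nonneg_left a3 (hκ i).le
        have b2 := mul_le_mul_of_nonneg_left a4
          (by have := hqqR i; positivity : (0:ℝ) ≤ N * qq i * σ)
        nlinarith
      have a7 := le_of_mul_le_mul_right a6 hcc
      have a8 : 0 ≤ σ * (qq i * N * ρ i) := by have := hρR i; have := hqqR i; positivity
      have a9 : (1 + e) ≤ (1 - e) * (1 + 4 * e) := by nlinarith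
      refine le_of_mul_le_mul_left ?_ (by linarith : 0 < 1 - e)
      nlinarith [mul_le_mul_of_nonneg_right a9 a8]
    refine le_trans ?_ h1
    have := hρR i
    exact mul_le_mul_of_nonneg_left (mul_le_of_le_one_right (by positivity) (ind_le_one _))
      (hwt0 l).le
  have hdisj : ∀ x l l', l ≠ l' → τ l x = 0 ∨ τ l' x = 0 := by
    intro x l l' hne
    by_contra hcon
    push Not at hcon
    have a1 : arc M (rate l) (Yc l) x := by
      by_contra h; apply hcon.1; simp only [τ, ind_neg h, mul_zero]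
    have a2 : arc M (rate l') (Yc l') x := by
      by_contra h; apply hcon.2; simp only [τ, ind_neg h, mul_zero]
    obtain ⟨r, hr, d1⟩ := a1
    obtain ⟨r', hr', d2⟩ := a2
    have d3 : (M:ℤ) ∣ (Yc l + r) - (Yc l' + r') := by
      have := d2.sub d1; rwa [sub_sub_sub_cancel_left] at this
    obtain ⟨b, i, s, a⟩ := l
    obtain ⟨b', i', s', a'⟩ := l'
    have hLZ : (0:ℤ) < L := by exact_mod_cast hL0
    have l1 := line_label hH ω i (k := pi i * ((a : ℕ) : ℤ)) hLZ (Int.natCast_dvd_natCast.2 (hL i))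
      (hdiv b i) (hlab b i) s hr
    have l2 := line_label hH ω i' (k := pi i' * ((a' : ℕ) : ℤ)) hLZ
      (Int.natCast_dvd_natCast.2 (hL i')) (hdiv b' i') (hlab b' i') s' hr'
    simp only [Yc] at d3
    obtain ⟨k, hk⟩ := d3
    have hMZ : (M:ℤ) = L * q * (2 * H) := by rw [hMd]; push_cast; ring
    have d4 : (2 * H : ℤ) ∣ (sgn s * (lam i ⬝ᵥ A b) + L * (2 * H * (pi i * ((a : ℕ) : ℤ))) + r) / L -
        (sgn s' * (lam i' ⬝ᵥ A b') + L * (2 * H * (pi i' * ((a' : ℕ) : ℤ))) + r') / L := by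
      have : sgn s * (lam i ⬝ᵥ A b) + L * (2 * H * (pi i * ((a : ℕ) : ℤ))) + r =
          (sgn s' * (lam i' ⬝ᵥ A b') + L * (2 * H * (pi i' * ((a' : ℕ) : ℤ))) + r') +
            L * (2 * H * (q * k)) := by rw [hMZ] at hk; linear_combination hk
      rw [this, Int.add_mul_ediv_left _ _ hLZ.ne']
      exact ⟨q * k, by ring⟩
    rw [hx_congr hH d4, sg_congr d4, l2, Prod.mk.injEq] at l1
    obtain ⟨rfl, l3⟩ := l1
    have hs : s' = s := by
      cases s <;> cases s' <;> simp at l3 ⊢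
    subst hs
    obtain ⟨L', hL'⟩ := hL i'
    obtain ⟨y1, hy1⟩ := hdiv b i'
    obtain ⟨y2, hy2⟩ := hdiv b' i'
    have hL'Z : (L:ℤ) = ρ i' * L' := by exact_mod_cast hL'
    have hrr : r = r' := by
      have d5 : (ρ i' : ℤ) ∣ r - r' := ⟨L' * q * (2 * H) * k - sgn s' * (y1 - y2) -
        L' * (2 * H * (pi i' * (((a : ℕ) : ℤ) - ((a' : ℕ) : ℤ)))), by
          rw [hMZ, hy1, hy2, hL'Z] at hk; linear_combination hk⟩
      simp only [rate, run, mem_Ico] at hr hr'
      have d6 : |r - r'| < ρ i' := by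
        rw [abs_lt]; cases s' <;> simp only [sgn] at hr hr' <;> simp at hr hr' <;> omega
      exact sub_eq_zero.1 (Int.eq_zero_of_abs_lt_dvd d5 d6)
    subst hrr
    have hqZ : (q:ℤ) = pi i' * qq i' := by exact_mod_cast (hq i').symm
    have hbb : b = b' := by
      refine hinj b b' i' ⟨sgn s' * (qq i' * k - (((a : ℕ) : ℤ) - ((a' : ℕ) : ℤ))), ?_⟩
      rw [hMZ, hqZ] at hk
      have : sgn s' * sgn s' = 1 := by cases s' <;> simp [sgn]
      linear_combination sgn s' * hk - (lam i' ⬝ᵥ A b - lam i' ⬝ᵥ A b') * this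
    subst hbb
    have haa : a = a' := by
      have d5 : (qq i' : ℤ) ∣ ((a : ℕ) : ℤ) - ((a' : ℕ) : ℤ) := ⟨k, by
        rw [hMZ, hqZ] at hk
        have h0 : (L * (2 * H) * pi i' : ℤ) ≠ 0 := by have := hpi0 i'; positivity
        apply mul_left_cancel₀ h0; linear_combination hk⟩
      have d6 : |((a : ℕ) : ℤ) - ((a' : ℕ) : ℤ)| < qq i' := by
        have := a.2; have := a'.2; rw [abs_lt]; omega
      have := sub_eq_zero.1 (Int.eq_zero_of_abs_lt_dvd d5 d6)
      exact Fin.ext (by exact_mod_cast this)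
    subst haa
    exact hne rfl
  let gg : ℕ → I → TT → ℝ := fun B l x =>
    wt l * (‖chirp (rate l) M B (x - ((Yc l / M : ℝ) : TT))‖ ^ 2 / B)
  have hggc : ∀ B l, Continuous (gg B l) := fun B l => by
    have := continuous_chirp (rate l) M B
    simp only [gg]; fun_prop
  have hτi : ∀ l, Integrable (τ l) mT := fun l =>
    Integrable.of_bound (((measurable_arc _ _ _).const_mul _).const_mul _).aestronglyMeasurable
      (σ * (1 + 4 * e)) (ae_of_all _ fun x => by
        rw [Real.norm_eq_abs, abs_of_nonneg (mul_nonneg (hwt0 l).le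
          (mul_nonneg (by positivity) (ind_nonneg _)))]
        exact hτle l x)
  have hlim : Tendsto (fun B : ℕ => ∑ l, ∫ x, |gg B l x - τ l x| ∂mT) atTop (𝓝 0) := by
    have : (0:ℝ) = ∑ l : I, wt l * 0 := by simp
    rw [this]
    refine tendsto_finsetSum _ fun l _ => ?_
    refine ((chirp_tendsto (rate l) (hr0 l) M (hrM l)).const_mul (wt l)).congr fun B => ?_
    rw [← integral_const_mul, ← integral_sub_right_eq_self _ ((Yc l / M : ℝ) : TT)]
    refine integral_congr_ae (ae_of_all _ fun x => ?_)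
    simp only [gg, τ]
    rw [← mul_sub, abs_mul, abs_of_pos (hwt0 l), ind_congr (arc_shift hM0 _ _ _)]
  set n : ℝ := (Fintype.card I : ℝ) with hn
  have hn0 : 0 ≤ n := by positivity
  set ε := η / (8 * (n + 1) * σ) with hε
  have hε0 : 0 < ε := by positivity
  obtain ⟨B, hB1, hB2, hB3⟩ := ((hlim.eventually (gt_mem_nhds (show (0:ℝ) <
    η / 2 / (2 + n / (2 * ε)) by positivity))).and ((eventually_ge_atTop J0).and
      (eventually_gt_atTop 0))).exists
  have hBR : (0:ℝ) < B := by exact_mod_cast hB3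
  let A' : ℕ → C → ℤ := fun b => if h : b < N then A ⟨b, h⟩ else 0
  refine ⟨N * B, hB2.trans (Nat.le_mul_of_pos_left _ hN0), by positivity,
    fun j k => ((j % B : ℕ) : ℝ) ^ 2 * (∑ j', (ξ j' k : ℝ) / pi j') +
      A' (j / B) k * ((j % B : ℕ) : ℝ) / M + β k * ((j % B : ℕ) : ℝ) ^ 2 / (2 * M * B),
    fun x => (2 + n / (2 * ε)) * ∑ l, |gg B l x - τ l x| + (2 * (σ * (1 + 4 * e) - σ) + σ) +
      (2 * n * ε - 1) * ∑ l, gg B l x, ?_, ?_, ?_⟩
  · exact (((integrable_finsetSum _ fun l _ => ((cont_int (hggc B l)).sub (hτi l)).abs).const_mul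
      _).add (integrable_const _)).add
      ((integrable_finsetSum _ fun l _ => cont_int (hggc B l)).const_mul _)
  · have i0 : ∀ l, Integrable (fun x => |gg B l x - τ l x|) mT := fun l =>
      ((cont_int (hggc B l)).sub (hτi l)).abs
    have i1 : Integrable (fun x => (2 + n / (2 * ε)) * ∑ l, |gg B l x - τ l x|) mT :=
      (integrable_finsetSum _ fun l _ => i0 l).const_mul _
    have i2 : Integrable (fun x => (2 + n / (2 * ε)) * ∑ l, |gg B l x - τ l x| +
      (2 * (σ * (1 + 4 * e) - σ) + σ)) mT := i1.add (integrable_const _)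
    have i3 : Integrable (fun x => (2 * n * ε - 1) * ∑ l, gg B l x) mT :=
      (integrable_finsetSum _ fun l _ => cont_int (hggc B l)).const_mul _
    rw [integral_add i2 i3, integral_add i1 (integrable_const _),
      integral_const_mul, integral_const_mul, integral_finsetSum _ fun l _ => i0 l,
      integral_finsetSum _ fun l _ => cont_int (hggc B l)]
    have h1 : ∑ l, ∫ x, gg B l x ∂mT = σ := by
      rw [← hsumwt]
      refine sum_congr rfl fun l _ => ?_
      simp only [gg]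
      rw [integral_const_mul, integral_div, integral_sub_right_eq_self
        (fun x => ‖chirp (rate l) M B x‖ ^ 2), int_chirp, div_self hBR.ne', mul_one]
    simp only [Pi.sub_apply, integral_const, probReal_univ, one_smul]
    rw [h1]
    rw [lt_div_iff₀ (by positivity)] at hB1
    have h2 : 8 * e * σ ≤ η / 4 := by
      rw [le_div_iff₀ (by positivity)] at he2; linarith
    have h3 : 2 * n * ε * σ ≤ η / 4 := by
      have : 2 * (n + 1) * ε * σ = η / 4 := by rw [hε]; field_simp; ring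
      nlinarith [mul_pos hε0 hσ0]
    nlinarith
  · intro c hc x
    have hJ : (0:ℝ) < N * B := by positivity
    let z : I → ℂ := fun l => ((Real.sqrt (N * B) : ℝ) : ℂ)⁻¹ * (c l.2.1 l.2.2.1 *
      g l.2.1 l.2.2.1 l.2.2.2 * fourier (-(((l.1 : ℕ) : ℤ) * B)) x *
        chirp (rate l) M B (x - ((Yc l / M : ℝ) : TT)))
    have hz : ∀ l, ‖z l‖ ^ 2 = gg B l x := by
      intro l
      simp only [z, gg, wt, norm_mul, norm_inv, Complex.norm_real, mul_pow, norm_fourier, hc, hg1,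
        inv_pow, Real.norm_eq_abs, sq_abs, Real.sq_sqrt hJ.le]
      have := hqqR l.2.1
      field_simp
    have h1 := combine z (fun l => τ l x) σ (σ * (1 + 4 * e)) ε hε0 (by nlinarith) (by positivity)
      (fun l => hτle l x) (hdisj x)
    simp only [hz] at h1
    refine le_trans (le_of_eq ?_) h1
    congr 2
    simp only [z]
    rw [← mul_sum, norm_mul, mul_pow, norm_inv, Complex.norm_real, inv_pow, Real.norm_eq_abs, sq_abs,
      Real.sq_sqrt hJ.le, Nat.cast_mul N B, div_eq_inv_mul]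
    congr 3
    rw [sum_range_mul', sum_range, Fintype.sum_prod_type]
    refine sum_congr rfl fun b _ => ?_
    simp only [Fintype.sum_sigma, Fintype.sum_prod_type, sum_mul, chirp, mul_sum]
    rw [sum_comm]
    refine sum_congr rfl fun i _ => ?_
    rw [sum_comm]
    refine sum_congr rfl fun s _ => ?_
    rw [sum_comm]
    refine sum_congr rfl fun m hm => ?_
    have hmB := mem_range.1 hm
    have e1 : ((b:ℕ) * B + m) % B = m := by
      rw [Nat.mul_add_mod_of_lt hmB]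
    have e2 : ((b:ℕ) * B + m) / B = b := by
      rw [add_comm, Nat.add_mul_div_right _ _ hB3, Nat.div_eq_of_lt hmB, zero_add]
    have e3 : A' b = A b := by simp [A', b.2]
    simp only [e1, e2, e3]
    have e4 : ∑ k, (sgn s : ℝ) * (lam i k * (∑ j', (m:ℝ) ^ 2 * ((ξ j' k : ℝ) / pi j') +
        A b k * (m:ℝ) / M + β k * (m:ℝ) ^ 2 / (2 * M * B))) =
        ((sgn s * mm i : ℤ) : ℝ) * (m:ℝ) ^ 2 / qq i + (sgn s * ((lam i ⬝ᵥ A b : ℤ) : ℝ) * m / M +
          ((sgn s * ρ i : ℤ) : ℝ) * (m:ℝ) ^ 2 / (2 * M * B)) := by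
      have f1 : ((sgn s * mm i : ℤ) : ℝ) * (m:ℝ) ^ 2 / qq i =
          sgn s * (m:ℝ) ^ 2 * ((mm i : ℝ) / qq i) := by push_cast; ring
      rw [f1, hmm, ← hρ]
      simp only [dotProduct]; push_cast
      simp only [mul_sum, sum_mul, sum_div, ← sum_add_distrib]
      refine sum_congr rfl fun k _ => ?_
      simp only [mul_add, mul_sum]
      rw [add_assoc]
      congr 1
      · exact sum_congr rfl fun j' _ => by ring
      · ring
    rw [e4, ee_add, hg2, sum_mul, mul_sum, sum_mul]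
    refine sum_congr rfl fun a _ => ?_
    have e5 : fourier (-(m:ℤ)) (x - ((Yc (b, ⟨i, s, a⟩) / M : ℝ) : TT)) =
        fourier (-(m:ℤ)) x * (ee ((a:ℕ) * (m:ℝ) / qq i) *
          ee (sgn s * ((lam i ⬝ᵥ A b : ℤ) : ℝ) * m / M)) := by
      rw [sub_eq_add_neg, fourier_add_arg, ← AddCircle.coe_neg, fourier_coe, ← ee_add]
      congr 2
      have f2 : (M:ℝ) = L * (2 * H * pi i) * qq i := by
        have : (q:ℝ) = pi i * qq i := by exact_mod_cast (hq i).symm
        rw [← hMc, this]; ring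
      have := hqqR i
      simp only [Yc]; push_cast
      field_simp
      rw [f2]; ring
    have e6 : (-(((b:ℕ) * B + m : ℕ) : ℤ)) = -(((b:ℕ):ℤ) * B) + -(m:ℤ) := by push_cast; ring
    rw [e5, e6, fourier_add, ee_add]
    simp only [rate]; ring

end Vale.Agent.P130
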