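import Mathlib

namespace Vale.Agent.P130

open Finset

section Prob
variable {I A : Type*} [Fintype I] [DecidableEq I] [Fintype A]

/-- product weight -/
noncomputable def PW (p : I → A → ℝ) (ω : I → A) : ℝ := ∏ i, p i (ω i)

lemma PW_nonneg {p : I → A → ℝ} (hp : ∀ i a, 0 ≤ p i a) (ω : I → A) : 0 ≤ PW p ω :=
  prod_nonneg fun i _ => hp i _

lemma sum_PW_prod (p φ : I → A → ℝ) :
    ∑ ω : I → A, PW p ω * ∏ i, φ i (ω i) = ∏ i, ∑ a, p i a * φ i a := by
  rw [Finset.prod_univ_sum, Fintype.piFinset_univ]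
  refine sum_congr rfl fun ω _ => ?_
  rw [PW, ← prod_mul_distrib]

lemma sum_PW {p : I → A → ℝ} (hp : ∀ i, ∑ a, p i a = 1) : ∑ ω : I → A, PW p ω = 1 := by
  have := sum_PW_prod p (fun _ _ => 1)
  simpa [hp] using this

open Classical in
lemma prob_set {p : I → A → ℝ} (hp : ∀ i, ∑ a, p i a = 1) (T : Finset I) (val : I → A) :
    ∑ ω : I → A, PW p ω * (if ∀ i ∈ T, ω i = val i then 1 else 0) = ∏ i ∈ T, p i (val i) := by
  have h := sum_PW_prod p (fun i a => if i ∈ T then (if a = val i then 1 else 0) else 1)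
  have h1 : ∀ ω : I → A, (∏ i, if i ∈ T then (if ω i = val i then (1:ℝ) else 0) else 1) =
      (if ∀ i ∈ T, ω i = val i then 1 else 0) := by
    intro ω
    split_ifs with h
    · exact prod_eq_one fun i _ => by
        by_cases hi : i ∈ T
        · simp [hi, h i hi]
        · simp [hi]
    · push Not at h
      obtain ⟨i, hi, hne⟩ := h
      exact prod_eq_zero (mem_univ i) (by simp [hi, hne])
  simp_rw [h1] at h
  rw [h, ← Finset.prod_ite_mem_eq T (fun i => p i (val i))]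
  refine prod_congr rfl fun i _ => ?_
  by_cases hi : i ∈ T
  · simp [hi]
  · simp [hi, hp i]

open Classical in
lemma prob_inj {σ : Type*} {p : I → A → ℝ} (hp : ∀ i, ∑ a, p i a = 1) (S : Finset σ)
    (idx : σ → I) (hinj : Set.InjOn idx S) (val : σ → A) (a0 : A) :
    ∑ ω : I → A, PW p ω * (if ∀ s ∈ S, ω (idx s) = val s then 1 else 0) =
      ∏ s ∈ S, p (idx s) (val s) := by
  let val' : I → A := fun i => if h : ∃ s ∈ S, idx s = i then val h.choose else a0
  have hv : ∀ s ∈ S, val' (idx s) = val s := by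
    intro s hs
    have h : ∃ s' ∈ S, idx s' = idx s := ⟨s, hs, rfl⟩
    simp only [val', dif_pos h]
    congr 1
    exact hinj h.choose_spec.1 hs h.choose_spec.2
  have h := prob_set hp (S.image idx) val'
  rw [prod_image hinj] at h
  have h2 : ∏ x ∈ S, p (idx x) (val' (idx x)) = ∏ s ∈ S, p (idx s) (val s) :=
    prod_congr rfl (fun s hs => by rw [hv s hs])
  rw [← h2, ← h]
  refine sum_congr rfl fun ω _ => ?_
  congr 1
  refine if_congr ?_ rfl rfl
  constructor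
  · intro h i hi
    obtain ⟨s, hs, rfl⟩ := mem_image.1 hi
    rw [h s hs, hv s hs]
  · intro h s hs
    rw [h _ (mem_image_of_mem _ hs), hv s hs]

end Prob

lemma exists_ge_avg {Ω : Type*} [Fintype Ω] {P : Ω → ℝ} (h0 : ∀ ω, 0 ≤ P ω) (h1 : ∑ ω, P ω = 1)
    (X : Ω → ℝ) : ∃ ω, ∑ ω', P ω' * X ω' ≤ X ω := by
  have hne : (univ : Finset Ω).Nonempty := by
    by_contra h
    rw [not_nonempty_iff_eq_empty] at h
    rw [h] at h1; simp at h1
  obtain ⟨ω, -, hω⟩ := exists_max_image univ X hne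
  refine ⟨ω, ?_⟩
  calc ∑ ω', P ω' * X ω' ≤ ∑ ω', P ω' * X ω :=
        sum_le_sum fun ω' _ => mul_le_mul_of_nonneg_left (hω ω' (mem_univ _)) (h0 _)
    _ = X ω := by rw [← sum_mul, h1, one_mul]

lemma one_sub_sum_le_prod {I : Type*} (s : Finset I) (r : I → ℝ) (h0 : ∀ i, 0 ≤ r i)
    (h1 : ∀ i, r i ≤ 1) : 1 - ∑ i ∈ s, r i ≤ ∏ i ∈ s, (1 - r i) := by
  classical
  induction s using Finset.induction_on with
  | empty => simp
  | insert a s ha ih =>
    rw [sum_insert ha, prod_insert ha]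
    have hs : 0 ≤ ∑ i ∈ s, r i := sum_nonneg fun i _ => h0 i
    have := mul_le_mul_of_nonneg_left ih (sub_nonneg.2 (h1 a))
    nlinarith [h0 a]

lemma sum_biUnion_le_sum_sum {I Y : Type*} [DecidableEq I] (X : Finset Y) (N : Y → Finset I)
    (r : I → ℝ) (h0 : ∀ i, 0 ≤ r i) : ∑ i ∈ X.biUnion N, r i ≤ ∑ y ∈ X, ∑ i ∈ N y, r i := by
  classical
  induction X using Finset.induction_on with
  | empty => simp
  | insert y X hy ih =>
    rw [sum_insert hy, biUnion_insert]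
    have h := sum_union_inter (s₁ := N y) (s₂ := X.biUnion N) (f := r)
    have hi : 0 ≤ ∑ i ∈ N y ∩ X.biUnion N, r i := sum_nonneg fun i _ => h0 i
    linarith

lemma prod_biUnion_ge {I Y : Type*} [DecidableEq I] (X : Finset Y) (N : Y → Finset I)
    (a : I → ℝ) (h0 : ∀ i, 0 ≤ a i) (h1 : ∀ i, a i ≤ 1) :
    ∏ y ∈ X, ∏ i ∈ N y, a i ≤ ∏ i ∈ X.biUnion N, a i := by
  classical
  induction X using Finset.induction_on with
  | empty => simp
  | insert y X hy ih =>
    rw [prod_insert hy, biUnion_insert]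
    have h := prod_union_inter (s₁ := N y) (s₂ := X.biUnion N) (f := a)
    have hi : ∏ i ∈ N y ∩ X.biUnion N, a i ≤ 1 := prod_le_one (fun i _ => h0 i) (fun i _ => h1 i)
    have hu : 0 ≤ ∏ i ∈ N y ∪ X.biUnion N, a i := prod_nonneg fun i _ => h0 i
    calc (∏ i ∈ N y, a i) * ∏ y ∈ X, ∏ i ∈ N y, a i ≤ (∏ i ∈ N y, a i) * ∏ i ∈ X.biUnion N, a i :=
          mul_le_mul_of_nonneg_left ih (prod_nonneg fun i _ => h0 i)
      _ = _ := h.symm
      _ ≤ _ := by nlinarith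

lemma prod_biUnion_le {I Y : Type*} [DecidableEq I] (X : Finset Y) (N : Y → Finset I)
    (r : I → ℝ) (h0 : ∀ i, 0 ≤ r i) (h1 : ∀ i, r i ≤ 1) (m δ : ℝ) (hδ : 0 ≤ δ) (hm : m * δ ≤ 1)
    (hX : (X.card : ℝ) ≤ m)
    (hp : ∀ y ∈ X, ∀ y' ∈ X, y ≠ y' → ∑ i ∈ N y ∩ N y', r i ≤ δ) :
    (1 - m * δ) ^ X.card * ∏ i ∈ X.biUnion N, (1 - r i) ≤ ∏ y ∈ X, ∏ i ∈ N y, (1 - r i) := by
  classical
  induction X using Finset.induction_on with
  | empty => simp
  | insert y X hy ih =>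
    rw [card_insert_of_notMem hy] at hX ⊢
    push_cast at hX
    have ih' := ih (by linarith) (fun a ha b hb hab =>
      hp a (mem_insert_of_mem ha) b (mem_insert_of_mem hb) hab)
    rw [prod_insert hy, biUnion_insert]
    have h := prod_union_inter (s₁ := N y) (s₂ := X.biUnion N) (f := fun i => 1 - r i)
    have hs : ∑ i ∈ N y ∩ X.biUnion N, r i ≤ m * δ := by
      have e : N y ∩ X.biUnion N = X.biUnion (fun y' => N y ∩ N y') := by
        ext i; simp only [mem_inter, mem_biUnion]; tauto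
      rw [e]
      calc _ ≤ ∑ y' ∈ X, ∑ i ∈ N y ∩ N y', r i := sum_biUnion_le_sum_sum X _ r h0
        _ ≤ ∑ y' ∈ X, δ := sum_le_sum fun y' hy' =>
            hp y (mem_insert_self _ _) y' (mem_insert_of_mem hy') (fun e => hy (e ▸ hy'))
        _ = X.card * δ := by simp
        _ ≤ m * δ := mul_le_mul_of_nonneg_right (by linarith) hδ
    have hi : 1 - m * δ ≤ ∏ i ∈ N y ∩ X.biUnion N, (1 - r i) :=
      le_trans (by linarith) (one_sub_sum_le_prod _ r h0 h1)
    have hu : 0 ≤ ∏ i ∈ N y ∪ X.biUnion N, (1 - r i) := prod_nonneg fun i _ => sub_nonneg.2 (h1 i)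
    have hpow : 0 ≤ (1 - m * δ) ^ X.card := pow_nonneg (by linarith) _
    have hN : 0 ≤ ∏ i ∈ N y, (1 - r i) := prod_nonneg fun i _ => sub_nonneg.2 (h1 i)
    calc (1 - m * δ) ^ (X.card + 1) * ∏ i ∈ N y ∪ X.biUnion N, (1 - r i)
        = (1 - m * δ) ^ X.card * ((∏ i ∈ N y ∪ X.biUnion N, (1 - r i)) * (1 - m * δ)) := by ring
      _ ≤ (1 - m * δ) ^ X.card * ((∏ i ∈ N y ∪ X.biUnion N, (1 - r i)) *
            ∏ i ∈ N y ∩ X.biUnion N, (1 - r i)) :=
          mul_le_mul_of_nonneg_left (mul_le_mul_of_nonneg_left hi hu) hpow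
      _ = (∏ i ∈ N y, (1 - r i)) * ((1 - m * δ) ^ X.card * ∏ i ∈ X.biUnion N, (1 - r i)) := by
          rw [h]; ring
      _ ≤ _ := mul_le_mul_of_nonneg_left ih' hN

end Vale.Agent.P130
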