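import Vale.Agent.P130.Key

namespace Vale.Agent.P130

open Finset MeasureTheory Filter Topology
open scoped Real ComplexConjugate

/-- parameters of a rank one construction -/
structure RK where
  J : ℕ → ℕ
  U : ℕ → ℕ
  h : ℕ → ℕ
  u : ℕ → ℕ → ℕ
  hu : ∀ n j, u n j ≤ U n
  hJ : ∀ n, 2 ≤ J n
  h0 : 0 < h 0
  hh : ∀ n, h (n + 1) = J n * (h n + U n)
  big : ∀ n, 2 ^ (n + 1) * U (n + 1) ≤ h (n + 1)

/-- the configuration space -/
abbrev XX := ℕ × ℤ → Bool

/-- the shift -/
def sh (m : ℤ) (x : XX) : XX := fun p => x (p.1, p.2 + m)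

/-- coordinate indicators -/
def vv (n : ℕ) (k : ℤ) (x : XX) : ℝ := if x (n, k) then 1 else 0

lemma continuous_vv (n : ℕ) (k : ℤ) : Continuous (vv n k) :=
  (continuous_of_discreteTopology (f := fun b : Bool => if b then (1:ℝ) else 0)).comp
    (continuous_apply (n, k))

lemma continuous_sh (m : ℤ) : Continuous (sh m) :=
  continuous_pi fun p => continuous_apply (p.1, p.2 + m)

lemma vv_sh (n : ℕ) (k m : ℤ) (x : XX) : vv n k (sh m x) = vv n (k + m) x := rfl

lemma sh_sh (a b : ℤ) (x : XX) : sh a (sh b x) = sh (a + b) x := by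
  funext p; simp only [sh, add_assoc]

lemma sh_zero (x : XX) : sh 0 x = x := by funext p; simp [sh]

lemma vv_01 (n : ℕ) (k : ℤ) (x : XX) : vv n k x = 0 ∨ vv n k x = 1 := by
  unfold vv; split_ifs <;> simp

lemma cont_intX {E : Type*} [NormedAddCommGroup E] {μ : Measure XX} [IsFiniteMeasure μ]
    {f : XX → E} (hf : Continuous f) : Integrable f μ :=
  hf.integrable_of_hasCompactSupport (HasCompactSupport.of_compactSpace _)

namespace RK
variable (r : RK)

/-- position of the copy number `j` of the tower `n` in the next tower -/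
def pos (n j : ℕ) : ℕ := j * (r.h n + r.U n) + r.u n j

lemma hpos (n : ℕ) : 0 < r.h n := by
  induction n with
  | zero => exact r.h0
  | succ n ih => rw [r.hh]; have := r.hJ n; positivity

lemma hge (n : ℕ) : n < r.h n := by
  induction n with
  | zero => exact r.h0
  | succ n ih => rw [r.hh]; have := r.hJ n; nlinarith

lemma pos_le {n j : ℕ} (hj : j < r.J n) : r.pos n j + r.h n ≤ r.h (n + 1) := by
  rw [r.hh, pos]
  have := r.hu n j
  nlinarith

lemma pos_lt {n j j' : ℕ} (hj : j < j') : r.pos n j + r.h n ≤ r.pos n j' := by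
  simp only [pos]
  have := r.hu n j
  nlinarith

lemma pos_sep {n j j' : ℕ} (hj : j ≠ j') : (r.h n : ℤ) ≤ |(r.pos n j : ℤ) - r.pos n j'| := by
  rcases lt_or_gt_of_ne hj with h | h
  · have := r.pos_lt (n := n) h; rw [le_abs]; omega
  · have := r.pos_lt (n := n) h; rw [le_abs]; omega

/-- each base is the union of the copies of the next base -/
def A (x : XX) (n : ℕ) : Prop :=
  ∀ k, vv n k x = ∑ j ∈ range (r.J n), vv (n + 1) (k - r.pos n j) x

/-- the levels of a tower are disjoint -/
def B (x : XX) (n : ℕ) : Prop :=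
  ∀ k k' : ℤ, k ≠ k' → |k - k'| < (r.h n : ℤ) → vv n k x * vv n k' x = 0

/-- periodic configurations -/
def Z (H : ℕ) : ℕ → ℕ → ℤ → Prop
  | 0, _, k => (H:ℤ) ∣ k
  | m + 1, n, k => ∃ j < r.J n, Z H m (n + 1) (k - r.pos n j)

lemma Z_per (H m n : ℕ) (k : ℤ) : r.Z H m n (k + H) ↔ r.Z H m n k := by
  induction m generalizing n k with
  | zero => simp [Z]
  | succ m ih => simp only [Z, add_sub_right_comm, ih]

lemma Z_sep (m n : ℕ) (k k' : ℤ) (h1 : r.Z (r.h (n + m)) m n k) (h2 : r.Z (r.h (n + m)) m n k') :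
    k = k' ∨ (r.h n : ℤ) ≤ |k - k'| := by
  induction m generalizing n k k' with
  | zero =>
    by_contra h
    push Not at h
    exact h.1 (sub_eq_zero.1 (Int.eq_zero_of_abs_lt_dvd (Int.dvd_sub h1 h2) h.2))
  | succ m ih =>
    obtain ⟨j, hj, a1⟩ := h1
    obtain ⟨j', hj', a2⟩ := h2
    rw [show n + (m + 1) = n + 1 + m by ring] at a1 a2
    have b1 := r.pos_le hj
    have b2 := r.pos_le hj'
    rcases ih _ _ _ a1 a2 with h | h
    · by_cases hjj : j = j'
      · left; rw [hjj] at h; omega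
      · right
        have := r.pos_sep (n := n) hjj
        rwa [show k - k' = (r.pos n j : ℤ) - r.pos n j' by omega]
    · right; rw [le_abs] at h ⊢; omega

lemma Z_split (m n : ℕ) (k : ℤ) : ind (r.Z (r.h (n + (m + 1))) (m + 1) n k) =
    ∑ j ∈ range (r.J n), ind (r.Z (r.h (n + (m + 1))) m (n + 1) (k - r.pos n j)) := by
  by_cases h : r.Z (r.h (n + (m + 1))) (m + 1) n k
  · rw [ind_pos h]
    obtain ⟨j, hj, a1⟩ := h
    rw [sum_eq_single_of_mem j (mem_range.2 hj), ind_pos a1]
    intro j' hj' hne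
    refine ind_neg fun a2 => ?_
    rw [show n + (m + 1) = n + 1 + m by ring] at a1 a2
    have b1 := r.pos_le hj
    have b2 := r.pos_le (mem_range.1 hj')
    have b3 := r.pos_sep (n := n) hne
    have b4 := r.hpos n
    rcases r.Z_sep _ _ _ _ a1 a2 with h | h
    · rw [le_abs] at b3; omega
    · rw [le_abs] at h; omega
  · rw [ind_neg h, sum_eq_zero]
    intro j hj
    exact ind_neg fun a => h ⟨j, mem_range.1 hj, a⟩

lemma Z_count (m n : ℕ) (k : ℤ) : ∑ i ∈ range (r.h (n + m)), ind (r.Z (r.h (n + m)) m n (k + i)) =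
    ∏ t ∈ range m, (r.J (n + t) : ℝ) := by
  induction m generalizing n k with
  | zero =>
    have h0 : (0:ℤ) < r.h n := by exact_mod_cast r.hpos n
    have h1 := Int.emod_nonneg (-k) h0.ne'
    have h2 := Int.emod_lt_of_pos (-k) h0
    have h3 : (r.h n : ℤ) ∣ k + ((-k) % r.h n).toNat := by
      rw [Int.toNat_of_nonneg h1, Int.emod_def]; exact ⟨-(-k / r.h n), by ring⟩
    simp only [add_zero, Z, range_zero, prod_empty]
    rw [sum_eq_single_of_mem ((-k) % r.h n).toNat (mem_range.2 (by omega)), ind_pos h3]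
    intro i hi hne
    refine ind_neg fun h => hne ?_
    have := Int.eq_zero_of_abs_lt_dvd (Int.dvd_sub h h3) (by
      have := mem_range.1 hi; rw [abs_lt]; omega)
    omega
  | succ m ih =>
    simp only [Z_split]
    rw [sum_comm, prod_range_succ', show n + (m + 1) = n + 1 + m by ring]
    simp only [add_sub_right_comm, ih, sum_const, card_range, nsmul_eq_mul, add_zero]
    rw [mul_comm]
    congr 1
    exact prod_congr rfl fun t _ => by rw [show n + 1 + t = n + (t + 1) by ring]

lemma ratio (m n : ℕ) : (r.h (n + 1 + m) : ℝ) * (1 - (1 / 2) ^ n + (1 / 2) ^ (n + m)) ≤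
    r.h (n + 1) * ∏ t ∈ range m, (r.J (n + 1 + t) : ℝ) := by
  induction m with
  | zero => simp
  | succ m ih =>
    rw [prod_range_succ, ← mul_assoc, ← add_assoc, r.hh]
    push_cast
    rw [mul_assoc, mul_comm]
    refine mul_le_mul_of_nonneg_right (le_trans ?_ ih) (by positivity)
    have h1 : (2:ℝ) ^ (n + m + 1) * r.U (n + 1 + m) ≤ r.h (n + 1 + m) := by
      have := r.big (n + m)
      rw [show n + m + 1 = n + 1 + m by ring] at this ⊢
      exact_mod_cast this
    set e : ℝ := (1 / 2) ^ (n + (m + 1)) with he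
    have h2 : (1 / 2 : ℝ) ^ (n + m) = 2 * e := by rw [he, ← add_assoc, pow_succ]; ring
    have h3 : e * 2 ^ (n + m + 1) = 1 := by rw [he, ← add_assoc, ← mul_pow]; norm_num
    have h4 : 0 < e := by positivity
    have h5 : (r.U (n + 1 + m) : ℝ) ≤ e * r.h (n + 1 + m) := by
      have := mul_le_mul_of_nonneg_left h1 h4.le
      rwa [← mul_assoc, h3, one_mul] at this
    have h6 : e ≤ (1 / 2) ^ n := pow_le_pow_of_le_one (by norm_num) (by norm_num) (by omega)
    have h7 : (0:ℝ) ≤ r.U (n + 1 + m) := by positivity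
    rw [h2]
    nlinarith

open Classical in
/-- the periodic point of level `N` -/
noncomputable def zz (N : ℕ) : XX := fun p => decide (r.Z (r.h N) (N - p.1) p.1 p.2)

lemma vv_zz (N n : ℕ) (k : ℤ) : vv n k (r.zz N) = ind (r.Z (r.h N) (N - n) n k) := by
  by_cases h : r.Z (r.h N) (N - n) n k
  · rw [ind_pos h]; simp [vv, zz, h]
  · rw [ind_neg h]; simp [vv, zz, h]

theorem exists_measure : ∃ μ : Measure XX, IsProbabilityMeasure μ ∧ MeasurePreserving (sh 1) μ μ ∧
    (∀ᵐ x ∂μ, ∀ n, r.A x n ∧ r.B x n) ∧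
      ∀ n, 1 - (1 / 2) ^ n ≤ r.h (n + 1) * ∫ x, vv (n + 1) 0 x ∂μ := by
  have hR : ∀ N, (0:ℝ) < r.h N := fun N => by exact_mod_cast r.hpos N
  let ν : ℕ → ProbabilityMeasure XX := fun N =>
    ⟨(r.h N : ENNReal)⁻¹ • ∑ i ∈ range (r.h N), Measure.dirac (sh i (r.zz N)), ⟨by
      simp only [Measure.smul_apply, Measure.coe_finsetSum, Finset.sum_apply, measure_univ,
        sum_const, card_range, nsmul_eq_mul, mul_one, smul_eq_mul]
      exact ENNReal.inv_mul_cancel (by exact_mod_cast (r.hpos N).ne') (by simp)⟩⟩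
  let F : Ultrafilter ℕ := Ultrafilter.of atTop
  have hF : (F : Filter ℕ) ≤ atTop := Ultrafilter.of_le _
  obtain ⟨μ, -, hμ⟩ := isCompact_univ.ultrafilter_le_nhds (F.map ν) (by simp)
  have hμ' : Tendsto ν F (𝓝 μ) := hμ
  have hlim : ∀ f : XX → ℝ, Continuous f → Tendsto (fun N => (∑ i ∈ range (r.h N),
      f (sh i (r.zz N))) / r.h N) F (𝓝 (∫ x, f x ∂(μ : Measure XX))) := by
    intro f hf
    have := ProbabilityMeasure.tendsto_iff_forall_integral_tendsto.1 hμ'
      (BoundedContinuousFunction.mkOfCompact ⟨f, hf⟩)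
    refine this.congr fun N => ?_
    simp only [ν, ProbabilityMeasure.coe_mk, integral_smul_measure]
    rw [integral_finsetSum_measure fun i _ => cont_intX (by fun_prop)]
    simp [div_eq_inv_mul]
  have hae : ∀ f g : XX → ℝ, Continuous f → Continuous g →
      (∀ᶠ N in atTop, ∀ i : ℤ, f (sh i (r.zz N)) = g (sh i (r.zz N))) →
      ∀ᵐ x ∂(μ : Measure XX), f x = g x := by
    intro f g hf hg h
    have h1 := hlim (fun x => |f x - g x|) (by fun_prop)
    have h2 : ∫ x, |f x - g x| ∂(μ : Measure XX) = 0 :=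
      tendsto_nhds_unique h1 (tendsto_const_nhds.congr' (by
        filter_upwards [hF h] with N hN
        simp [hN]))
    rw [integral_eq_zero_iff_of_nonneg (fun x => abs_nonneg _) (cont_intX (by fun_prop))] at h2
    filter_upwards [h2] with x hx
    exact sub_eq_zero.1 (abs_eq_zero.1 hx)
  refine ⟨μ, inferInstance, ⟨(continuous_sh 1).measurable, ?_⟩, ?_, fun n => ?_⟩
  · refine ext_of_forall_integral_eq_of_IsFiniteMeasure fun f => ?_
    rw [integral_map (continuous_sh 1).measurable.aemeasurable f.continuous.aestronglyMeasurable]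
    refine tendsto_nhds_unique (hlim _ (f.continuous.comp (continuous_sh 1)))
      ((hlim f f.continuous).congr fun N => ?_)
    congr 1
    have h1 := sum_range_succ (fun i : ℕ => f (sh i (r.zz N))) (r.h N)
    have h2 := sum_range_succ' (fun i : ℕ => f (sh i (r.zz N))) (r.h N)
    have h3 : sh (r.h N) (r.zz N) = sh ((0:ℕ):ℤ) (r.zz N) := by
      funext p; simp [sh, zz, Z_per]
    rw [h3, h2] at h1
    simp only [sh_sh, add_comm (1:ℤ)]
    push_cast at h1
    linarith
  · simp only [A, B, ae_all_iff, eventually_and]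
    refine fun n => ⟨fun k => hae _ _ (continuous_vv _ _)
      (continuous_finsetSum _ fun j _ => continuous_vv _ _) ?_, fun k k' hne hlt =>
        hae _ _ ((continuous_vv _ _).mul (continuous_vv _ _)) continuous_const ?_⟩
    · filter_upwards [eventually_gt_atTop n] with N hN i
      obtain ⟨m, rfl⟩ := Nat.exists_eq_add_of_lt hN
      simp only [vv_sh, vv_zz]
      rw [show n + m + 1 - n = m + 1 by omega, show n + m + 1 - (n + 1) = m by omega, add_assoc,
        Z_split]
      simp only [add_sub_right_comm]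
    · filter_upwards [eventually_ge_atTop n] with N hN i
      obtain ⟨m, rfl⟩ := Nat.exists_eq_add_of_le hN
      simp only [Pi.mul_apply, vv_sh, vv_zz, Nat.add_sub_cancel_left, ← ind_and]
      refine ind_neg fun h => ?_
      rcases r.Z_sep _ _ _ _ h.1 h.2 with h | h
      · omega
      · rw [add_sub_add_right_eq_sub] at h; omega
  · refine ge_of_tendsto ((hlim _ (continuous_vv (n + 1) 0)).const_mul _) (hF ?_)
    filter_upwards [eventually_ge_atTop (n + 1)] with N hN
    obtain ⟨m, rfl⟩ := Nat.exists_eq_add_of_le hN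
    simp only [vv_sh, vv_zz, Nat.add_sub_cancel_left, Z_count]
    rw [← mul_div_assoc, le_div_iff₀ (hR _), mul_comm]
    refine le_trans ?_ (r.ratio m n)
    have : (0:ℝ) ≤ (1 / 2) ^ (n + m) := by positivity
    exact mul_le_mul_of_nonneg_left (by linarith) (hR _).le

end RK

end Vale.Agent.P130
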