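import Vale.Agent.P130.Hilb

namespace Vale.Agent.P130

open Finset MeasureTheory Filter Topology Submodule
open scoped Real ComplexConjugate InnerProductSpace

namespace RK
variable {r : RK} {μ : Measure XX} [IsProbabilityMeasure μ]

lemma memLp_a (μ : Measure XX) [IsProbabilityMeasure μ] (i : ℕ × ℤ) :
    MemLp (fun x => ((vv i.1 (i.2 + 1) x - vv i.1 i.2 x : ℝ) : ℂ)) 2 μ :=
  MemLp.of_bound (Complex.continuous_ofReal.comp
    ((continuous_vv _ _).sub (continuous_vv _ _))).aestronglyMeasurable 1 (ae_of_all _ fun x => by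
      rcases vv_01 i.1 (i.2 + 1) x with h | h <;> rcases vv_01 i.1 i.2 x with h' | h' <;> simp [h, h'])

/-- differences of indicators of consecutive levels -/
noncomputable def av (μ : Measure XX) [IsProbabilityMeasure μ] (i : ℕ × ℤ) : Lp ℂ 2 μ :=
  (memLp_a μ i).toLp _

theorem Good.span_av (g : r.Good μ) (f : Lp ℂ 2 μ) :
    f ∈ (span ℂ (Set.range (av μ))).topologicalClosure ↔ ∫ x, f x ∂μ = 0 := by
  have h1 : ∀ f : Lp ℂ 2 μ, ⟪(memLp_const (1:ℂ)).toLp _, f⟫_ℂ = ∫ x, f x ∂μ := fun f => by
    rw [inner_toLp]; simp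
  constructor
  · intro hf
    rw [← h1, ← mem_orthogonal_singleton_iff_inner_right]
    refine topologicalClosure_minimal _ (span_le.2 ?_) (isClosed_orthogonal _) hf
    rintro _ ⟨i, rfl⟩
    rw [SetLike.mem_coe, mem_orthogonal_singleton_iff_inner_right, av, inner_toLp2]
    simp only [map_one, one_mul, integral_complex_ofReal]
    rw [integral_sub (cont_intX (continuous_vv _ _)) (cont_intX (continuous_vv _ _)), g.int_vv,
      g.int_vv, sub_self, Complex.ofReal_zero]
  · intro hf
    rw [← orthogonal_orthogonal_eq_closure]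
    intro φ hφ
    have hi : Integrable φ μ := (Lp.memLp φ).integrable (by norm_num)
    have i1 : ∀ n k, Integrable (fun x => (vv n k x : ℂ) * φ x) μ := fun n k =>
      hi.bdd_mul (c := 1) (Complex.continuous_ofReal.comp
        (continuous_vv _ _)).aestronglyMeasurable (ae_of_all _ fun x => by
          rcases vv_01 n k x with h | h <;> simp [h])
    have h2 : ∀ n k, ∫ x, (vv n (k + 1) x : ℂ) * φ x ∂μ = ∫ x, (vv n k x : ℂ) * φ x ∂μ := by
      intro n k
      have := hφ _ (subset_span ⟨(n, k), rfl⟩)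
      rw [av, inner_toLp] at this
      simp only [Complex.conj_ofReal, Complex.ofReal_sub, sub_mul, map_sub] at this
      rwa [integral_sub (i1 _ _) (i1 _ _), sub_eq_zero] at this
    have h3 : ∀ n k, ∫ x, (vv n k x : ℂ) * φ x ∂μ = ∫ x, (vv n 0 x : ℂ) * φ x ∂μ := by
      intro n k
      induction k using Int.induction_on with
      | zero => rfl
      | succ k ih => rw [h2, ih]
      | pred k ih => rw [← h2, sub_add_cancel, ih]
    set γ := (∫ x, (vv 0 0 x : ℂ) * φ x ∂μ) / mm μ 0 with hγ
    have h4 : ∀ n, ∫ x, (vv n 0 x : ℂ) * φ x ∂μ = γ * mm μ n := by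
      intro n
      induction n with
      | zero => rw [hγ, div_mul_cancel₀ _ (by exact_mod_cast (g.mm_pos 0).ne')]
      | succ n ih =>
        rw [integral_congr_ae (g.ae.mono fun x hx => show _ = ∑ j ∈ range (r.J n),
          (vv (n + 1) (0 - r.pos n j) x : ℂ) * φ x by rw [(hx n).1 0]; push_cast; rw [sum_mul]),
          integral_finsetSum _ fun j _ => i1 _ _, g.mm_succ n] at ih
        simp only [h3, sum_const, card_range, nsmul_eq_mul] at ih
        have : (r.J n : ℂ) ≠ 0 := by have := r.hJ n; exact_mod_cast (by omega)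
        apply mul_left_cancel₀ this
        rw [h3, ih]; push_cast; ring
    have h5 := g.gen (ψ := fun x => φ x - γ) (hi.sub (integrable_const _)) fun n k => by
      simp only [mul_sub]
      rw [integral_sub (i1 _ _) (cont_intX (by have := continuous_vv n k; fun_prop)), h3, h4,
        integral_mul_const, integral_complex_ofReal, g.int_vv, mul_comm, sub_self]
    rw [L2.inner_def, integral_congr_ae (g := fun x => f x * conj γ), integral_mul_const, hf,
      zero_mul]
    filter_upwards [h5] with x hx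
    rw [RCLike.inner_apply, sub_eq_zero.1 hx]

theorem Good.spec (g : r.Good μ) (Φ : ℕ → TT → ℝ) (hΦi : ∀ n, Integrable (Φ n) mT)
    (hΦ : ∀ n, ∫ t, Φ n t ∂mT ≤ (1 / 2) ^ n)
    (hk : ∀ n (z : ℂ), ‖z‖ = 1 → ∀ x, ‖1 - z‖ ^ 2 *
      |‖∑ j ∈ range (r.J n), z ^ r.u n j * fourier (-(j:ℤ)) x‖ ^ 2 / r.J n - 1| ≤ Φ n x) :
    ∃ e : ℤ → Lp ℂ 2 μ, (∀ m, e m =ᵐ[μ] e 0 ∘ sh m) ∧ Orthonormal ℂ e ∧
      ∀ f, f ∈ (span ℂ (Set.range e)).topologicalClosure ↔ ∫ x, f x ∂μ = 0 := by
  obtain ⟨ρ, hρi, hρ0, hρr, hρn, hρc⟩ := g.density Φ hΦi hΦ hk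
  let ω : ℕ → TT → ℂ := fun n t => ∏ i ∈ range n,
    if r.pp i t = 0 then 1 else (‖r.pp i t‖ : ℂ) / r.pp i t
  have hωm : ∀ n, Measurable (ω n) := fun n => Finset.measurable_prod _ fun i _ => by
    have := (r.continuous_pp i).measurable
    exact Measurable.ite (this (measurableSet_singleton 0)) measurable_const
      ((Complex.measurable_ofReal.comp this.norm).div this)
  have hω1 : ∀ n t, ‖ω n t‖ = 1 := fun n t => by
    simp only [ω, norm_prod]
    refine prod_eq_one fun i _ => ?_
    split_ifs with h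
    · simp
    · simp [h]
  let G : ℕ → TT → ℂ := fun n t => (Real.sqrt (ρ n t) : ℂ) * ω n t
  have hG2 : ∀ n, ∀ᵐ t ∂mT, ‖G n t‖ ^ 2 = ρ n t := fun n => by
    filter_upwards [hρ0 n] with t ht
    simp only [G, norm_mul, hω1, mul_one, Complex.norm_real, Real.norm_eq_abs, sq_abs, Real.sq_sqrt ht]
  have hGm : ∀ n, AEStronglyMeasurable (G n) mT := fun n =>
    ((Complex.continuous_ofReal.comp Real.continuous_sqrt).comp_aestronglyMeasurable
      (hρi n).1).mul (hωm n).aestronglyMeasurable
  have hbm : ∀ i : ℕ × ℤ, MemLp (fun t => fourier i.2 t * G i.1 t) 2 mT := fun i => by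
    refine (memLp_two_iff_integrable_sq_norm
      ((fourier i.2).continuous.aestronglyMeasurable.mul (hGm _))).2 ((hρi i.1).congr ?_)
    filter_upwards [hG2 i.1] with t ht
    rw [← ht]; simp only [Pi.mul_apply, norm_mul, norm_fourier, one_mul]
  let b : ℕ × ℤ → Lp ℂ 2 mT := fun i => (hbm i).toLp _
  have hG : ∀ i j, ⟪av μ i, av μ j⟫_ℂ = ⟪b i, b j⟫_ℂ := by
    refine gram (av μ) b r.J (fun n j => r.pos n j) (fun n k => ?_) (fun n k => ?_) fun n k k' => ?_
    · refine toLp_sum _ _ (fun j => memLp_a μ (n + 1, k - r.pos n j)) ?_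
      filter_upwards [g.ae] with x hx
      rw [(hx n).1, (hx n).1, ← sum_sub_distrib]
      simp only [add_sub_right_comm, Complex.ofReal_sum]
    · refine toLp_sum _ _ (fun j => hbm (n + 1, k - r.pos n j)) ?_
      filter_upwards [hρr n] with t ht
      have h1 : G n t = r.pp n t * G (n + 1) t := by
        simp only [G, ω, prod_range_succ]
        rw [ht, Real.sqrt_mul (sq_nonneg _), Real.sqrt_sq (norm_nonneg _)]
        split_ifs with h
        · simp [h]
        · push_cast; field_simp
      simp only [h1, pp, sum_mul, mul_sum, sub_eq_add_neg, fourier_add, mul_assoc]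
    · have i1 : ∀ a b, Integrable (fun x => vv n a x * vv n b x) μ := fun a b =>
        cont_intX ((continuous_vv _ _).mul (continuous_vv _ _))
      rw [av, av, inner_toLp2, inner_toLp2, integral_congr_ae (μ := mT)
        (g := fun t => fourier (k' - k) t * (ρ n t : ℂ)), hρc]
      · simp only [Complex.conj_ofReal, ← Complex.ofReal_mul, integral_complex_ofReal, sub_mul,
          mul_sub]
        have i2 : ∀ a b c, Integrable (fun x => vv n a x * vv n c x - vv n b x * vv n c x) μ :=
          fun a b c => (i1 _ _).sub (i1 _ _)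
        rw [integral_sub (i2 _ _ _) (i2 _ _ _), integral_sub (i1 _ _) (i1 _ _),
          integral_sub (i1 _ _) (i1 _ _)]
        simp only [g.int_vv2]
        rw [show k' + 1 - (k + 1) = k' - k by ring, show k' + 1 - k = k' - k + 1 by ring,
          show k' - (k + 1) = k' - k - 1 by ring]
        push_cast; ring
      · filter_upwards [hG2 n] with t ht
        rw [← ht, sq_norm_eq, map_mul, ← fourier_neg, sub_eq_add_neg, fourier_add]; ring
  have hd : (span ℂ (Set.range b)).topologicalClosure = ⊤ := by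
    rw [topologicalClosure_eq_top_iff, eq_bot_iff]
    intro φ hφ
    have h1 : ∀ n, ∀ᵐ t ∂mT, conj (G n t) * φ t = 0 := by
      intro n
      have hm : MemLp (fun t => conj (G n t)) 2 mT := by
        have := (hbm (n, 0)).star
        simp only [fourier_zero, one_mul] at this
        exact this
      refine fourier_unique (hm.integrable_mul (Lp.memLp φ)) fun k => ?_
      have := hφ _ (subset_span ⟨(n, -k), rfl⟩)
      rw [inner_toLp] at this
      simpa only [map_mul, fourier_neg, Complex.conj_conj, mul_assoc] using this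
    refine Lp.ext ?_
    filter_upwards [hρn, ae_all_iff.2 h1, ae_all_iff.2 hG2, Lp.coeFn_zero ℂ 2 mT] with t a1 a2 a3 a4
    obtain ⟨n, hn⟩ := a1
    rw [a4]
    refine (mul_eq_zero.1 (a2 n)).resolve_left fun h => hn ?_
    rw [← a3, (map_eq_zero _).1 h]; simp
  obtain ⟨e, he1, he2, he3⟩ := hilb (av μ) b (fourierLp 2)
    (fun m => Lp.compMeasurePreservingₗᵢ ℂ (sh m) (inv_all g.inv m)) (fun m n k => by
      refine Lp.ext (((Lp.coeFn_compMeasurePreserving _ (inv_all g.inv m)).trans
        ((inv_all g.inv m).quasiMeasurePreserving.ae_eq_comp (memLp_a μ _).coeFn_toLp)).trans ?_)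
      filter_upwards [(memLp_a μ (n, k + m)).coeFn_toLp] with x hx
      rw [av, hx]
      simp only [Function.comp, vv_sh, add_right_comm]) hG hd orthonormal_fourier
    (span_fourierLp_closure_eq_top (by norm_num)) (fun m n k => by
      rw [inner_toLp, inner_toLp]
      refine integral_congr_ae ?_
      filter_upwards [coeFn_fourierLp (T := 1) 2 m, coeFn_fourierLp (T := 1) 2 0] with t h1 h2
      have h3 : conj (fourier m t) * fourier m t = 1 := by rw [← fourier_neg, ← fourier_add]; simp
      rw [h1, h2, fourier_zero, fourier_add, map_mul, map_mul, map_mul _ _ (G n t)]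
      linear_combination conj (fourier k t) * conj (G n t) * h3)
  refine ⟨e, fun m => ?_, he2, fun f => by rw [he3, g.span_av]⟩
  rw [he1 m]
  exact Lp.coeFn_compMeasurePreserving _ (inv_all g.inv m)

end RK

theorem main : ∃ μ : Measure XX, ∃ _ : IsProbabilityMeasure μ, (∀ x, μ {x} = 0) ∧
    MeasurePreserving (sh 1) μ μ ∧ ∃ e : ℤ → Lp ℂ 2 μ, (∀ m, e m =ᵐ[μ] e 0 ∘ sh m) ∧
      Orthonormal ℂ e ∧ ∀ f, f ∈ (span ℂ (Set.range e)).topologicalClosure ↔ ∫ x, f x ∂μ = 0 := by
  choose U hU using fun n : ℕ => key ((1 / 2) ^ n) (by positivity)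
  choose J hJ _ u Φ hu hΦi hΦ hk using fun n => hU n (max 2 (2 ^ (n + 1) * U (n + 1)))
  let h : ℕ → ℕ := fun n => Nat.rec 1 (fun n x => J n * (x + U n)) n
  have hp : ∀ n, 0 < h n := fun n => by
    induction n with
    | zero => exact one_pos
    | succ n ih =>
      have := (le_max_left _ _).trans (hJ n)
      show 0 < J n * (h n + U n)
      positivity
  let r : RK := ⟨J, U, h, u, hu, fun n => (le_max_left _ _).trans (hJ n), one_pos, fun _ => rfl,
    fun n => ((le_max_right _ _).trans (hJ n)).trans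
      (Nat.le_mul_of_pos_right _ (Nat.add_pos_left (hp n) _))⟩
  obtain ⟨μ, h1, h2, h3, h4⟩ := r.exists_measure
  have g : r.Good μ := ⟨h2, h3, h4⟩
  exact ⟨μ, h1, g.noAtoms, h2, g.spec Φ hΦi hΦ hk⟩

end Vale.Agent.P130
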