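import Vale.Agent.P130.Pack

namespace Vale.Agent.P130

open Finset MeasureTheory Filter Topology
open scoped Real ComplexConjugate

lemma bdd_int {Ω E : Type*} [MeasurableSpace Ω] {μ : Measure Ω} [IsFiniteMeasure μ]
    [NormedAddCommGroup E] {f : Ω → E} (hf : AEStronglyMeasurable f μ) (C : ℝ)
    (h : ∀ x, ‖f x‖ ≤ C) : Integrable f μ := Integrable.of_bound hf C (ae_of_all _ h)

lemma bessel {Ω Λ : Type*} [MeasurableSpace Ω] (μ : Measure Ω) [IsProbabilityMeasure μ]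
    [DecidableEq Λ] (s : Finset Λ) (w : Ω → ℂ) (hw : Measurable w) (hw1 : ∀ x, ‖w x‖ = 1)
    (e : Λ → Ω → ℂ) (he : ∀ a, Measurable (e a)) (he1 : ∀ a x, ‖e a x‖ = 1)
    (ho : ∀ a b, ∫ x, e a x * conj (e b x) ∂μ = if a = b then 1 else 0) (A : Λ → ℂ)
    (hA : ∀ a, ∫ x, w x * conj (e a x) ∂μ = A a) :
    ∫ x, ‖w x - ∑ a ∈ s, A a * e a x‖ ^ 2 ∂μ = 1 - ∑ a ∈ s, ‖A a‖ ^ 2 := by
  apply Complex.ofReal_injective
  rw [← integral_complex_ofReal]
  have hc : Measurable (conj : ℂ → ℂ) := Complex.continuous_conj.measurable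
  have i1 : ∀ a, Integrable (fun x => w x * conj (e a x)) μ := fun a =>
    bdd_int (hw.mul (hc.comp (he a))).aestronglyMeasurable 1 (fun x => by simp [hw1, he1])
  have i2 : ∀ a, Integrable (fun x => conj (w x * conj (e a x))) μ := fun a =>
    bdd_int (hc.comp (hw.mul (hc.comp (he a)))).aestronglyMeasurable 1 (fun x => by simp [hw1, he1])
  have i3 : ∀ a b, Integrable (fun x => e a x * conj (e b x)) μ := fun a b =>
    bdd_int ((he a).mul (hc.comp (he b))).aestronglyMeasurable 1 (fun x => by simp [he1])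
  have e1 : ∀ x, ((‖w x - ∑ a ∈ s, A a * e a x‖ ^ 2 : ℝ) : ℂ) =
      1 - ∑ a ∈ s, conj (A a) * (w x * conj (e a x)) - ∑ a ∈ s, A a * conj (w x * conj (e a x)) +
        ∑ a ∈ s, ∑ b ∈ s, A a * conj (A b) * (e a x * conj (e b x)) := by
    intro x
    have h1 : w x * conj (w x) = 1 := by rw [← sq_norm_eq, hw1]; simp
    rw [sq_norm_eq, map_sub, map_sum, sub_mul, mul_sub, mul_sub, h1, sum_mul_sum, mul_sum, sum_mul]
    simp only [map_mul, Complex.conj_conj]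
    have a1 : ∑ a ∈ s, w x * (conj (A a) * conj (e a x)) =
      ∑ a ∈ s, conj (A a) * (w x * conj (e a x)) := sum_congr rfl fun a _ => by ring
    have a2 : ∑ a ∈ s, A a * e a x * conj (w x) =
      ∑ a ∈ s, A a * (conj (w x) * e a x) := sum_congr rfl fun a _ => by ring
    have a3 : ∑ a ∈ s, ∑ b ∈ s, A a * e a x * (conj (A b) * conj (e b x)) =
      ∑ a ∈ s, ∑ b ∈ s, A a * conj (A b) * (e a x * conj (e b x)) :=
        sum_congr rfl fun a _ => sum_congr rfl fun b _ => by ring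
    rw [a1, a2, a3]; ring
  simp only [e1]
  have j1 : Integrable (fun x => ∑ a ∈ s, conj (A a) * (w x * conj (e a x))) μ :=
    integrable_finsetSum _ fun a _ => (i1 a).const_mul _
  have j2 : Integrable (fun x => ∑ a ∈ s, A a * conj (w x * conj (e a x))) μ :=
    integrable_finsetSum _ fun a _ => (i2 a).const_mul _
  have j4 : ∀ a, Integrable (fun x => ∑ b ∈ s, A a * conj (A b) * (e a x * conj (e b x))) μ :=
    fun a => integrable_finsetSum _ fun b _ => (i3 a b).const_mul _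
  have j3 : Integrable (fun x => ∑ a ∈ s, ∑ b ∈ s, A a * conj (A b) * (e a x * conj (e b x))) μ :=
    integrable_finsetSum _ fun a _ => j4 a
  have j5 : Integrable (fun x => 1 - ∑ a ∈ s, conj (A a) * (w x * conj (e a x))) μ :=
    (integrable_const _).sub j1
  have j6 : Integrable (fun x => 1 - ∑ a ∈ s, conj (A a) * (w x * conj (e a x)) -
    ∑ a ∈ s, A a * conj (w x * conj (e a x))) μ := j5.sub j2
  rw [integral_add j6 j3, integral_sub j5 j2, integral_sub (integrable_const _) j1,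
    integral_finsetSum _ fun a _ => (i1 a).const_mul _,
    integral_finsetSum _ fun a _ => (i2 a).const_mul _, integral_finsetSum _ fun a _ => j4 a]
  have k : ∀ a ∈ s, ∫ x, ∑ b ∈ s, A a * conj (A b) * (e a x * conj (e b x)) ∂μ =
      A a * conj (A a) := by
    intro a ha
    rw [integral_finsetSum _ fun b _ => (i3 a b).const_mul _]
    simp only [integral_const_mul, ho, mul_ite, mul_one, mul_zero, sum_ite_eq, ha, if_true]
  rw [sum_congr rfl k]
  simp only [integral_const_mul, integral_conj, hA, integral_const, probReal_univ, one_smul]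
  push_cast
  have : ∀ a, ((‖A a‖ : ℝ) : ℂ) ^ 2 = A a * conj (A a) := fun a => by
    rw [← sq_norm_eq]; push_cast; rfl
  simp only [this, mul_comm (conj (A _))]
  ring

/-- the square wave -/
noncomputable def sqw (x : TT) : ℝ := 2 * ind (arc 2 1 0 x) - 1

lemma sqw_pm (x : TT) : sqw x = 1 ∨ sqw x = -1 := by
  by_cases h : arc 2 1 0 x
  · left; rw [sqw, ind_pos h]; norm_num
  · right; rw [sqw, ind_neg h]; norm_num

lemma measurable_sqw : Measurable sqw := ((measurable_arc 2 1 0).const_mul 2).sub_const 1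

lemma norm_sqw (x : TT) : ‖((sqw x : ℝ) : ℂ)‖ = 1 := by
  rcases sqw_pm x with h | h <;> simp [h]

/-- Fourier coefficients of the square wave -/
noncomputable def sa (n : ℤ) : ℂ := fourierCoeff (fun x : TT => ((sqw x : ℝ) : ℂ)) n

lemma sa_int (n : ℤ) : ∫ x, ((sqw x : ℝ) : ℂ) * conj (fourier n x) ∂mT = sa n := by
  simp only [sa, fourierCoeff, smul_eq_mul, fourier_neg, mul_comm]

lemma sa_neg (n : ℤ) : ‖sa (-n)‖ = ‖sa n‖ := by
  rw [← sa_int, ← sa_int, ← Complex.norm_conj, ← integral_conj]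
  simp only [map_mul, Complex.conj_ofReal, fourier_neg, Complex.conj_conj]

lemma sa_eq (n : ℤ) : sa n = 2 * (∫ x in (0:ℝ)..(1 / 2), ee (-n * x)) - if n = 0 then 1 else 0 := by
  have h1 := coeff_arc (M := 2) 1 (by norm_num) (by norm_num) n
  have a1 : ((min (1:ℤ) 0 : ℤ) : ℝ) / (2:ℕ) = 0 := by norm_num
  have a2 : ((max (1:ℤ) 0 : ℤ) : ℝ) / (2:ℕ) = 1 / 2 := by norm_num
  rw [a1, a2] at h1
  rw [← h1]
  have h2 : ∫ x, fourier (-n) x ∂mT = if n = 0 then 1 else 0 := by rw [int_fourier]; simp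
  rw [← h2, sa, fourierCoeff, fourierCoeff, ← integral_const_mul, ← integral_sub]
  · refine integral_congr_ae (ae_of_all _ fun x => ?_)
    simp only [sqw, smul_eq_mul]; push_cast; ring
  · refine Integrable.const_mul (bdd_int (((fourier (-n)).continuous.measurable.smul
      (Complex.measurable_ofReal.comp (measurable_arc 2 1 0))).aestronglyMeasurable) 1 fun x => ?_) _
    show ‖fourier (-n) x • ((ind (arc 2 1 0 x) : ℝ) : ℂ)‖ ≤ 1
    rw [norm_smul, norm_fourier, one_mul, Complex.norm_real, Real.norm_eq_abs,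
      abs_of_nonneg (ind_nonneg _)]
    exact ind_le_one _
  · exact cont_int (fourier (-n)).continuous

lemma sa_zero : sa 0 = 0 := by
  rw [sa_eq]; simp [ee_zero]

lemma sa_one : sa 1 ≠ 0 := by
  rw [sa_eq]
  have : ∀ x : ℝ, ee (-((1:ℤ):ℝ) * x) = Complex.exp ((-(2 * π * Complex.I)) * x) := fun x => by
    rw [ee]; congr 1; push_cast; ring
  simp only [this]
  rw [integral_exp_mul_complex (by simp)]
  have e : Complex.exp (-(2 * π * Complex.I) * ((1 / 2 : ℝ) : ℂ)) = -1 := by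
    rw [← Complex.exp_neg_pi_mul_I]; congr 1; push_cast; ring
  rw [e]
  simp
  norm_num

lemma sa_hasSum : HasSum (fun n => ‖sa n‖ ^ 2) 1 := by
  have hm : MemLp (fun x : TT => ((sqw x : ℝ) : ℂ)) 2 mT := MemLp.of_bound
    (Complex.measurable_ofReal.comp measurable_sqw).aestronglyMeasurable 1
      (ae_of_all _ fun x => (norm_sqw x).le)
  have h := hasSum_sq_fourierCoeff (hm.toLp _)
  have h1 : ∫ t, ‖(hm.toLp _) t‖ ^ 2 ∂mT = 1 := by
    rw [integral_congr_ae (g := fun _ => (1:ℝ))]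
    · simp
    · filter_upwards [hm.coeFn_toLp] with x hx
      rw [hx, norm_sqw]; simp
  rw [h1, fourierCoeff_congr_ae hm.coeFn_toLp] at h
  exact h

lemma perturb (a b : ℂ) {J σ σ' ε Φ Ψ : ℝ} (hJ : 0 < J) (hε : 0 < ε)
    (h1 : |‖a‖ ^ 2 / J - σ'| ≤ Φ) (h2 : ‖b‖ ^ 2 / J ≤ Ψ) :
    |‖a + b‖ ^ 2 / J - σ| ≤ (1 + ε) * Φ + (|σ - σ'| + ε * σ') + (1 + 1 / ε) * Ψ := by
  have k1 : |‖a + b‖ ^ 2 - ‖a‖ ^ 2| ≤ ε * ‖a‖ ^ 2 + (1 + 1 / ε) * ‖b‖ ^ 2 := by
    have b1 := norm_add_le a b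
    have b2 : ‖a‖ ≤ ‖a + b‖ + ‖b‖ := by simpa using norm_sub_le (a + b) b
    have b3 : 2 * ‖a‖ * ‖b‖ ≤ ε * ‖a‖ ^ 2 + 1 / ε * ‖b‖ ^ 2 := by
      have : 0 ≤ (ε * ‖a‖ - ‖b‖) ^ 2 / ε := by positivity
      have e : (ε * ‖a‖ - ‖b‖) ^ 2 / ε = ε * ‖a‖ ^ 2 + 1 / ε * ‖b‖ ^ 2 - 2 * ‖a‖ * ‖b‖ := by
        field_simp; ring
      linarith
    have := norm_nonneg a
    have := norm_nonneg b
    have := norm_nonneg (a + b)
    rw [abs_le]; constructor
    · by_cases h : ‖b‖ ≤ ‖a‖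
      · nlinarith [mul_self_le_mul_self (sub_nonneg.2 h) (by linarith : ‖a‖ - ‖b‖ ≤ ‖a + b‖)]
      · nlinarith
    · nlinarith
  have k2 : |‖a + b‖ ^ 2 / J - ‖a‖ ^ 2 / J| ≤ ε * (‖a‖ ^ 2 / J) + (1 + 1 / ε) * (‖b‖ ^ 2 / J) := by
    rw [← sub_div, abs_div, abs_of_pos hJ, ← mul_div_assoc, ← mul_div_assoc, ← add_div]
    gcongr
  have k3 : ‖a‖ ^ 2 / J ≤ σ' + Φ := by linarith [le_abs_self (‖a‖ ^ 2 / J - σ')]
  have k4 := mul_le_mul_of_nonneg_left k3 hε.le
  have k5 := mul_le_mul_of_nonneg_left h2 (by positivity : 0 ≤ 1 + 1 / ε)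
  have k6 := abs_sub_le (‖a + b‖ ^ 2 / J) (‖a‖ ^ 2 / J) σ
  have k7 := abs_sub_le (‖a‖ ^ 2 / J) σ' σ
  rw [abs_sub_comm σ' σ] at k7
  nlinarith

lemma norm_sq_sum_disj {I : Type*} [Fintype I] (z : I → ℂ) (h : ∀ i j, i ≠ j → z i = 0 ∨ z j = 0) :
    ‖∑ i, z i‖ ^ 2 = ∑ i, ‖z i‖ ^ 2 := by
  classical
  have h1 := norm_sq_sum_sub z
  rw [sum_eq_zero fun i _ => sum_eq_zero fun j _ => by
    split_ifs with hij
    · rfl
    · rcases h i j hij with h | h <;> simp [h]] at h1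
  exact sub_eq_zero.1 (abs_nonpos_iff.1 h1)

lemma norm_sq_sum_le {I : Type*} (s : Finset I) (z : I → ℂ) :
    ‖∑ i ∈ s, z i‖ ^ 2 ≤ s.card * ∑ i ∈ s, ‖z i‖ ^ 2 :=
  le_trans (pow_le_pow_left₀ (norm_nonneg _) (norm_sum_le _ _) 2) sq_sum_le_card_mul_sum_sq

end Vale.Agent.P130
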