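import Vale.Agent.P130.Prob

namespace Vale.Agent.P130

open Finset

open Classical in
/-- indicator of a proposition -/
noncomputable def ind (p : Prop) : ℝ := if p then 1 else 0

lemma ind_nonneg (p : Prop) : 0 ≤ ind p := by unfold ind; split_ifs <;> norm_num
lemma ind_le_one (p : Prop) : ind p ≤ 1 := by unfold ind; split_ifs <;> norm_num
lemma ind_pos {p : Prop} (h : p) : ind p = 1 := by unfold ind; simp [h]
lemma ind_neg {p : Prop} (h : ¬ p) : ind p = 0 := by unfold ind; simp [h]
lemma ind_and (p q : Prop) : ind (p ∧ q) = ind p * ind q := by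
  by_cases hp : p <;> by_cases hq : q <;> simp [ind, hp, hq]
lemma ind_mono {p q : Prop} (h : p → q) : ind p ≤ ind q := by
  by_cases hp : p
  · rw [ind_pos hp, ind_pos (h hp)]
  · rw [ind_neg hp]; exact ind_nonneg _
lemma ind_congr {p q : Prop} (h : p ↔ q) : ind p = ind q := by rw [propext h]
lemma ind_eq_ite (p : Prop) [Decidable p] : ind p = if p then 1 else 0 := by
  by_cases h : p <;> simp [ind, h]

section Thin
variable {Ω ι V E : Type*} [Fintype Ω] [Fintype ι] [Fintype V] [Fintype E]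

/-- weighted degree of the vertex `x` in slot `s` -/
noncomputable def deg (v : E → ι → V) (w : E → ℝ) (s : ι) (x : V) : ℝ :=
  ∑ e, ind (v e s = x) * w e

lemma deg_nonneg (v : E → ι → V) {w : E → ℝ} (hw : ∀ e, 0 ≤ w e) (s : ι) (x : V) :
    0 ≤ deg v w s x := sum_nonneg fun e _ => mul_nonneg (ind_nonneg _) (hw e)

lemma sum_ind_eq (y : V) (F : V → ℝ) : ∑ x, ind (y = x) * F x = F y := by
  classical
  rw [Finset.sum_eq_single y]
  · rw [ind_pos rfl, one_mul]
  · intro x _ hx; rw [ind_neg (Ne.symm hx), zero_mul]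
  · simp

/-- rescaling a weight so that all degrees are at most one -/
lemma rescale (v : E → ι → V) (w : E → ℝ) (hw : ∀ e, 0 ≤ w e) :
    ∃ w' : E → ℝ, (∀ e, 0 ≤ w' e) ∧ (∀ e, w' e ≤ w e) ∧ (∀ s x, deg v w' s x ≤ 1) ∧
      ∑ e, w e - ∑ s, ∑ x, max (deg v w s x - 1) 0 ≤ ∑ e, w' e := by
  classical
  let c : ι → V → ℝ := fun s x => if deg v w s x ≤ 1 then 1 else (deg v w s x)⁻¹
  have hc0 : ∀ s x, 0 ≤ c s x := fun s x => by
    simp only [c]; split_ifs
    · norm_num
    · exact inv_nonneg.2 (deg_nonneg v hw s x)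
  have hc1 : ∀ s x, c s x ≤ 1 := fun s x => by
    simp only [c]; split_ifs with h
    · norm_num
    · exact inv_le_one_of_one_le₀ (by linarith)
  have hp0 : ∀ e, 0 ≤ ∏ s, c s (v e s) := fun e => prod_nonneg fun s _ => hc0 _ _
  have hp1 : ∀ e, ∏ s, c s (v e s) ≤ 1 := fun e =>
    prod_le_one (fun s _ => hc0 _ _) (fun s _ => hc1 _ _)
  refine ⟨fun e => w e * ∏ s, c s (v e s), fun e => mul_nonneg (hw e) (hp0 e),
    fun e => mul_le_of_le_one_right (hw e) (hp1 e), fun s x => ?_, ?_⟩
  · have h1 : ∀ e, ind (v e s = x) * (w e * ∏ s, c s (v e s)) ≤ (ind (v e s = x) * w e) * c s x := by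
      intro e
      by_cases h : v e s = x
      · rw [ind_pos h, one_mul, one_mul]
        refine mul_le_mul_of_nonneg_left ?_ (hw e)
        rw [← Finset.mul_prod_erase univ _ (mem_univ s), h]
        exact mul_le_of_le_one_right (hc0 _ _)
          (prod_le_one (fun s _ => hc0 _ _) (fun s _ => hc1 _ _))
      · rw [ind_neg h]; simp
    calc _ ≤ ∑ e, (ind (v e s = x) * w e) * c s x := sum_le_sum fun e _ => h1 e
      _ = deg v w s x * c s x := by rw [← sum_mul]; rfl
      _ ≤ 1 := by
        simp only [c]; split_ifs with h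
        · linarith
        · rw [mul_inv_cancel₀ (by linarith)]
  · have h1 : ∀ e, w e - w e * ∏ s, c s (v e s) ≤ ∑ s, w e * (1 - c s (v e s)) := by
      intro e
      have := one_sub_sum_le_prod univ (fun s => 1 - c s (v e s))
        (fun s => sub_nonneg.2 (hc1 _ _)) (fun s => by linarith [hc0 s (v e s)])
      simp only [sub_sub_cancel] at this
      rw [← mul_sum]
      nlinarith [hw e]
    have h2 : ∑ e, ∑ s, w e * (1 - c s (v e s)) = ∑ s, ∑ x, deg v w s x * (1 - c s x) := by
      rw [sum_comm]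
      refine sum_congr rfl fun s _ => ?_
      simp only [deg, sum_mul]
      rw [sum_comm]
      refine sum_congr rfl fun e _ => ?_
      rw [← sum_ind_eq (v e s) (fun x => w e * (1 - c s x))]
      exact sum_congr rfl fun x _ => by ring
    have h3 : ∀ s x, deg v w s x * (1 - c s x) ≤ max (deg v w s x - 1) 0 := by
      intro s x
      simp only [c]; split_ifs with h
      · simp
      · rw [mul_sub, mul_one, mul_inv_cancel₀ (by linarith)]; exact le_max_left _ _
    have h4 : ∑ e, (w e - w e * ∏ s, c s (v e s)) ≤ ∑ s, ∑ x, max (deg v w s x - 1) 0 :=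
      calc _ ≤ ∑ e, ∑ s, w e * (1 - c s (v e s)) := sum_le_sum fun e _ => h1 e
        _ = _ := h2
        _ ≤ _ := sum_le_sum fun s _ => sum_le_sum fun x _ => h3 s x
    rw [sum_sub_distrib] at h4
    linarith

theorem thin (P : Ω → ℝ) (hP0 : ∀ ω, 0 ≤ P ω) (hP1 : ∑ ω, P ω = 1)
    (v : E → ι → V) (w : E → ℝ) (hw : ∀ e, 0 ≤ w e) (alive : Ω → ι → V → Prop)
    (q : ι → ℝ) (hq0 : ∀ s, 0 < q s) (hq1 : ∀ s, q s ≤ 1) (Q lam η b a : ℝ) (hQ : 0 < Q)
    (hlam : 0 ≤ lam) (hη : 0 ≤ η) (hb : 0 ≤ b) (ha : 0 < a)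
    (bad : ι → E → E → Prop)
    (hlow : ∀ e, 0 < w e → Q ≤ ∑ ω, P ω * ind (∀ s, alive ω s (v e s)))
    (hq : ∀ s x, ∑ ω, P ω * ind (alive ω s x) ≤ q s)
    (hpair : ∀ s e e', 0 < w e → 0 < w e' → v e' s = v e s → ¬ bad s e e' →
      ∑ ω, P ω * ind ((∀ s, alive ω s (v e s)) ∧ (∀ s, alive ω s (v e' s))) ≤
        (1 + η) * Q ^ 2 / q s)
    (hbad : ∀ s e, 0 < w e → ∑ e', ind (v e' s = v e s ∧ bad s e e') * w e' ≤ b)
    (hdeg : ∀ s x, lam * deg v w s x * Q ≤ q s) :
    ∃ w' : Ω → E → ℝ, (∀ ω e, 0 ≤ w' ω e) ∧ (∀ ω e, w' ω e ≤ lam * w e) ∧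
      (∀ ω e, 0 < w' ω e → 0 < w e ∧ ∀ s, alive ω s (v e s)) ∧ (∀ ω s x, deg v (w' ω) s x ≤ 1) ∧
      lam * Q * ∑ e, w e - Fintype.card ι * Fintype.card V * (a + (η + lam * b / Q) / (4 * a)) ≤
        ∑ ω, P ω * ∑ e, w' ω e := by
  classical
  let al : Ω → E → Prop := fun ω e => ∀ s, alive ω s (v e s)
  let w1 : Ω → E → ℝ := fun ω e => lam * w e * ind (al ω e)
  have hw1 : ∀ ω e, 0 ≤ w1 ω e := fun ω e => mul_nonneg (mul_nonneg hlam (hw e)) (ind_nonneg _)
  choose w' h0 hle hd hs using fun ω => rescale v (w1 ω) (hw1 ω)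
  refine ⟨w', h0, fun ω e => (hle ω e).trans
    (mul_le_of_le_one_right (mul_nonneg hlam (hw e)) (ind_le_one _)), fun ω e h => ?_, hd, ?_⟩
  · have h1 : 0 < w1 ω e := h.trans_le (hle ω e)
    constructor
    · rcases (hw e).lt_or_eq with h2 | h2
      · exact h2
      · simp [w1, ← h2] at h1
    · by_contra h2
      have : ind (al ω e) = 0 := ind_neg h2
      simp [w1, this] at h1
  have hA : lam * Q * ∑ e, w e ≤ ∑ ω, P ω * ∑ e, w1 ω e := by
    simp only [mul_sum]
    rw [sum_comm]
    refine sum_le_sum fun e _ => ?_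
    rcases (hw e).lt_or_eq with h2 | h2
    · have := mul_le_mul_of_nonneg_left (hlow e h2) (mul_nonneg hlam (hw e))
      rw [mul_sum] at this
      calc lam * Q * w e = lam * w e * Q := by ring
        _ ≤ _ := this
        _ = _ := sum_congr rfl fun ω _ => by simp only [w1, al]; ring
    · simp [w1, ← h2]
  have hB : ∀ s x, ∑ ω, P ω * max (deg v (w1 ω) s x - 1) 0 ≤ a + (η + lam * b / Q) / (4 * a) := by
    intro s x
    set d := deg v w s x with hdd
    have hd0 : 0 ≤ d := deg_nonneg v hw s x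
    set m := lam * d * Q / q s with hm
    have hm1 : m ≤ 1 := (div_le_one (hq0 s)).2 (hdeg s x)
    have hm0 : 0 ≤ m := div_nonneg (mul_nonneg (mul_nonneg hlam hd0) hQ.le) (hq0 s).le
    let D : Ω → ℝ := fun ω => deg v (w1 ω) s x
    have hD : ∀ ω, D ω = lam * ∑ e, ind (v e s = x) * w e * ind (al ω e) := by
      intro ω; simp only [D, deg, w1, mul_sum]; exact sum_congr rfl fun e _ => by ring
    have hdead : ∀ ω, ¬ alive ω s x → D ω = 0 := by
      intro ω h
      rw [hD, sum_eq_zero, mul_zero]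
      intro e _
      by_cases h1 : v e s = x
      · rw [ind_neg (p := al ω e) (fun h2 => h (h1 ▸ h2 s)), mul_zero]
      · rw [ind_neg h1]; simp
    have h1 : ∀ ω, max (D ω - 1) 0 ≤
        a + (D ω ^ 2 - 2 * m * D ω + m ^ 2 * ind (alive ω s x)) / (4 * a) := by
      intro ω
      by_cases h : alive ω s x
      · rw [ind_pos h]
        have e1 : D ω ^ 2 - 2 * m * D ω + m ^ 2 * 1 = (D ω - m) ^ 2 := by ring
        rw [e1]
        have : D ω - m ≤ a + (D ω - m) ^ 2 / (4 * a) := by
          have : 0 ≤ (D ω - m - 2 * a) ^ 2 / (4 * a) := by positivity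
          have e2 : (D ω - m - 2 * a) ^ 2 / (4 * a) = a + (D ω - m) ^ 2 / (4 * a) - (D ω - m) := by
            field_simp; ring
          linarith
        refine max_le (by linarith) (by positivity)
      · rw [ind_neg h, hdead ω h]; simp; positivity
    have hE1 : lam * d * Q ≤ ∑ ω, P ω * D ω := by
      simp only [hD, mul_sum]
      rw [sum_comm, hdd, deg, mul_sum, sum_mul]
      refine sum_le_sum fun e _ => ?_
      rcases (hw e).lt_or_eq with h2 | h2
      · have := mul_le_mul_of_nonneg_left (hlow e h2)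
          (mul_nonneg hlam (mul_nonneg (ind_nonneg (v e s = x)) (hw e)))
        rw [mul_sum] at this
        refine this.trans (le_of_eq (sum_congr rfl fun ω _ => by simp only [al]; ring))
      · simp [← h2]
    have hE2 : ∑ ω, P ω * D ω ^ 2 ≤ lam ^ 2 * ((1 + η) * Q ^ 2 / q s * d ^ 2 + d * b) := by
      have e1 : ∀ ω, P ω * D ω ^ 2 = lam ^ 2 * ∑ e, ∑ e', (ind (v e s = x) * w e) *
          (ind (v e' s = x) * w e') * (P ω * ind (al ω e ∧ al ω e')) := by
        intro ω
        rw [hD, mul_pow, sq (∑ e, _), sum_mul_sum, mul_left_comm, mul_sum]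
        congr 1
        refine sum_congr rfl fun e _ => ?_
        rw [mul_sum]
        refine sum_congr rfl fun e' _ => ?_
        rw [ind_and]; ring
      simp only [e1]
      rw [← mul_sum]
      refine mul_le_mul_of_nonneg_left ?_ (sq_nonneg _)
      rw [sum_comm]
      have hc : 0 ≤ (1 + η) * Q ^ 2 / q s := div_nonneg (by positivity) (hq0 s).le
      have e2 : (1 + η) * Q ^ 2 / q s * d ^ 2 + d * b =
          ∑ e, (ind (v e s = x) * w e) * ((1 + η) * Q ^ 2 / q s * d + b) := by
        rw [← sum_mul]; change _ = d * _; ring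
      rw [e2]
      refine sum_le_sum fun e _ => ?_
      rw [sum_comm]
      by_cases hx : v e s = x
      swap
      · rw [ind_neg hx]; simp
      rcases (hw e).lt_or_eq with h2 | h2
      swap
      · simp [← h2]
      have e3 : ∀ e', ∑ ω, (ind (v e s = x) * w e) * (ind (v e' s = x) * w e') *
          (P ω * ind (al ω e ∧ al ω e')) ≤ (ind (v e s = x) * w e) *
          ((1 + η) * Q ^ 2 / q s * (ind (v e' s = x) * w e') +
            ind (v e' s = v e s ∧ bad s e e') * w e') := by
        intro e'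
        rw [← mul_sum, mul_assoc]
        refine mul_le_mul_of_nonneg_left ?_ (mul_nonneg (ind_nonneg _) (hw e))
        by_cases hx' : v e' s = x
        swap
        · rw [ind_neg hx']; simp only [zero_mul, mul_zero, zero_add]
          exact mul_nonneg (ind_nonneg _) (hw e')
        rcases (hw e').lt_or_eq with h3 | h3
        swap
        · simp [← h3]
        rw [ind_pos hx', one_mul]
        by_cases hbd : bad s e e'
        · rw [ind_pos (p := v e' s = v e s ∧ bad s e e') ⟨hx'.trans hx.symm, hbd⟩]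
          have : ∑ ω, P ω * ind (al ω e ∧ al ω e') ≤ 1 := by
            rw [← hP1]
            exact sum_le_sum fun ω _ => mul_le_of_le_one_right (hP0 ω) (ind_le_one _)
          nlinarith [mul_nonneg hc h3.le]
        · have := hpair s e e' h2 h3 (hx'.trans hx.symm) hbd
          have h4 : 0 ≤ ind (v e' s = v e s ∧ bad s e e') * w e' :=
            mul_nonneg (ind_nonneg _) (hw e')
          have := mul_le_mul_of_nonneg_left this h3.le
          simp only [al]
          linarith
      refine (sum_le_sum fun e' _ => e3 e').trans ?_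
      rw [← mul_sum, sum_add_distrib, ← mul_sum]
      refine mul_le_mul_of_nonneg_left ?_ (mul_nonneg (ind_nonneg _) (hw e))
      have := hbad s e h2
      change _ * d + _ ≤ _
      linarith
    have hE3 := hq s x
    have hfin : ∑ ω, P ω * (D ω ^ 2 - 2 * m * D ω + m ^ 2 * ind (alive ω s x)) ≤
        η + lam * b / Q := by
      have e1 : ∑ ω, P ω * (D ω ^ 2 - 2 * m * D ω + m ^ 2 * ind (alive ω s x)) =
          ∑ ω, P ω * D ω ^ 2 - 2 * m * ∑ ω, P ω * D ω + m ^ 2 * ∑ ω, P ω * ind (alive ω s x) := by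
        simp only [mul_sum, ← sum_sub_distrib, ← sum_add_distrib]
        exact sum_congr rfl fun ω _ => by ring
      rw [e1]
      have hqs := hq0 s
      have e2 : lam * d * Q = m * q s := by rw [hm]; field_simp
      have e3 : lam ^ 2 * ((1 + η) * Q ^ 2 / q s * d ^ 2) = (1 + η) * m ^ 2 * q s := by
        rw [hm]; field_simp
      have e4 : lam ^ 2 * (d * b) ≤ lam * b / Q := by
        rw [le_div_iff₀ hQ]
        have : lam * d * Q ≤ 1 := (hdeg s x).trans (hq1 s)
        nlinarith [mul_nonneg hlam hb]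
      have e5 : m ^ 2 * q s ≤ 1 := by
        have : m ^ 2 ≤ 1 := by nlinarith
        nlinarith [hq1 s]
      have e6 := mul_le_mul_of_nonneg_left hE1 (by linarith : 0 ≤ 2 * m)
      have e7 := mul_le_mul_of_nonneg_left hE3 (sq_nonneg m)
      rw [mul_add, e3] at hE2
      rw [e2] at e6
      nlinarith
    calc ∑ ω, P ω * max (D ω - 1) 0
        ≤ ∑ ω, P ω * (a + (D ω ^ 2 - 2 * m * D ω + m ^ 2 * ind (alive ω s x)) / (4 * a)) :=
          sum_le_sum fun ω _ => mul_le_mul_of_nonneg_left (h1 ω) (hP0 ω)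
      _ = a + (∑ ω, P ω * (D ω ^ 2 - 2 * m * D ω + m ^ 2 * ind (alive ω s x))) / (4 * a) := by
          simp only [mul_add (P _) a, sum_add_distrib, ← sum_mul, hP1, one_mul, sum_div,
            mul_div_assoc]
      _ ≤ _ := by gcongr
  have hC : ∑ ω, P ω * ∑ s, ∑ x, max (deg v (w1 ω) s x - 1) 0 ≤
      Fintype.card ι * Fintype.card V * (a + (η + lam * b / Q) / (4 * a)) := by
    simp only [mul_sum]
    rw [sum_comm]
    calc _ ≤ ∑ s : ι, ∑ x : V, (a + (η + lam * b / Q) / (4 * a)) := by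
          refine sum_le_sum fun s _ => ?_
          rw [sum_comm]
          exact sum_le_sum fun x _ => hB s x
      _ = _ := by simp only [sum_const, card_univ, nsmul_eq_mul]; ring
  have hD : ∑ ω, P ω * (∑ e, w1 ω e - ∑ s, ∑ x, max (deg v (w1 ω) s x - 1) 0) ≤
      ∑ ω, P ω * ∑ e, w' ω e := sum_le_sum fun ω _ => mul_le_mul_of_nonneg_left (hs ω) (hP0 ω)
  simp only [mul_sub, sum_sub_distrib] at hD
  linarith

end Thin

end Vale.Agent.P130
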