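import Vale.Agent.P130.Square

namespace Vale.Agent.P130

open Finset MeasureTheory Filter Topology
open scoped Real ComplexConjugate

/-- one factor of a Walsh function -/
noncomputable def ph (t : Bool) (x : TT) : ℂ := if t then ((sqw x : ℝ) : ℂ) else 1

/-- its Fourier coefficients -/
noncomputable def al (t : Bool) (n : ℤ) : ℂ := if t then sa n else if n = 0 then 1 else 0

lemma ph_int (t : Bool) (n : ℤ) : ∫ x, ph t x * conj (fourier n x) ∂mT = al t n := by
  cases t
  · simp only [ph, al, Bool.false_eq_true, if_false, one_mul, ← fourier_neg, int_fourier, neg_eq_zero]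
  · simp only [ph, al, if_true, sa_int]

lemma norm_ph (t : Bool) (x : TT) : ‖ph t x‖ = 1 := by
  cases t
  · simp [ph]
  · simp only [ph, if_true, norm_sqw]

lemma measurable_ph (t : Bool) : Measurable (ph t) := by
  cases t
  · exact measurable_const
  · exact Complex.measurable_ofReal.comp measurable_sqw

lemma al_neg (t : Bool) (n : ℤ) : ‖al t (-n)‖ = ‖al t n‖ := by
  cases t
  · simp [al]
  · simp only [al, if_true, sa_neg]

lemma al_mul {t t' : Bool} (h : t ≠ t') (n : ℤ) : al t n = 0 ∨ al t' n = 0 := by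
  by_cases hn : n = 0 <;> cases t <;> cases t' <;> simp [al, hn, sa_zero] at h ⊢

lemma approx (β : Type) [Fintype β] [DecidableEq β] (δ : ℝ) (hδ : 0 < δ) :
    ∃ d : ℕ, 0 < d ∧ ∃ Bx : Finset (β × Fin d → ℤ), (∀ l ∈ Bx, -l ∈ Bx) ∧ (∀ l ∈ Bx, Prim l) ∧
      ∀ S : β → Bool, (∃ i, S i = true) → 1 - δ ≤ ∑ l ∈ Bx, ‖∏ c, al (S c.1) (l c)‖ ^ 2 := by
  classical
  set t := 1 - ‖sa 1‖ ^ 2 with ht
  have hle : ∀ s : Finset ℤ, ∑ n ∈ s, ‖sa n‖ ^ 2 ≤ 1 := fun s =>
    sum_le_hasSum s (fun _ _ => by positivity) sa_hasSum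
  have ht0 : 0 ≤ t := by have := hle {1}; simp only [sum_singleton] at this; linarith
  have ht1 : t < 1 := by have := norm_pos_iff.2 sa_one; rw [ht]; nlinarith
  obtain ⟨d0, hd0⟩ := exists_pow_lt_of_lt_one (half_pos hδ) ht1
  refine ⟨d0 + 1, Nat.succ_pos _, ?_⟩
  set d := d0 + 1
  have hd : t ^ d ≤ δ / 2 := (pow_le_pow_of_le_one ht0 ht1.le (Nat.le_succ _)).trans hd0.le
  set n : ℝ := (Fintype.card (β × Fin d) : ℝ) with hn
  have hn0 : 0 ≤ n := by positivity
  set r := min 1 (δ / (2 * (n + 1))) with hr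
  have hr0 : 0 < r := by positivity
  obtain ⟨K, hK1, hK2⟩ := (((sa_hasSum.comp (tendsto_Icc_neg (R := ℤ))).eventually
    (lt_mem_nhds (show 1 - r < 1 by linarith))).and (eventually_ge_atTop 1)).exists
  simp only [Function.comp] at hK1
  set I : Finset ℤ := Icc (-(K:ℤ)) K with hI
  set I0 : Finset ℤ := I.filter fun k => k ≠ 1 ∧ k ≠ -1 with hI0
  have hsub : Fintype.piFinset (fun _ : β × Fin d => I0) ⊆ Fintype.piFinset (fun _ => I) :=
    Fintype.piFinset_subset _ _ fun _ => filter_subset _ _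
  refine ⟨Fintype.piFinset (fun _ => I) \ Fintype.piFinset (fun _ => I0), ?_, ?_, ?_⟩
  · intro l hl
    simp only [Finset.mem_sdiff, Fintype.mem_piFinset, hI0, hI, mem_filter, mem_Icc, Pi.neg_apply] at hl ⊢
    refine ⟨fun c => by have := hl.1 c; omega, fun h => hl.2 fun c => by have := h c; omega⟩
  · intro l hl
    simp only [Finset.mem_sdiff, Fintype.mem_piFinset, hI0, mem_filter] at hl
    by_contra h
    simp only [Prim, not_exists, not_or] at h
    exact hl.2 fun c => ⟨hl.1 c, h c⟩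
  · rintro S ⟨i0, hi0⟩
    rw [sum_sdiff_eq_sub hsub]
    simp only [norm_prod, ← prod_pow]
    rw [← prod_univ_sum (fun _ => I) (fun (c : β × Fin d) k => ‖al (S c.1) k‖ ^ 2),
      ← prod_univ_sum (fun _ => I0) (fun (c : β × Fin d) k => ‖al (S c.1) k‖ ^ 2)]
    have hf : ∀ s : Finset ℤ, 0 ∈ s → ∑ k ∈ s, ‖al false k‖ ^ 2 = 1 := by
      intro s hs
      rw [sum_eq_single_of_mem 0 hs fun k _ hk => by simp [al, hk]]
      simp [al]
    have h0I : (0:ℤ) ∈ I := by simp [hI]
    have h1 : 1 - δ / 2 ≤ ∏ c : β × Fin d, ∑ k ∈ I, ‖al (S c.1) k‖ ^ 2 := by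
      have a1 := one_sub_sum_le_prod (univ : Finset (β × Fin d)) (fun _ => r) (fun _ => hr0.le)
        (fun _ => min_le_left _ _)
      have a2 : ∑ _c : β × Fin d, r ≤ δ / 2 := by
        rw [sum_const, card_univ, nsmul_eq_mul, ← hn]
        have : r * (2 * (n + 1)) ≤ δ := by
          rw [← le_div_iff₀ (by positivity)]; exact min_le_right _ _
        nlinarith
      refine le_trans (by linarith) (a1.trans (prod_le_prod (fun _ _ => ?_) fun c _ => ?_))
      · linarith [min_le_left 1 (δ / (2 * (n + 1)))]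
      · cases S c.1
        · rw [hf I h0I]; linarith
        · exact hK1.le
    have h2 : ∏ c : β × Fin d, ∑ k ∈ I0, ‖al (S c.1) k‖ ^ 2 ≤ t ^ d := by
      have a1 : ∏ c : β × Fin d, (if c.1 = i0 then t else 1) = t ^ d := by
        rw [Fintype.prod_prod_type, Finset.prod_comm]; simp
      rw [← a1]
      refine prod_le_prod (fun _ _ => by positivity) fun c _ => ?_
      have a2 : ∑ k ∈ I0, ‖al true k‖ ^ 2 ≤ t := by
        have := hle (insert 1 I0)
        rw [sum_insert (by simp [hI0])] at this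
        simp only [al, if_true]; linarith
      split_ifs with hc
      · rw [hc, hi0]; exact a2
      · cases S c.1
        · rw [hf I0 (by simp [hI0, h0I])]
        · linarith
    linarith

lemma sum_pm {C : Type} [Fintype C] [DecidableEq C] {E : Type*} [AddCommMonoid E]
    (Bx : Finset (C → ℤ)) (hBx : ∀ l ∈ Bx, -l ∈ Bx) (β : C → ℤ) (hβ : ∀ l ∈ Bx, l ⬝ᵥ β ≠ 0)
    (κ : (C → ℤ) → ℝ) (hκ : ∀ l, κ (-l) = κ l) (F : (C → ℤ) → E) (hF : ∀ l, ¬ 0 < κ l → F l = 0) :
    ∑ l ∈ Bx, F l = ∑ i : (Bx.filter fun l => 0 < κ l ∧ 0 < l ⬝ᵥ β), ∑ s, F (sgn s • i.1) := by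
  classical
  rw [sum_coe_sort _ (fun l => ∑ s, F (sgn s • l))]
  simp only [Fintype.sum_bool, sgn, if_true, one_smul, Bool.false_eq_true, if_false, neg_smul,
    sum_add_distrib]
  rw [← sum_filter_of_ne (p := fun l => 0 < κ l) (fun l _ h => by_contra fun h' => h (hF l h')),
    ← sum_filter_add_sum_filter_not _ (fun l => 0 < l ⬝ᵥ β), filter_filter, filter_filter]
  congr 1
  refine sum_nbij' (fun l => -l) (fun l => -l) ?_ ?_ (by simp) (by simp) (by simp)
  · intro l hl
    simp only [mem_filter, neg_dotProduct, hκ] at hl ⊢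
    have := hβ l hl.1
    exact ⟨hBx l hl.1, hl.2.1, by omega⟩
  · intro l hl
    simp only [mem_filter, neg_dotProduct, hκ] at hl ⊢
    exact ⟨hBx l hl.1, hl.2.1, by omega⟩

set_option maxHeartbeats 1000000 in
theorem walsh {Sg β : Type} [Fintype Sg] [Fintype β] [DecidableEq β] (supp : Sg → β → Bool)
    (hinj : Function.Injective supp) (κ : Sg → ℝ) (hκ : ∀ S, 0 ≤ κ S)
    (hκ0 : ∀ S, (∀ i, supp S i = false) → κ S = 0) (hσ : 0 < ∑ S, κ S) (η : ℝ) (hη : 0 < η)
    (J0 : ℕ) :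
    ∃ J : ℕ, J0 ≤ J ∧ 0 < J ∧ ∃ (b : ℕ → β → ℝ) (Φ : TT → ℝ), (∀ j i, b j i = 1 ∨ b j i = -1) ∧
      Integrable Φ mT ∧ ∫ x, Φ x ∂mT ≤ η ∧
      ∀ c : Sg → ℂ, (∀ S, ‖c S‖ ^ 2 = κ S) → ∀ x,
        |‖∑ j ∈ range J, (∑ S, c S * ∏ i, if supp S i then ((b j i : ℝ) : ℂ) else 1) *
          fourier (-(j:ℤ)) x‖ ^ 2 / J - ∑ S, κ S| ≤ Φ x := by
  classical
  set σ := ∑ S, κ S with hσd
  set ε := min 1 (η / (4 * σ)) with hε
  have hε0 : 0 < ε := by positivity
  have hε1 : ε ≤ 1 := min_le_left _ _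
  have hε2 : ε * σ ≤ η / 4 := by
    have : ε ≤ η / (4 * σ) := min_le_right _ _
    rw [le_div_iff₀ (by positivity)] at this; linarith
  set n : ℝ := (Fintype.card Sg : ℝ) with hn
  have hn0 : 0 ≤ n := by positivity
  set δ := min (1 / 2) (η / (4 * σ * (1 + (1 + 1 / ε) * n))) with hδ
  have hδ0 : 0 < δ := by positivity
  have hδ1 : δ ≤ 1 / 2 := min_le_left _ _
  have hδ2 : δ * σ + (1 + 1 / ε) * (n * (δ * σ)) ≤ η / 4 := by
    have : δ ≤ η / (4 * σ * (1 + (1 + 1 / ε) * n)) := min_le_right _ _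
    rw [le_div_iff₀ (by positivity)] at this; linarith
  obtain ⟨d, hd, Bx, hsym, hprim, happ⟩ := approx β δ hδ0
  let A : Sg → (β × Fin d → ℤ) → ℂ := fun S l => ∏ c, al (supp S c.1) (l c)
  let κ' : (β × Fin d → ℤ) → ℝ := fun l => ∑ S, κ S * ‖A S l‖ ^ 2
  have hκ'n : ∀ l, κ' (-l) = κ' l := fun l => by
    simp only [κ', A, norm_prod, Pi.neg_apply, al_neg]
  have hκ'0 : ∀ l, 0 ≤ κ' l := fun l => sum_nonneg fun S _ => mul_nonneg (hκ S) (sq_nonneg _)
  have hcA : ∀ c : Sg → ℂ, (∀ S, ‖c S‖ ^ 2 = κ S) → ∀ l, ‖∑ S, c S * A S l‖ ^ 2 = κ' l := by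
    intro c hc l
    rw [norm_sq_sum_disj]
    · simp only [norm_mul, mul_pow, hc, κ']
    · intro S S' hne
      obtain ⟨i, hi⟩ := Function.ne_iff.1 (hinj.ne hne)
      rcases al_mul hi (l (i, ⟨0, hd⟩)) with h | h
      · left
        exact mul_eq_zero_of_right _ (prod_eq_zero (f := fun c : β × Fin d => al (supp S c.1) (l c))
          (mem_univ (i, ⟨0, hd⟩)) h)
      · right
        exact mul_eq_zero_of_right _ (prod_eq_zero (f := fun c : β × Fin d => al (supp S' c.1) (l c))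
          (mem_univ (i, ⟨0, hd⟩)) h)
  obtain ⟨γ, hγ⟩ := exists_generic Bx (fun l hl h => by
    obtain ⟨c, hc⟩ := hprim l hl
    rw [h] at hc; simp at hc)
  let μ : Measure (β × Fin d → TT) := Measure.pi fun _ => mT
  let e : (β × Fin d → ℤ) → (β × Fin d → TT) → ℂ := fun l θ => ∏ c, fourier (l c) (θ c)
  let w : Sg → (β × Fin d → TT) → ℂ := fun S θ => ∏ c, ph (supp S c.1) (θ c)
  let er : Sg → (β × Fin d → TT) → ℂ := fun S θ => w S θ - ∑ l ∈ Bx, A S l * e l θ
  have hem : ∀ l, Measurable (e l) := fun l => Finset.measurable_prod _ fun c _ =>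
    (fourier (l c)).continuous.measurable.comp (measurable_pi_apply c)
  have hwm : ∀ S, Measurable (w S) := fun S => Finset.measurable_prod _ fun c _ =>
    (measurable_ph _).comp (measurable_pi_apply c)
  have he1 : ∀ l θ, ‖e l θ‖ = 1 := fun l θ => by simp only [e, norm_prod, norm_fourier, prod_const_one]
  have hw1 : ∀ S θ, ‖w S θ‖ = 1 := fun S θ => by simp only [w, norm_prod, norm_ph, prod_const_one]
  have her : ∀ S, ∫ θ, ‖er S θ‖ ^ 2 ∂μ = 1 - ∑ l ∈ Bx, ‖A S l‖ ^ 2 := by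
    intro S
    refine bessel μ Bx (w S) (hwm S) (hw1 S) e hem he1 (fun a b => ?_) (A S) (fun a => ?_)
    · simp only [e, map_prod, ← prod_mul_distrib]
      rw [integral_fintype_prod_eq_prod (fun c x => fourier (a c) x * conj (fourier (b c) x))]
      simp only [← fourier_neg, ← fourier_add, int_fourier, ← sub_eq_add_neg, sub_eq_zero]
      rw [Fintype.prod_boole]
      simp only [funext_iff]
    · simp only [e, w, map_prod, ← prod_mul_distrib]
      rw [integral_fintype_prod_eq_prod (fun c x => ph (supp S c.1) x * conj (fourier (a c) x))]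
      simp only [ph_int, A]
  have her2 : ∀ S, κ S * ∫ θ, ‖er S θ‖ ^ 2 ∂μ ≤ δ * κ S := by
    intro S
    by_cases h : ∃ i, supp S i = true
    · rw [her, mul_comm]
      exact mul_le_mul_of_nonneg_right (by linarith [happ _ h]) (hκ S)
    · rw [hκ0 S (by simpa using h)]; simp
  set σ' := ∑ l ∈ Bx, κ' l with hσ'
  have hσσ : σ - σ' = ∑ S, κ S * ∫ θ, ‖er S θ‖ ^ 2 ∂μ := by
    simp only [her, hσ', κ', mul_sub, mul_one, sum_sub_distrib, mul_sum]
    rw [sum_comm]
  have hσ1 : 0 ≤ σ - σ' := by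
    rw [hσσ]; exact sum_nonneg fun S _ => mul_nonneg (hκ S) (integral_nonneg fun _ => by positivity)
  have hσ2 : σ - σ' ≤ δ * σ := by
    rw [hσσ, hσd, mul_sum]; exact sum_le_sum fun S _ => her2 S
  let P := Bx.filter fun l => 0 < κ' l ∧ 0 < l ⬝ᵥ γ
  have hσ3 : σ' = 2 * ∑ i : P, κ' i.1 := by
    rw [hσ', sum_pm Bx hsym γ hγ κ' hκ'n κ' (fun l h => le_antisymm (not_lt.1 h) (hκ'0 l)), mul_sum]
    refine sum_congr rfl fun i _ => ?_
    simp only [Fintype.sum_bool, sgn, if_true, one_smul, Bool.false_eq_true, if_false, neg_smul, hκ'n]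
    ring
  have hP : Nonempty P := by
    by_contra h
    rw [not_nonempty_iff] at h
    rw [univ_eq_empty, sum_empty] at hσ3
    nlinarith
  obtain ⟨J, hJ0, hJ, Θ, Φ, hΦi, hΦ, hmain⟩ := pack (fun i : P => i.1)
    (fun i => hprim _ (mem_filter.1 i.2).1) (fun i j hij => ⟨fun h => hij (Subtype.ext h), fun h => by
      have h1 := (mem_filter.1 i.2).2.2
      have h2 := (mem_filter.1 j.2).2.2
      rw [h, neg_dotProduct] at h1; omega⟩) γ (fun i => (mem_filter.1 i.2).2.2)
    (fun i : P => κ' i.1) (fun i => (mem_filter.1 i.2).2.1) (η / 4) (by positivity) J0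
  have hJR : (0:ℝ) < J := by exact_mod_cast hJ
  let Θ' : ℕ → β × Fin d → TT := fun j c => ((Θ j c : ℝ) : TT)
  have herm : ∀ S, Measurable (er S) := fun S => (hwm S).sub
    (Finset.measurable_sum _ fun l _ => (hem l).const_mul _)
  have heri : ∀ S j, Integrable (fun ω => ‖er S (Θ' j + ω)‖ ^ 2) μ := by
    intro S j
    refine bdd_int (((herm S).comp (measurable_const_add _)).norm.pow_const 2).aestronglyMeasurable
      ((1 + ∑ l ∈ Bx, ‖A S l‖) ^ 2) fun ω => ?_
    rw [Real.norm_eq_abs, abs_of_nonneg (by positivity)]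
    refine pow_le_pow_left₀ (norm_nonneg _) ((norm_sub_le _ _).trans ?_) 2
    rw [hw1]
    refine add_le_add le_rfl ((norm_sum_le _ _).trans (le_of_eq ?_))
    simp only [norm_mul, he1, mul_one]
  obtain ⟨ω, hω⟩ := exists_le_integral (μ := μ)
    (f := fun ω => ∑ S, κ S * ∑ j ∈ range J, ‖er S (Θ' j + ω)‖ ^ 2)
    (integrable_finsetSum _ fun S _ => (integrable_finsetSum _ fun j _ => heri S j).const_mul _)
  have hω2 : ∑ S, κ S * ∑ j ∈ range J, ‖er S (Θ' j + ω)‖ ^ 2 ≤ J * (δ * σ) := by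
    refine hω.trans ?_
    rw [integral_finsetSum _ fun S _ => (integrable_finsetSum _ fun j _ => heri S j).const_mul _,
      hσd, mul_sum, mul_sum]
    refine sum_le_sum fun S _ => ?_
    rw [integral_const_mul, integral_finsetSum _ fun j _ => heri S j]
    simp only [integral_add_left_eq_self (fun θ => ‖er S θ‖ ^ 2), sum_const, card_range, nsmul_eq_mul]
    rw [mul_left_comm]
    exact mul_le_mul_of_nonneg_left (her2 S) hJR.le
  let E : Sg → TT → ℂ := fun S x => ∑ j ∈ range J, er S (Θ' j + ω) * fourier (-(j:ℤ)) x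
  let Ψ : TT → ℝ := fun x => n * (∑ S, κ S * ‖E S x‖ ^ 2) / J
  have hΨc : Continuous Ψ := by simp only [Ψ, E]; fun_prop
  have hΨ : ∫ x, Ψ x ∂mT ≤ n * (δ * σ) := by
    simp only [Ψ]
    rw [integral_div, integral_const_mul, integral_finsetSum _ fun S _ =>
      cont_int (by simp only [E]; fun_prop), div_le_iff₀ hJR, mul_assoc]
    refine mul_le_mul_of_nonneg_left ?_ hn0
    rw [mul_comm]
    refine le_trans (le_of_eq (sum_congr rfl fun S _ => ?_)) hω2
    rw [integral_const_mul, parseval_trig _ (fun j : ℕ => -(j:ℤ)) (fun a _ b _ h => by simpa using h)]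
  refine ⟨J, hJ0, hJ, fun j i => ∏ r, sqw ((Θ' j + ω) (i, r)),
    fun x => (1 + ε) * Φ x + (|σ - σ'| + ε * σ') + (1 + 1 / ε) * Ψ x, fun j i => ?_, ?_, ?_, ?_⟩
  · refine prod_induction _ (fun y : ℝ => y = 1 ∨ y = -1) ?_ (Or.inl rfl) fun r _ => sqw_pm _
    rintro a b (rfl | rfl) (rfl | rfl) <;> simp
  · exact ((hΦi.const_mul _).add (integrable_const _)).add ((cont_int hΨc).const_mul _)
  · have i1 : Integrable (fun x => (1 + ε) * Φ x + (|σ - σ'| + ε * σ')) mT :=
      (hΦi.const_mul _).add (integrable_const _)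
    rw [integral_add i1 ((cont_int hΨc).const_mul _), integral_add (hΦi.const_mul _)
      (integrable_const _), integral_const_mul, integral_const_mul, integral_const, probReal_univ,
      one_smul, abs_of_nonneg hσ1]
    have b1 := mul_le_mul_of_nonneg_left hΨ (by positivity : 0 ≤ 1 + 1 / ε)
    have b2 := mul_le_mul_of_nonneg_left hΦ (by positivity : 0 ≤ 1 + ε)
    nlinarith
  · intro c hc x
    have hm := hmain (fun i s => (∑ S, c S * A S (sgn s • i.1)) * e (sgn s • i.1) ω) (fun i s => by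
      rw [norm_mul, he1, mul_one, hcA c hc]
      cases s <;> simp [sgn, hκ'n]) x
    rw [← hσ3] at hm
    have h2 : ‖∑ S, c S * E S x‖ ^ 2 / J ≤ Ψ x := by
      simp only [Ψ]
      refine div_le_div_of_nonneg_right ((norm_sq_sum_le _ _).trans (le_of_eq ?_)) hJR.le
      simp only [norm_mul, mul_pow, hc, card_univ, hn]
    refine le_trans (le_of_eq ?_) (perturb (σ := σ) _ _ hJR hε0 hm h2)
    congr 5
    simp only [E, mul_sum]
    rw [sum_comm (s := univ), ← sum_add_distrib]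
    refine sum_congr rfl fun j _ => ?_
    simp only [← mul_assoc]
    rw [← sum_mul, ← add_mul]
    congr 1
    have h3 := sum_pm Bx hsym γ hγ κ' hκ'n (fun l => (∑ S, c S * A S l) * e l (Θ' j + ω))
      (fun l h => by
        have := hcA c hc l
        rw [le_antisymm (not_lt.1 h) (hκ'0 l), sq_eq_zero_iff, norm_eq_zero] at this
        rw [this, zero_mul])
    have h4 : ∀ l, e l (Θ' j + ω) = e l ω * ee (∑ k, l k * Θ j k) := by
      intro l
      simp only [e, Pi.add_apply, fourier_add_arg, prod_mul_distrib, Θ', fourier_coe]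
      rw [mul_comm]
      congr 1
      induction (univ : Finset (β × Fin d)) using Finset.induction_on with
      | empty => simp [ee_zero]
      | insert a s ha ih => rw [prod_insert ha, sum_insert ha, ee_add, ih]
    have h5 : ∀ S, (∏ i, if supp S i then (((∏ r, sqw ((Θ' j + ω) (i, r)) : ℝ)) : ℂ) else 1) =
        w S (Θ' j + ω) := by
      intro S
      simp only [w, Fintype.prod_prod_type, ph]
      refine prod_congr rfl fun i _ => ?_
      split_ifs <;> simp
    simp only [h5, er, mul_sub, sum_sub_distrib]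
    have h6 : ∑ S, c S * ∑ l ∈ Bx, A S l * e l (Θ' j + ω) =
        ∑ l ∈ Bx, (∑ S, c S * A S l) * e l (Θ' j + ω) := by
      simp only [mul_sum, sum_mul]; rw [sum_comm]
      simp only [mul_assoc]
    rw [h6, h3]
    simp only [h4, Pi.smul_apply, smul_eq_mul, Int.cast_mul, mul_assoc]
    ring

end Vale.Agent.P130
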